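import Vale.Agent.P203.DGDefs

namespace Vale.Agent.P203

open Finset

variable {V Ar : Type} [DecidableEq V] [Fintype Ar] [DecidableEq Ar]

section Quiver

variable (q : DQ V Ar)

@[simp] theorem DQ.src_star (a : Ar) : q.src (q.star a) = q.tgt a := rfl

@[simp] theorem DQ.tgt_star (a : Ar) : q.tgt (q.star a) = q.src a := by
  rw [DQ.tgt, q.star_star]

theorem DQ.tgt_ne_src (a : Ar) : q.tgt a ≠ q.src a := q.noloop a

theorem DQ.star_inj {a b : Ar} (h : q.star a = q.star b) : a = b := by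
  rw [← q.star_star a, h, q.star_star]

attribute [simp] DQ.star_star

end Quiver

theorem eq_of_add_eq_zero_F2 {N : Type*} [AddCommGroup N] [Module F2 N] {x y : N}
    (h : x + y = 0) : x = y := by
  rw [← add_zero x, ← add_self_F2 y, ← add_assoc, h, zero_add]

theorem add_add_cancel_F2 {N : Type*} [AddCommGroup N] [Module F2 N] (x y : N) :
    x + (x + y) = y := by
  rw [← add_assoc, add_self_F2, zero_add]

theorem neg_F2 {N : Type*} [AddCommGroup N] [Module F2 N] (x : N) : -x = x :=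
  neg_eq_of_add_eq_zero_left (add_self_F2 x)

variable (q : DQ V Ar) (X : Raw V Ar)

theorem inn_single (i : V) (a : Ar) (x : X.M) :
    inn q X i (Pi.single a x) = if q.tgt a = i then X.ρ a x else 0 := by
  rw [inn_apply, sum_eq_single a]
  · simp
  · intro b _ hb
    simp [Pi.single_eq_of_ne hb]
  · simp

theorem sum_single_out (i : V) (x : X.M) :
    (∑ a, if q.tgt a = i then (Pi.single a (X.ρ (q.star a) x) : Ar → X.M) else 0) =
      out q X i x := by
  ext b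
  rw [Finset.sum_apply, out_apply, sum_eq_single b]
  · split_ifs <;> simp
  · intro a _ ha
    split_ifs <;> simp [Pi.single_eq_of_ne ha.symm]
  · simp

theorem dB_single (a : Ar) (x : X.M) :
    dB q X (Pi.single a x) = Pi.single a (X.d (q.src a) x) := by
  ext b
  rw [dB_apply]
  by_cases h : b = a
  · subst h
    simp
  · simp [Pi.single_eq_of_ne h]

theorem single_mem_GB {i : V} {n : ℤ} {a : Ar} (h : q.tgt a = i) {x : X.M}
    (hx : x ∈ X.G (q.src a) n) : (Pi.single a x : Ar → X.M) ∈ GB q X i n := by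
  rw [mem_GB]
  intro b
  by_cases hb : b = a
  · subst hb
    simp [h, hx]
  · simp [Pi.single_eq_of_ne hb]

section ValidFacts

variable {q X} (hX : Valid q X)
include hX

theorem Valid.ρ_star_mem {i : V} {n : ℤ} {a : Ar} (h : q.tgt a = i) {x : X.M}
    (hx : x ∈ X.G i n) : X.ρ (q.star a) x ∈ X.G (q.src a) n := by
  have := hX.ρ_mem (q.star a) n x (by rw [q.src_star, h]; exact hx)
  rwa [q.tgt_star] at this

theorem Valid.out_mem {i : V} {n : ℤ} {x : X.M} (hx : x ∈ X.G i n) :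
    out q X i x ∈ GB q X i n := by
  rw [mem_GB]
  intro a
  rw [out_apply]
  exact ⟨fun h => by rw [if_pos h]; exact hX.ρ_star_mem h hx, fun h => if_neg h⟩

theorem Valid.inn_mem {i : V} {n : ℤ} {b : Ar → X.M} (hb : b ∈ GB q X i n) :
    inn q X i b ∈ X.G i n := by
  rw [inn_apply]
  refine Submodule.sum_mem _ fun a _ => ?_
  split_ifs with h
  · exact h ▸ hX.ρ_mem a n _ (((mem_GB q X i n b).1 hb a).1 h)
  · exact zero_mem _

theorem Valid.dB_mem {i : V} {n : ℤ} {b : Ar → X.M} (hb : b ∈ GB q X i n) :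
    dB q X b ∈ GB q X i (n + 1) := by
  rw [mem_GB] at hb ⊢
  intro a
  rw [dB_apply]
  exact ⟨fun h => hX.d_mem _ _ _ ((hb a).1 h), fun h => by rw [(hb a).2 h, map_zero]⟩

theorem Valid.dB_dB {i : V} {n : ℤ} {b : Ar → X.M} (hb : b ∈ GB q X i n) :
    dB q X (dB q X b) = 0 := by
  rw [mem_GB] at hb
  ext a
  rw [dB_apply, dB_apply]
  by_cases h : q.tgt a = i
  · exact hX.dd _ _ _ ((hb a).1 h)
  · rw [(hb a).2 h, map_zero, map_zero, Pi.zero_apply]

theorem Valid.d_inn {i : V} {n : ℤ} {b : Ar → X.M} (hb : b ∈ GB q X i n) :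
    X.d i (inn q X i b) = inn q X i (dB q X b) := by
  rw [mem_GB] at hb
  rw [inn_apply, inn_apply, map_sum]
  refine sum_congr rfl fun a _ => ?_
  split_ifs with h
  · rw [dB_apply, ← hX.dρ a n _ ((hb a).1 h), h]
  · exact map_zero _

theorem Valid.d_ρ_star {i : V} {n : ℤ} {a : Ar} (h : q.tgt a = i) {x : X.M}
    (hx : x ∈ X.G i n) : X.d (q.src a) (X.ρ (q.star a) x) = X.ρ (q.star a) (X.d i x) := by
  have := hX.dρ (q.star a) n x (by rw [q.src_star, h]; exact hx)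
  rwa [q.tgt_star, q.src_star, h] at this

theorem Valid.dB_out {i : V} {n : ℤ} {x : X.M} (hx : x ∈ X.G i n) :
    dB q X (out q X i x) = out q X i (X.d i x) := by
  ext a
  rw [dB_apply, out_apply, out_apply]
  split_ifs with h
  · exact hX.d_ρ_star h hx
  · exact map_zero _

theorem Valid.inn_out {i : V} {n : ℤ} {x : X.M} (hx : x ∈ X.G i n) :
    inn q X i (out q X i x) = X.d i (X.t i x) + X.t i (X.d i x) := by
  rw [hX.dt i n x hx, inn_apply]
  refine sum_congr rfl fun a _ => ?_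
  split_ifs with h
  · rw [out_apply, if_pos h]
  · rfl

theorem Valid.t_mem' {i : V} {n : ℤ} {x : X.M} (hx : x ∈ X.G i n) : X.t i x ∈ X.G i (n - 1) :=
  hX.t_mem i (n - 1) x (by rwa [sub_add_cancel])

theorem Valid.sM_mem {i : V} {n : ℤ} {p : X.M × (Ar → X.M)} (h1 : p.1 ∈ X.G i (n + 1))
    (h2 : p.2 ∈ GB q X i n) : sM q X i p ∈ X.G i n :=
  add_mem (hX.t_mem i n _ h1) (hX.inn_mem h2)

theorem Valid.Bd_le_Zc (j : V) (n : ℤ) : Bd X j n ≤ Zc X j n := by
  rintro _ ⟨x, hx, rfl⟩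
  exact ⟨by simpa using hX.d_mem j _ x hx, hX.dd j _ x hx⟩

end ValidFacts

section TmLemmas

variable {i j : V} {a : Ar} {n : ℤ}

theorem mem_Tm_self (p : X.M × (Ar → X.M)) :
    p ∈ (Tm q X i).G i n ↔ p.1 ∈ X.G i (n + 1) ∧ p.2 ∈ GB q X i n := by
  simp only [Tm, if_true]
  exact Submodule.mem_prod

theorem mem_Tm_ne (h : j ≠ i) (p : X.M × (Ar → X.M)) :
    p ∈ (Tm q X i).G j n ↔ p.1 ∈ X.G j n ∧ p.2 = 0 := by
  simp only [Tm, if_neg h]
  exact Submodule.mem_prod.trans (by rw [Submodule.mem_bot])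

theorem Tm_d_self (p : X.M × (Ar → X.M)) :
    (Tm q X i).d i p = (X.d i p.1, out q X i p.1 + dB q X p.2) := by
  simp only [Tm, if_true]
  rfl

theorem Tm_d_ne (h : j ≠ i) (p : X.M × (Ar → X.M)) : (Tm q X i).d j p = (X.d j p.1, 0) := by
  simp only [Tm, if_neg h]
  rfl

theorem Tm_t_self (p : X.M × (Ar → X.M)) : (Tm q X i).t i p = (sM q X i p, 0) := by
  simp only [Tm, if_true]
  rfl

theorem Tm_t_ne (h : j ≠ i) (p : X.M × (Ar → X.M)) : (Tm q X i).t j p = (X.t j p.1, 0) := by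
  simp only [Tm, if_neg h]
  rfl

theorem Tm_ρ_in (h : q.tgt a = i) (p : X.M × (Ar → X.M)) :
    (Tm q X i).ρ a p = (0, Pi.single a p.1) := by
  simp only [Tm, if_pos h]
  rfl

theorem Tm_ρ_out (h : q.src a = i) (p : X.M × (Ar → X.M)) :
    (Tm q X i).ρ a p = (X.ρ a (sM q X i p), 0) := by
  have h' : q.tgt a ≠ i := h ▸ q.tgt_ne_src a
  simp only [Tm, if_neg h', if_pos h]
  rfl

theorem Tm_ρ_ne (h : q.tgt a ≠ i) (h' : q.src a ≠ i) (p : X.M × (Ar → X.M)) :
    (Tm q X i).ρ a p = (X.ρ a p.1, 0) := by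
  simp only [Tm, if_neg h, if_neg h']
  rfl

theorem mem_Tp_self (p : X.M × (Ar → X.M)) :
    p ∈ (Tp q X i).G i n ↔ p.1 ∈ X.G i (n - 1) ∧ p.2 ∈ GB q X i n := by
  simp only [Tp, if_true]
  exact Submodule.mem_prod

theorem mem_Tp_ne (h : j ≠ i) (p : X.M × (Ar → X.M)) :
    p ∈ (Tp q X i).G j n ↔ p.1 ∈ X.G j n ∧ p.2 = 0 := by
  simp only [Tp, if_neg h]
  exact Submodule.mem_prod.trans (by rw [Submodule.mem_bot])

theorem Tp_d_self (p : X.M × (Ar → X.M)) :
    (Tp q X i).d i p = (X.d i p.1 + inn q X i p.2, dB q X p.2) := by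
  simp only [Tp, if_true]
  rfl

theorem Tp_d_ne (h : j ≠ i) (p : X.M × (Ar → X.M)) : (Tp q X i).d j p = (X.d j p.1, 0) := by
  simp only [Tp, if_neg h]
  rfl

theorem Tp_t_self (p : X.M × (Ar → X.M)) :
    (Tp q X i).t i p = (X.t i p.1, out q X i p.1) := by
  simp only [Tp, if_true]
  rfl

theorem Tp_t_ne (h : j ≠ i) (p : X.M × (Ar → X.M)) : (Tp q X i).t j p = (X.t j p.1, 0) := by
  simp only [Tp, if_neg h]
  rfl

theorem Tp_ρ_in (h : q.tgt a = i) (p : X.M × (Ar → X.M)) :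
    (Tp q X i).ρ a p = (X.t i (X.ρ a p.1), out q X i (X.ρ a p.1)) := by
  simp only [Tp, if_pos h]
  rfl

theorem Tp_ρ_out (h : q.src a = i) (p : X.M × (Ar → X.M)) :
    (Tp q X i).ρ a p = (p.2 (q.star a), 0) := by
  have h' : q.tgt a ≠ i := h ▸ q.tgt_ne_src a
  simp only [Tp, if_neg h', if_pos h]
  rfl

theorem Tp_ρ_ne (h : q.tgt a ≠ i) (h' : q.src a ≠ i) (p : X.M × (Ar → X.M)) :
    (Tp q X i).ρ a p = (X.ρ a p.1, 0) := by
  simp only [Tp, if_neg h, if_neg h']
  rfl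

end TmLemmas

end Vale.Agent.P203
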