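import Vale.Agent.P203.DGBraidD

namespace Vale.Agent.P203.Br

open Finset

variable {V Ar : Type} [DecidableEq V] [Fintype Ar] [DecidableEq Ar] {q : DQ V Ar}
  {X : Raw V Ar} {i j : V} {β α : Ar}

theorem two_F2 {N : Type*} [AddCommGroup N] [Module F2 N] {x y : N} (z : N) (h : x = y + (z + z)) :
    x = y := by
  rw [h, add_self_F2, add_zero]

theorem two_F2' {N : Type*} [AddCommGroup N] [Module F2 N] {x y : N} (z : N) (h : x + (z + z) = y) :
    x = y := by
  rw [← h, add_self_F2, add_zero]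

theorem mem_i : i ∈ ({i, j} : Finset V) := by simp

theorem mem_j : j ∈ ({i, j} : Finset V) := by simp

theorem sM_pair (x : X.M) (b : Ar → X.M) (p : V) :
    sM q X p (x, b) = X.t p x + inn q X p b := rfl

variable (hX : Valid q X) (h : Edge q i j β α)
include hX h

theorem ι_mem (k : V) (n : ℤ) (p : M1 X) (hp : p ∈ (CC q X i j β α).G k n) :
    ι q X i j β α k p ∈ (YY q X i j).G k n := by
  obtain ⟨x, b⟩ := p
  by_cases h1 : k = i
  · subst h1
    obtain ⟨hx, hb⟩ := (memC_i X n _).1 hp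
    dsimp only at hx hb
    rw [ι_i]
    exact (memY_i X h n _).2 ⟨0, zero_mem _, _, single_mem_GB q X h.tb (h.sb.symm ▸ hx), _,
      (mem2_iff X h n _).2 ⟨x, hx, 0, zero_mem _, 0, zero_mem _, _, R_mem X hb, rfl⟩, _,
      R_mem X hb, rfl⟩
  by_cases h2 : k = j
  · subst h2
    obtain ⟨hx, hb⟩ := (memC_j X h n _).1 hp
    dsimp only at hx hb
    rw [ι_j X h]
    exact (memY_j X h n _).2 ⟨_, ρα_mem X hX h hx, x, hx, _, R_mem X hb, _, R_mem X hb, rfl⟩
  · rw [ι_ne X h1 h2]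
    exact (memY_ne X h1 h2 n _).2 ⟨x, ((memC_ne X h1 h2 n _).1 hp).1, rfl⟩

theorem ι_d (k : V) (n : ℤ) (p : M1 X) (hp : p ∈ (CC q X i j β α).G k n) :
    ι q X i j β α k ((CC q X i j β α).d k p) = (YY q X i j).d k (ι q X i j β α k p) := by
  obtain ⟨x, b⟩ := p
  by_cases h1 : k = i
  · subst h1
    rw [dC_i, ι_i, ι_i, dY_i X h]
    refine mk3_congr X ?_ (mk2_congr X rfl ?_ ?_ ?_) ?_
    · simp only [map_zero, zero_add, dB_single, h.sb]
    · simp only [map_zero, add_zero]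
    · simp only [map_zero, add_zero, add_self_F2]
    · simp only [map_add, R_E, R_out, R_out_ne X h.ne.symm, E_E, R_dB, add_zero, map_zero]
    · simp only [map_add, R_E, R_out, R_out_ne X h.ne, E_E, R_dB, zero_add, sM_pair, map_zero,
        inn_β X h]
  by_cases h2 : k = j
  · subst h2
    obtain ⟨hx, hb⟩ := (memC_j X h n _).1 hp
    dsimp only at hx hb
    rw [dC_j X h, ι_j X h, ι_j X h, dY_j X h]
    refine Prod.ext (mk2_congr X (d_ρα X hX h hx).symm rfl ?_ ?_) rfl
    · have := split_i X h (out q X i x)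
      rw [R_out, out_β X h] at this
      simp only [map_add, R_E, R_out, R_out_ne X h.ne, R_dB, add_zero, map_zero, ← this]
      exact two_F2' (out q X i x) (by abel)
    · simp only [map_add, R_E, R_out, R_out_ne X h.ne.symm, E_E, R_dB, zero_add, map_zero]
  · rw [dC_ne X h1 h2, ι_ne X h1 h2, ι_ne X h1 h2, dY_ne X h1 h2]

theorem π_mem (k : V) (n : ℤ) (p : M3 X) (hp : p ∈ (YY q X i j).G k n) :
    π q X i j β α k p ∈ (CC q X i j β α).G k n := by
  by_cases h1 : k = i
  · subst h1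
    obtain ⟨x', hx', bt', hbt', w, hw, b, hb, rfl⟩ := (memY_i X h n _).1 hp
    obtain ⟨y, hy, x, hx, bt, hbt, c, hc, rfl⟩ := (mem2_iff X h n _).1 hw
    rw [π_i X h]
    exact (memC_i X n _).2 ⟨hy, add_mem (add_mem (E_mem X mem_j hc) (E_mem X mem_i hb))
      (E_mem X mem_i (hX.out_mem (hX.sM_mem (p := (x, bt)) hx hbt)))⟩
  by_cases h2 : k = j
  · subst h2
    obtain ⟨y, hy, x, hx, bt, hbt, c, hc, rfl⟩ := (memY_j X h n _).1 hp
    rw [π_j X h, map_add]
    exact (memC_j X h n _).2 ⟨hx, add_mem (add_mem (E_mem X mem_i hbt)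
      (E_mem X mem_j (hX.out_mem (GB_β X h hbt)))) (E_mem X mem_j hc)⟩
  · obtain ⟨x, hx, rfl⟩ := (memY_ne X h1 h2 n _).1 hp
    rw [π_ne X h1 h2]
    exact (memC_ne X h1 h2 n _).2 ⟨hx, rfl⟩

theorem π_d (k : V) (n : ℤ) (p : M3 X) (hp : p ∈ (YY q X i j).G k n) :
    π q X i j β α k ((YY q X i j).d k p) = (CC q X i j β α).d k (π q X i j β α k p) := by
  by_cases h1 : k = i
  · subst h1
    obtain ⟨x', hx', bt', hbt', w, hw, b, hb, rfl⟩ := (memY_i X h n _).1 hp
    obtain ⟨y, hy, x, hx, bt, hbt, c, hc, rfl⟩ := (mem2_iff X h n _).1 hw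
    rw [dY_i X h, π_i X h, π_i X h, dC_i]
    refine Prod.ext rfl ?_
    have e1 : sM q X k (x' + X.d k x, bt' + (Pi.single β y + (out q X k x + dB q X bt))) =
        sM q X k (x', bt') + X.ρ β y + X.d k (sM q X k (x, bt)) := by
      simp only [sM_pair, map_add, inn_β X h, hX.inn_out hx, hX.d_inn hbt]
      exact two_F2 (X.t k (X.d k x)) (by abel)
    have e2 := hX.dB_out (hX.sM_mem (p := (x, bt)) hx hbt)
    dsimp only
    rw [e1]
    simp only [map_add, ← E_dB, e2]
    exact two_F2 (E q X {k, j} (out q X k (sM q X k (x', bt')))) (by abel)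
  by_cases h2 : k = j
  · subst h2
    obtain ⟨y, hy, x, hx, bt, hbt, c, hc, rfl⟩ := (memY_j X h n _).1 hp
    rw [dY_j X h, π_j X h, π_j X h, dC_j X h]
    refine Prod.ext rfl ?_
    have e2 := hX.dB_out (GB_β X h hbt)
    simp only [map_add, ← E_dB, e2, Pi.add_apply, Pi.single_eq_same, out_β X h, dB_β X h,
      E_single_β X h]
    exact two_F2 (E q X {i, k} (out q X k y)) (by abel)
  · obtain ⟨x, hx, rfl⟩ := (memY_ne X h1 h2 n _).1 hp
    rw [dY_ne X h1 h2, π_ne X h1 h2, π_ne X h1 h2, dC_ne X h1 h2]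

theorem C_d_mem (k : V) (n : ℤ) (p : M1 X) (hp : p ∈ (CC q X i j β α).G k n) :
    (CC q X i j β α).d k p ∈ (CC q X i j β α).G k (n + 1) := by
  obtain ⟨x, b⟩ := p
  by_cases h1 : k = i
  · subst h1
    obtain ⟨hx, hb⟩ := (memC_i X n _).1 hp
    dsimp only at hx hb
    rw [dC_i, map_add]
    exact (memC_i X _ _).2 ⟨hX.d_mem _ _ _ hx, add_mem (add_mem (E_mem X mem_j (hX.out_mem hx))
      (E_mem X mem_i (hX.out_mem (ρα_mem X hX h.symm hx)))) (dB_GE X hX hb)⟩
  by_cases h2 : k = j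
  · subst h2
    obtain ⟨hx, hb⟩ := (memC_j X h n _).1 hp
    dsimp only at hx hb
    rw [dC_j X h, map_add]
    exact (memC_j X h _ _).2 ⟨hX.d_mem _ _ _ hx, add_mem (add_mem (E_mem X mem_i (hX.out_mem hx))
      (E_mem X mem_j (hX.out_mem (ρα_mem X hX h hx)))) (dB_GE X hX hb)⟩
  · rw [dC_ne X h1 h2]
    exact (memC_ne X h1 h2 _ _).2 ⟨hX.d_mem _ _ _ ((memC_ne X h1 h2 n _).1 hp).1, rfl⟩

omit hX in
theorem hh_mem (k : V) (n : ℤ) (p : M3 X) (hp : p ∈ (YY q X i j).G k (n + 1)) :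
    hh q X i j β α k p ∈ (YY q X i j).G k n := by
  by_cases h1 : k = i
  · subst h1
    obtain ⟨x', hx', bt', hbt', w, hw, b, hb, rfl⟩ := (memY_i X h _ _).1 hp
    obtain ⟨y, hy, x, hx, bt, hbt, c, hc, rfl⟩ := (mem2_iff X h _ _).1 hw
    rw [hh_i X h]
    exact (memY_i X h n _).2 ⟨x, hx, bt, hbt, _, (mem2_iff X h n _).2
      ⟨0, zero_mem _, 0, zero_mem _, 0, zero_mem _, 0, zero_mem _, rfl⟩, 0, zero_mem _, rfl⟩
  by_cases h2 : k = j
  · subst h2
    obtain ⟨y, hy, x, hx, bt, hbt, c, hc, rfl⟩ := (memY_j X h _ _).1 hp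
    rw [hh_j X h]
    exact (memY_j X h n _).2
      ⟨_, GB_β X h hbt, 0, zero_mem _, 0, zero_mem _, 0, zero_mem _, rfl⟩
  · rw [hh_ne X h1 h2]
    exact zero_mem _

omit hX in
theorem hom (k : V) (n : ℤ) (p : M3 X) (hp : p ∈ (YY q X i j).G k n) :
    ι q X i j β α k (π q X i j β α k p) + p =
      @HAdd.hAdd (M3 X) (M3 X) (M3 X) _ ((YY q X i j).d k (hh q X i j β α k p))
        (hh q X i j β α k ((YY q X i j).d k p)) := by
  by_cases h1 : k = i
  · subst h1
    obtain ⟨x', hx', bt', hbt', w, hw, b, hb, rfl⟩ := (memY_i X h n _).1 hp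
    obtain ⟨y, hy, x, hx, bt, hbt, c, hc, rfl⟩ := (mem2_iff X h n _).1 hw
    rw [π_i X h, ι_i, hh_i X h, dY_i X h, dY_i X h, hh_i X h, mk3_add, mk3_add, mk2_add, mk2_add]
    refine mk3_congr X (Prod.ext ?_ ?_) (mk2_congr X ?_ ?_ ?_ ?_) ?_
    · exact two_F2' (X.d k x) (by simp only [Prod.fst_add]; abel)
    · exact two_F2' (out q X k x + dB q X bt) (by simp only [Prod.snd_add]; abel)
    · rw [add_self_F2, map_zero, add_zero]
    · simp only [map_zero, add_zero, zero_add]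
    · simp only [map_zero, add_zero, zero_add, Pi.single_zero]
    · simp only [map_add, R_E, R_of_GB X hc, R_of_GB_ne X h.ne.symm hb, R_out_ne X h.ne.symm, E_E,
        map_zero, add_zero, add_self_F2]
    · simp only [map_add, R_E, R_of_GB X hb, R_of_GB_ne X h.ne hc, R_out, E_E,
        map_zero, add_zero, zero_add]
      exact two_F2 (E q X {k, j} b) (by abel)
  by_cases h2 : k = j
  · subst h2
    obtain ⟨y, hy, x, hx, bt, hbt, c, hc, rfl⟩ := (memY_j X h n _).1 hp
    rw [π_j X h, ι_j X h, hh_j X h, dY_j X h, dY_j X h, hh_j X h]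
    refine Prod.ext ((mk2_add ..).trans ((mk2_congr X ?_ ?_ ?_ ?_).trans (mk2_add ..).symm)) rfl
    · simp only [Pi.add_apply, Pi.single_eq_same, out_β X h, dB_β X h]
      exact two_F2' (X.d k (bt β)) (by abel)
    · rw [add_self_F2, map_zero, add_zero]
    · have := split_i X h bt
      simp only [map_add, R_E, R_of_GB X hbt, R_of_GB_ne X h.ne hc, R_out_ne X h.ne,
        map_zero, add_zero, ← this]
    · simp only [map_add, R_E, R_of_GB X hc, R_of_GB_ne X h.ne.symm hbt, R_out, E_E,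
        map_zero, add_zero, zero_add]
      exact two_F2 (E q X {i, k} c) (by abel)
  · obtain ⟨x, hx, rfl⟩ := (memY_ne X h1 h2 n _).1 hp
    rw [π_ne X h1 h2, ι_ne X h1 h2, dY_ne X h1 h2, dY_ne X h1 h2, hh_ne X h1 h2, hh_ne X h1 h2,
      add_self_F2, add_zero]
    simp only [Prod.fst_zero, map_zero, Prod.mk_zero_zero]

omit hX in
theorem π_ι (k : V) (n : ℤ) (p : M1 X) (hp : p ∈ (CC q X i j β α).G k n) :
    π q X i j β α k (ι q X i j β α k p) = p := by
  obtain ⟨x, b⟩ := p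
  by_cases h1 : k = i
  · subst h1
    obtain ⟨hx, hb⟩ := (memC_i X n _).1 hp
    dsimp only at hx hb
    rw [ι_i, π_i X h, sM_pair]
    simp only [map_zero, add_zero, ← R_E, E_of_GE X hb]
    rw [add_comm, R_add_R X h hb]
  by_cases h2 : k = j
  · subst h2
    obtain ⟨hx, hb⟩ := (memC_j X h n _).1 hp
    dsimp only at hx hb
    rw [ι_j X h, π_j X h, R_apply, GE_β X h hb, ite_self]
    simp only [map_zero, add_zero, ← R_E, E_of_GE X hb]
    rw [R_add_R X h hb]
  · rw [ι_ne X h1 h2, π_ne X h1 h2, ← ((memC_ne X h1 h2 n _).1 hp).2]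

omit hX in
theorem s2_ι {n : ℤ} (y : X.M) {b : Ar → X.M} (hb : b ∈ GE q X {i, j} n) :
    s2 q X i j α (mk2 q X i j α y 0 0 (R q X j b)) = sM q X j (y, b) := by
  rw [s2_mk2 X h, sM_pair, sM_pair, ← R_E, E_of_GE X hb, inn_R]
  simp only [map_zero, add_zero, zero_add]

omit hX in
theorem s3_ι {n : ℤ} (y : X.M) {b : Ar → X.M} (hb : b ∈ GE q X {i, j} n) :
    s3 q X i j β α (ι q X i j β α i (y, b)) =
      (X.ρ β y, Pi.single β (sM q X j (y, b)) + R q X i b) := by
  rw [ι_i, s3_mk3 X h, s2_ι h y hb, sM_pair, map_zero, zero_add, inn_β X h, ← R_E, E_of_GE X hb,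
    R_R]

omit hX in
theorem hρ (a : Ar) (n : ℤ) (p : M1 X) (hp : p ∈ (CC q X i j β α).G (q.src a) n) :
    (CC q X i j β α).ρ a p =
      π q X i j β α (q.tgt a) ((YY q X i j).ρ a (ι q X i j β α (q.src a) p)) := by
  obtain ⟨x, b⟩ := p
  change cR q X {i, j} i j β α a _ = _
  rw [cR]
  by_cases h1 : q.src a = i
  · rw [h1] at hp
    obtain ⟨hx, hb⟩ := (memC_i X n _).1 hp
    dsimp only at hx hb
    rw [if_pos h1, h1]
    by_cases h2 : q.tgt a = j
    · obtain rfl := h.ua a h1 h2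
      rw [if_pos h2, h2, ρY_α X h, s3_ι h x hb, π_j X h, cg_apply]
      simp only [map_add, map_zero, add_zero, zero_add, Pi.add_apply, Pi.single_eq_same,
        E_single_β X h, R_apply q X i b β, GE_β X h hb, ite_self, ← R_E, E_of_GE X hb]
    · have h3 : q.tgt a ≠ i := h1 ▸ q.tgt_ne_src a
      rw [if_neg h2, ρY_outi X h h1 h2, s3_ι h x hb, π_ne X h3 h2, co_apply,
        sM_pair (X.ρ β x), map_add (inn q X i),
        inn_β X h, inn_R]
      dsimp only
      congr 2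
      abel
  by_cases h1' : q.src a = j
  · rw [h1'] at hp
    obtain ⟨hx, hb⟩ := (memC_j X h n _).1 hp
    dsimp only at hx hb
    rw [if_neg h1, if_pos h1', h1', ι_j X h]
    by_cases h2 : q.tgt a = i
    · obtain rfl := h.ub a h1' h2
      rw [if_pos h2, h2, ρY_β X h, π_i X h, cg_apply, sM_pair, sM_pair, inn_R, ← R_E,
        E_of_GE X hb, map_zero, add_zero]
    · have h3 : q.tgt a ≠ j := h1' ▸ q.tgt_ne_src a
      rw [if_neg h2, ρY_outj X h h1' h2, π_ne X h2 h3, co_apply, s2_mk2 X h, sM_pair, sM_pair,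
        inn_R, ← R_E, E_of_GE X hb, inn_R]
      dsimp only
      congr 2
      abel
  · rw [if_neg h1, if_neg h1', ι_ne X h1 h1']
    by_cases h2 : q.tgt a = i
    · rw [if_pos (h2 ▸ mem_i), h2, ρY_ini X h2 h1 h1', ← mk2_zero (q := q) (i := i) (j := j) (α := α),
        π_i X h, sM_pair, single_E X h1 h1']
      simp only [map_zero, add_zero, zero_add]
      rfl
    by_cases h3 : q.tgt a = j
    · rw [if_pos (h3 ▸ mem_j), h3, ρY_inj X h h3 h1 h1', π_j X h, single_E X h1 h1']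
      simp only [map_zero, add_zero, zero_add, Pi.zero_apply]
      rfl
    · rw [if_neg (by simp [h2, h3]), ρY_ne X h1 h1' h2 h3, π_ne X h2 h3]
      rfl

omit hX in
theorem ht (k : V) (n : ℤ) (p : M1 X) (hp : p ∈ (CC q X i j β α).G k n) :
    cT q X i j k p = π q X i j β α k ((YY q X i j).t k (ι q X i j β α k p)) +
      ∑ a, if q.tgt a = k then π q X i j β α k ((YY q X i j).ρ a (hh q X i j β α (q.src a)
        ((YY q X i j).ρ (q.star a) (ι q X i j β α k p)))) else 0 := by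
  obtain ⟨x, b⟩ := p
  have hz : ∀ a k, π q X i j β α k ((YY q X i j).ρ a (0 : M3 X)) = 0 := fun a k =>
    (congrArg _ (map_zero ((YY q X i j).ρ a))).trans (map_zero _)
  have hz' : ∀ a k (p : M3 X), q.src a ≠ i → q.src a ≠ j →
      π q X i j β α k ((YY q X i j).ρ a (hh q X i j β α (q.src a) p)) = 0 := fun a k p e1 e2 => by
    rw [hh_ne X e1 e2, hz]
  rw [cT]
  by_cases h1 : k = i
  · subst h1
    obtain ⟨hx, hb⟩ := (memC_i X n _).1 hp
    dsimp only at hx hb
    rw [if_pos rfl, sum_eq_single β, if_pos h.tb, h.st, h.sb, ρY_α X h, s3_ι h x hb, hh_j X h,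
      ρY_β X h, π_i X h, tY_i X h, ← mk2_zero (q := q) (i := k) (j := j) (α := α), π_i X h]
    · simp only [sM_pair, map_zero, add_zero, zero_add, Pi.add_apply, Pi.single_eq_same,
        R_apply q X k b β, GE_β X h hb, ite_self, Prod.mk_add_mk]
      rfl
    · intro a _ ha
      split_ifs with h2
      · exact hz' a _ _ (h2 ▸ (q.tgt_ne_src a).symm) (fun e => ha (h.ub a e h2))
      · rfl
    · simp
  by_cases h2 : k = j
  · subst h2
    obtain ⟨hx, hb⟩ := (memC_j X h n _).1 hp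
    dsimp only at hx hb
    rw [if_neg h1, if_pos rfl, sum_eq_single α, if_pos h.ta, h.st', h.sa, ρY_β X h, tY_j X h,
      π_j X h, ι_j X h, hh_i X h, ρY_α X h, s3_mk3 X h, s2_mk2 X h, π_j X h]
    · simp only [sM_pair, map_zero, add_zero, zero_add, Pi.add_apply, Pi.single_zero, inn_R,
        Pi.zero_apply, Prod.mk_add_mk]
      rfl
    · intro a _ ha
      split_ifs with h2
      · exact hz' a _ _ (fun e => ha (h.ua a e h2)) (h2 ▸ (q.tgt_ne_src a).symm)
      · rfl
    · simp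
  · rw [if_neg h1, if_neg h2, ι_ne X h1 h2, tY_ne X h1 h2, π_ne X h1 h2, sum_eq_zero, add_zero]
    · rfl
    · intro a _
      split_ifs with h3
      · have e1 : q.src (q.star a) ≠ i := by rw [q.src_star, h3]; exact h1
        have e2 : q.src (q.star a) ≠ j := by rw [q.src_star, h3]; exact h2
        by_cases h4 : q.src a = i
        · rw [ρY_ini X (β := β) (by rw [q.tgt_star, h4]) e1 e2, h4,
            ← mk2_zero (q := q) (i := i) (j := j) (α := α), hh_i X h, mk2_zero]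
          have : mk3 q X i j β (0, 0) 0 0 = 0 := by
            simp only [mk3, map_zero, add_zero, Prod.mk_zero_zero, Pi.single_zero]
          rw [this, hz]
        by_cases h5 : q.src a = j
        · rw [ρY_inj X h (by rw [q.tgt_star, h5]) e1 e2, h5, hh_j X h, Pi.zero_apply, mk2_zero,
            Prod.mk_zero_zero, hz]
        · exact hz' a _ _ h4 h5
      · rfl

end Vale.Agent.P203.Br
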