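import Vale.Agent.P203.DGBasic

namespace Vale.Agent.P203

open Finset

variable {V Ar : Type} [DecidableEq V] [Fintype Ar] [DecidableEq Ar] {q : DQ V Ar}

namespace DGCyl

theorem eq_of {N : Type*} [AddCommGroup N] [Module F2 N] {x y : N} (z : N)
    (h : x + y = z + z) : x = y :=
  eq_of_add_eq_zero_F2 (h.trans (add_self_F2 z))

theorem swap4 {N : Type*} [AddCommGroup N] [Module F2 N] {a b c d : N} (h : a + b = c + d) :
    a + c = d + b := by
  refine eq_of (c + d) ?_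
  rw [show a + c + (d + b) = a + b + (c + d) by abel, h]

/-- lower triangular operators on the cylinder -/
def op {A B : Type} [AddCommGroup A] [Module F2 A] [AddCommGroup B] [Module F2 B]
    (u e : A →ₗ[F2] A) (v : B →ₗ[F2] B) (g : A →ₗ[F2] B) : (A × A × B) →ₗ[F2] (A × A × B) where
  toFun p := (u p.1 + e p.2.1, u p.2.1, v p.2.2 + g p.2.1)
  map_add' p r := by
    simp only [Prod.fst_add, Prod.snd_add, map_add, Prod.mk_add_mk, add_add_add_comm]
  map_smul' c p := by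
    simp only [Prod.smul_fst, Prod.smul_snd, map_smul, Prod.smul_mk, smul_add, RingHom.id_apply]

variable (X Y : Raw V Ar) (f : V → X.M →ₗ[F2] Y.M) (fa : Ar → X.M →ₗ[F2] Y.M)
  (ft : V → X.M →ₗ[F2] Y.M)

/-- the mapping cylinder -/
def cyl : Raw V Ar where
  M := X.M × X.M × Y.M
  G i n := (X.G i n).prod ((X.G i (n + 1)).prod (Y.G i n))
  d i := op (X.d i) LinearMap.id (Y.d i) (f i)
  t i := op (X.t i) 0 (Y.t i) (ft i)
  ρ a := op (X.ρ a) 0 (Y.ρ a) (fa a)

variable {X Y f fa ft}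

theorem cyl_mem {i : V} {n : ℤ} {a b : X.M} {c : Y.M} :
    (a, b, c) ∈ (cyl X Y f fa ft).G i n ↔ a ∈ X.G i n ∧ b ∈ X.G i (n + 1) ∧ c ∈ Y.G i n := Iff.rfl

theorem cyl_d (i : V) (a b : X.M) (c : Y.M) :
    (cyl X Y f fa ft).d i (a, b, c) = (X.d i a + b, X.d i b, Y.d i c + f i b) := rfl

theorem cyl_t (i : V) (a b : X.M) (c : Y.M) :
    (cyl X Y f fa ft).t i (a, b, c) = (X.t i a, X.t i b, Y.t i c + ft i b) :=
  Prod.ext (add_zero _) rfl

theorem cyl_ρ (r : Ar) (a b : X.M) (c : Y.M) :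
    (cyl X Y f fa ft).ρ r (a, b, c) = (X.ρ r a, X.ρ r b, Y.ρ r c + fa r b) :=
  Prod.ext (add_zero _) rfl

theorem valid (hX : Valid q X) (hY : Valid q Y) (h : AQis q X Y f fa ft) :
    Valid q (cyl X Y f fa ft) where
  fin i n := Module.Finite.iff_fg.2 ((Module.Finite.iff_fg.1 (hX.fin i n)).prod
    ((Module.Finite.iff_fg.1 (hX.fin i (n + 1))).prod (Module.Finite.iff_fg.1 (hY.fin i n))))
  bdd := by
    obtain ⟨N, hN⟩ := hX.bdd
    obtain ⟨N', hN'⟩ := hY.bdd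
    refine ⟨max N N', fun i n hn => ?_⟩
    change (X.G i n).prod ((X.G i (n + 1)).prod (Y.G i n)) = ⊥
    rw [hN i n (by omega), hN i (n + 1) (by omega), hN' i n (by omega), Submodule.prod_bot,
      Submodule.prod_bot]
  d_mem i n := fun ⟨a, b, c⟩ ⟨ha, hb, hc⟩ =>
    ⟨add_mem (hX.d_mem i n a ha) hb, hX.d_mem i _ b hb,
      add_mem (hY.d_mem i n c hc) (h.ch.mem i _ b hb)⟩
  t_mem i n := fun ⟨a, b, c⟩ ⟨ha, hb, hc⟩ => by
    rw [cyl_t]
    exact ⟨hX.t_mem i n a ha, hX.t_mem i _ b hb,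
      add_mem (hY.t_mem i n c hc) (h.t_mem i n b (by rwa [add_assoc] at hb))⟩
  ρ_mem r n := fun ⟨a, b, c⟩ ⟨ha, hb, hc⟩ => by
    rw [cyl_ρ]
    exact ⟨hX.ρ_mem r n a ha, hX.ρ_mem r _ b hb, add_mem (hY.ρ_mem r n c hc) (h.a_mem r n b hb)⟩
  dd i n := fun ⟨a, b, c⟩ ⟨ha, hb, hc⟩ => by
    rw [cyl_d, cyl_d, map_add, map_add, hX.dd i n a ha, hX.dd i _ b hb, hY.dd i n c hc,
      h.ch.d i _ b hb, zero_add, zero_add, add_self_F2, add_self_F2]
    rfl
  dρ r n := fun ⟨a, b, c⟩ ⟨ha, hb, hc⟩ => by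
    rw [cyl_d, cyl_ρ, cyl_d, cyl_ρ, map_add, map_add, map_add, hX.dρ r n a ha, hX.dρ r _ b hb,
      hY.dρ r n c hc, add_assoc, add_assoc, swap4 (h.ρ r _ b hb)]
  dt i n := fun ⟨a, b, c⟩ ⟨ha, hb, hc⟩ => by
    have e : (∑ r, if q.tgt r = i then (cyl X Y f fa ft).ρ r
        ((cyl X Y f fa ft).ρ (q.star r) (a, b, c)) else 0) =
        ((∑ r, if q.tgt r = i then X.ρ r (X.ρ (q.star r) a) else 0,
          ∑ r, if q.tgt r = i then X.ρ r (X.ρ (q.star r) b) else 0,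
          (∑ r, if q.tgt r = i then Y.ρ r (Y.ρ (q.star r) c) else 0) +
            ∑ r, if q.tgt r = i then Y.ρ r (fa (q.star r) b) + fa r (X.ρ (q.star r) b) else 0) :
          X.M × X.M × Y.M) := by
      rw [← sum_add_distrib, prod_mk_sum, prod_mk_sum]
      refine sum_congr rfl fun r _ => ?_
      split_ifs
      · rw [cyl_ρ, cyl_ρ, map_add, add_assoc]
      · rw [add_zero]
        rfl
    rw [e, ← hX.dt i n a ha, ← hX.dt i _ b hb, ← hY.dt i n c hc, ← h.t i _ b hb, cyl_d, cyl_t,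
      cyl_d, cyl_t, map_add, map_add, map_add]
    refine Prod.ext ?_ (Prod.ext rfl ?_)
    · change X.d i (X.t i a) + X.t i b + (X.t i (X.d i a) + X.t i b) = _
      rw [add_add_add_comm, add_self_F2, add_zero]
    · change Y.d i (Y.t i c) + Y.d i (ft i b) + f i (X.t i b) +
        (Y.t i (Y.d i c) + Y.t i (f i b) + ft i (X.d i b)) = _
      abel_nf

theorem qis_inl (h : AQis q X Y f fa ft) :
    Qis q X (cyl X Y f fa ft) fun _ => LinearMap.inl F2 X.M (X.M × Y.M) where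
  ch := ⟨fun i n x hx => cyl_mem.2 ⟨hx, zero_mem _, zero_mem _⟩, fun i n x _ => by
    change (X.d i x, 0, 0) = (cyl X Y f fa ft).d i (x, 0, 0)
    simp only [cyl_d, map_zero, add_zero]⟩
  t i n x _ := by
    change (X.t i x, 0, 0) = (cyl X Y f fa ft).t i (x, 0, 0)
    simp only [cyl_t, map_zero, add_zero]
  ρ r n x _ := by
    change (X.ρ r x, 0, 0) = (cyl X Y f fa ft).ρ r (x, 0, 0)
    simp only [cyl_ρ, map_zero, add_zero]
  acy i n x _ := fun ⟨a, b, c⟩ ⟨ha, hb, hc⟩ _ e => by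
    have e' : ((x, 0, 0) : X.M × X.M × Y.M) = (X.d i a + b, X.d i b, Y.d i c + f i b) := e
    simp only [Prod.mk.injEq] at e'
    obtain ⟨u, hu, v, hv, e1, e2⟩ := h.acy i n b hb c hc e'.2.1.symm
      (eq_of_add_eq_zero_F2 e'.2.2.symm).symm
    refine ⟨a + u, add_mem ha hu, (0, u, v), cyl_mem.2 ⟨zero_mem _, by rwa [sub_add_cancel], hv⟩,
      by rw [map_add, ← e1, e'.1], ?_⟩
    change ((a, b, c) : X.M × X.M × Y.M) =
      (a + u + (X.d i 0 + u), 0 + X.d i u, 0 + (Y.d i v + f i u))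
    rw [map_zero, zero_add, zero_add, zero_add, add_assoc, add_self_F2, add_zero, ← e1,
      add_comm, ← e2]

theorem qis_inr (h : AQis q X Y f fa ft) : Qis q Y (cyl X Y f fa ft) fun _ =>
    (LinearMap.inr F2 X.M (X.M × Y.M)).comp (LinearMap.inr F2 X.M Y.M) where
  ch := ⟨fun i n x hx => cyl_mem.2 ⟨zero_mem _, zero_mem _, hx⟩, fun i n x _ => by
    change (0, 0, Y.d i x) = (cyl X Y f fa ft).d i (0, 0, x)
    simp only [cyl_d, map_zero, add_zero]⟩
  t i n x _ := by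
    change (0, 0, Y.t i x) = (cyl X Y f fa ft).t i (0, 0, x)
    simp only [cyl_t, map_zero, add_zero]
  ρ r n x _ := by
    change (0, 0, Y.ρ r x) = (cyl X Y f fa ft).ρ r (0, 0, x)
    simp only [cyl_ρ, map_zero, add_zero]
  acy i n y _ := fun ⟨a, b, c⟩ ⟨ha, hb, hc⟩ _ e => by
    have e' : ((0, 0, y) : X.M × X.M × Y.M) = (X.d i a + b, X.d i b, Y.d i c + f i b) := e
    simp only [Prod.mk.injEq] at e'
    have e1 : X.d i a = b := eq_of_add_eq_zero_F2 e'.1.symm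
    refine ⟨c + f i a, add_mem hc (h.ch.mem i n a ha), (0, a, 0),
      cyl_mem.2 ⟨zero_mem _, by rwa [sub_add_cancel], zero_mem _⟩,
      by rw [map_add, ← h.ch.d i n a ha, e1, e'.2.2], ?_⟩
    change ((a, b, c) : X.M × X.M × Y.M) =
      (0 + (X.d i 0 + a), 0 + X.d i a, c + f i a + (Y.d i 0 + f i a))
    rw [map_zero, map_zero, zero_add, zero_add, zero_add, zero_add, add_assoc, add_self_F2,
      add_zero, e1]

end DGCyl

theorem AQis.eqv {X Y : Raw V Ar} (hX : Valid q X) (hY : Valid q Y) {f : V → X.M →ₗ[F2] Y.M}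
    {fa : Ar → X.M →ₗ[F2] Y.M} {ft : V → X.M →ₗ[F2] Y.M} (h : AQis q X Y f fa ft) :
    Eqv q X Y :=
  .trans _ (DGCyl.cyl X Y f fa ft) _ (.rel _ _ ⟨hX, DGCyl.valid hX hY h, _, DGCyl.qis_inl h⟩)
    (.symm _ _ (.rel _ _ ⟨hY, DGCyl.valid hX hY h, _, DGCyl.qis_inr h⟩))

theorem hpt {C Y : Raw V Ar} (hY : Valid q Y) (ι : V → C.M →ₗ[F2] Y.M) (π : V → Y.M →ₗ[F2] C.M)
    (h : V → Y.M →ₗ[F2] Y.M) (hι : Chain C Y ι) (hπ : Chain Y C π)
    (hd : ∀ i n, ∀ x ∈ C.G i n, C.d i x ∈ C.G i (n + 1))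
    (hmem : ∀ i n, ∀ y ∈ Y.G i (n + 1), h i y ∈ Y.G i n)
    (hom : ∀ i n, ∀ y ∈ Y.G i n, ι i (π i y) + y = Y.d i (h i y) + h i (Y.d i y))
    (hπι : ∀ i n, ∀ x ∈ C.G i n, π i (ι i x) = x)
    (hρ : ∀ a n, ∀ x ∈ C.G (q.src a) n, C.ρ a x = π (q.tgt a) (Y.ρ a (ι (q.src a) x)))
    (ht : ∀ i n, ∀ x ∈ C.G i n, C.t i x = π i (Y.t i (ι i x)) +
      ∑ a, if q.tgt a = i then π i (Y.ρ a (h (q.src a) (Y.ρ (q.star a) (ι i x)))) else 0) :
    Valid q C ∧ Eqv q C Y := by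
  obtain ⟨w, hw⟩ : ∃ w : V → C.M →ₗ[F2] Y.M, ∀ i x, w i x = Y.t i (ι i x) +
      ∑ a, if q.tgt a = i then Y.ρ a (h (q.src a) (Y.ρ (q.star a) (ι i x))) else 0 :=
    ⟨fun i => (Y.t i).comp (ι i) + ∑ a, if q.tgt a = i then
      (Y.ρ a).comp ((h (q.src a)).comp ((Y.ρ (q.star a)).comp (ι i))) else 0, fun i x => by
      rw [LinearMap.add_apply, LinearMap.sum_apply]
      congr 1
      exact sum_congr rfl fun a _ => by split_ifs <;> rfl⟩
  have hmem' : ∀ i n, ∀ y ∈ Y.G i n, h i y ∈ Y.G i (n - 1) := fun i n y hy =>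
    hmem i (n - 1) y (by rwa [sub_add_cancel])
  have htw : ∀ i n, ∀ x ∈ C.G i n, C.t i x = π i (w i x) := fun i n x hx => by
    rw [ht i n x hx, hw, map_add, map_sum]
    congr 1
    exact sum_congr rfl fun a _ => by split_ifs <;> simp
  have hwm : ∀ i n, ∀ x ∈ C.G i (n + 1), w i x ∈ Y.G i n := fun i n x hx => by
    rw [hw]
    refine add_mem (hY.t_mem i n _ (hι.mem i _ x hx)) (Submodule.sum_mem _ fun a _ => ?_)
    split_ifs with ha
    · have := hY.ρ_mem a n _ (hmem _ n _ (hY.ρ_star_mem ha (hι.mem i _ x hx)))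
      rwa [ha] at this
    · exact zero_mem _
  have hwm' : ∀ i n, ∀ x ∈ C.G i n, w i x ∈ Y.G i (n - 1) := fun i n x hx =>
    hwm i (n - 1) x (by rwa [sub_add_cancel])
  have hρs : ∀ i n a, q.tgt a = i → ∀ x ∈ C.G i n,
      C.ρ (q.star a) x = π (q.src a) (Y.ρ (q.star a) (ι i x)) := fun i n a ha x hx => by
    have := hρ (q.star a) n x (by rw [q.src_star, ha]; exact hx)
    rwa [q.tgt_star, q.src_star, ha] at this
  have hdw : ∀ i n, ∀ x ∈ C.G i n, Y.d i (w i x) + w i (C.d i x) =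
      ∑ a, if q.tgt a = i then Y.ρ a (ι (q.src a) (C.ρ (q.star a) x)) else 0 := by
    intro i n x hx
    have hx' := hι.mem i n x hx
    rw [hw, hw, map_add, map_sum, hι.d i n x hx, add_add_add_comm, hY.dt i n _ hx',
      ← sum_add_distrib, ← sum_add_distrib]
    refine sum_congr rfl fun a _ => ?_
    split_ifs with ha
    · have h1 := hY.ρ_star_mem ha hx'
      have h2 := hY.dρ a _ _ (hmem' _ n _ h1)
      rw [ha] at h2
      rw [h2, ← hY.d_ρ_star ha hx', ← map_add, ← hom _ n _ h1, hρs i n a ha x hx, map_add,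
        add_comm (Y.ρ a (ι _ _)), add_add_cancel_F2]
    · simp
  have hρm : ∀ a n, ∀ x ∈ C.G (q.src a) n, C.ρ a x ∈ C.G (q.tgt a) n := fun a n x hx => by
    rw [hρ a n x hx]
    exact hπ.mem _ n _ (hY.ρ_mem a n _ (hι.mem _ n x hx))
  have hρsm : ∀ i n a, q.tgt a = i → ∀ x ∈ C.G i n, C.ρ (q.star a) x ∈ C.G (q.src a) n :=
    fun i n a ha x hx => by
      rw [hρs i n a ha x hx]
      exact hπ.mem _ n _ (hY.ρ_star_mem ha (hι.mem i n x hx))
  have hC : Valid q C :=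
    { fin := fun i n => by
        have e : C.G i n = (Y.G i n).map (π i) :=
          le_antisymm (fun x hx => ⟨_, hι.mem i n x hx, hπι i n x hx⟩)
            fun _ ⟨y, hy, e⟩ => e ▸ hπ.mem i n y hy
        rw [e]
        exact Module.Finite.iff_fg.2 ((Module.Finite.iff_fg.1 (hY.fin i n)).map _)
      bdd := by
        obtain ⟨N, hN⟩ := hY.bdd
        refine ⟨N, fun i n hn => (Submodule.eq_bot_iff _).2 fun x hx => ?_⟩
        have := hι.mem i n x hx
        rw [hN i n hn, Submodule.mem_bot] at this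
        rw [← hπι i n x hx, this, map_zero]
      d_mem := hd
      t_mem := fun i n x hx => by
        rw [htw i _ x hx]
        exact hπ.mem i n _ (hwm i n x hx)
      ρ_mem := hρm
      dd := fun i n x hx => by
        rw [← hπι i _ _ (hd i _ _ (hd i n x hx)), hι.d i _ _ (hd i n x hx), hι.d i n x hx,
          hY.dd i n _ (hι.mem i n x hx), map_zero]
      dρ := fun a n x hx => by
        rw [hρ a n x hx, hρ a _ _ (hd _ n x hx), hι.d _ n x hx, ← hY.dρ a n _ (hι.mem _ n x hx),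
          hπ.d _ n _ (hY.ρ_mem a n _ (hι.mem _ n x hx))]
      dt := fun i n x hx => by
        rw [htw i n x hx, htw i _ _ (hd i n x hx), ← hπ.d i _ _ (hwm' i n x hx), ← map_add,
          hdw i n x hx, map_sum]
        refine sum_congr rfl fun a _ => ?_
        split_ifs with ha
        · rw [hρ a n _ (hρsm i n a ha x hx), ha]
        · exact map_zero _ }
  refine ⟨hC, AQis.eqv hC hY (f := ι)
    (fa := fun a => (h (q.tgt a)).comp ((Y.ρ a).comp (ι (q.src a))))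
    (ft := fun i => (h i).comp (w i)) ⟨hι, fun a n x hx => ?_, fun i n x hx => ?_,
      fun a n x hx => ?_, fun i n x hx => ?_, fun i n x hx y hy hx0 e => ?_⟩⟩
  · exact hmem _ n _ (hY.ρ_mem a _ _ (hι.mem _ _ x hx))
  · exact hmem i n _ (hwm i _ x (by rwa [add_assoc]))
  · have h1 := hι.mem _ n x hx
    simp only [LinearMap.comp_apply]
    rw [hι.d _ n x hx, ← hY.dρ a n _ h1, ← hom _ n _ (hY.ρ_mem a n _ h1), hρ a n x hx]
  · simp only [LinearMap.comp_apply]
    have e1 := hom i _ _ (hwm' i n x hx)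
    have e2 := congrArg (h i) (hdw i n x hx)
    have e3 : (∑ a, if q.tgt a = i then
        Y.ρ a (h (q.tgt (q.star a)) (Y.ρ (q.star a) (ι (q.src (q.star a)) x))) +
          h (q.tgt a) (Y.ρ a (ι (q.src a) (C.ρ (q.star a) x))) else 0) =
        (Y.t i (ι i x) + w i x) + h i (∑ a, if q.tgt a = i then
          Y.ρ a (ι (q.src a) (C.ρ (q.star a) x)) else 0) := by
      rw [hw, add_add_cancel_F2, map_sum, ← sum_add_distrib]
      refine sum_congr rfl fun a _ => ?_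
      split_ifs with ha
      · rw [q.tgt_star, q.src_star, ha]
      · simp
    rw [e3, ← e2, map_add, htw i n x hx]
    refine DGCyl.eq_of (Y.d i (h i (w i x)) + h i (Y.d i (w i x)) + h i (w i (C.d i x)) +
      Y.t i (ι i x)) ?_
    nth_rewrite 2 [← e1]
    abel
  · have h1 := hι.mem i _ x hx
    have hz := hmem i n _ h1
    have e1 := hom i _ _ h1
    rw [hπι i _ x hx, add_self_F2, ← hι.d i _ x hx, hx0, map_zero, map_zero, add_zero] at e1
    have e2 := hom i n _ hz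
    rw [← e1, map_zero, add_zero] at e2
    have e3 := hom i n y hy
    rw [← e] at e3
    refine ⟨π i y + π i (h i (ι i x)), add_mem (hπ.mem i n y hy) (hπ.mem i n _ hz),
      h i y + h i (h i (ι i x)), add_mem (hmem' i n y hy) (hmem' i n _ hz), ?_, ?_⟩
    · rw [map_add, ← hπ.d i n y hy, ← hπ.d i n _ hz, ← e1, ← e, hπι i _ x hx, map_zero, add_zero]
    · rw [map_add, map_add, ← e2]
      refine DGCyl.eq_of (ι i (π i y) + y + ι i (π i (h i (ι i x)))) ?_
      nth_rewrite 2 [e3]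
      abel

end Vale.Agent.P203
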