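import Vale.Agent.P203.DGValid
import Vale.Agent.P203.DGCyl
import Vale.Agent.P203.DGBraidE

namespace Vale.Agent.P203

open Finset

variable {V Ar : Type} [DecidableEq V] [Fintype Ar] [DecidableEq Ar] {q : DQ V Ar}

theorem Br.eqv_CC {X : Raw V Ar} (hX : Valid q X) {i j : V} {β α : Ar} (h : Br.Edge q i j β α) :
    Eqv q (Br.CC q X i j β α) (Br.YY q X i j) :=
  (hpt (C := Br.CC q X i j β α) (((hX.tm i).tm j).tm i) (Br.ι q X i j β α) (Br.π q X i j β α)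
    (Br.hh q X i j β α) ⟨Br.ι_mem hX h, Br.ι_d hX h⟩ ⟨Br.π_mem hX h, Br.π_d hX h⟩
    (Br.C_d_mem hX h) (Br.hh_mem h) (Br.hom h) (Br.π_ι h) (Br.hρ h) (Br.ht h)).2

theorem eqv_braid {X : Raw V Ar} (hX : Valid q X) {i j : V} {β : Ar}
    (h : ∀ a, (q.src a = j ∧ q.tgt a = i) ↔ a = β) :
    Eqv q (Tm q (Tm q (Tm q X i) j) i) (Tm q (Tm q (Tm q X j) i) j) := by
  have hb := (h β).2 rfl
  have he : Br.Edge q i j β (q.star β) := ⟨hb.1, hb.2, rfl, fun a h1 h2 => (h a).1 ⟨h1, h2⟩⟩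
  have h1 := Br.eqv_CC hX he
  have h2 := Br.eqv_CC hX he.symm
  rw [← Br.CC_symm q X he.ne] at h2
  exact Relation.EqvGen.trans _ _ _ (Relation.EqvGen.symm _ _ h1) h2

end Vale.Agent.P203
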