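import Vale.Agent.P203.DGBasic

namespace Vale.Agent.P203.Br

open Finset

variable {V Ar : Type} [DecidableEq V] [Fintype Ar] [DecidableEq Ar]

section Gen

variable {N B : Type} [AddCommGroup N] [Module F2 N] [AddCommGroup B] [Module F2 B]

/-- keep the coordinates satisfying `P` -/
def msk (P : Ar → Prop) [DecidablePred P] : (Ar → N) →ₗ[F2] (Ar → N) :=
  LinearMap.pi fun a => if P a then LinearMap.proj a else 0

omit [Fintype Ar] [DecidableEq Ar] in
theorem msk_apply (P : Ar → Prop) [DecidablePred P] (b : Ar → N) (a : Ar) :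
    msk P b a = if P a then b a else 0 := by
  rw [msk, LinearMap.pi_apply]
  split_ifs <;> rfl

/-- coordinatewise inclusion -/
def lift : (Ar → N) →ₗ[F2] (Ar → N × B) := (LinearMap.inl F2 N B).compLeft Ar

/-- coordinatewise projection -/
def unl : (Ar → N × B) →ₗ[F2] (Ar → N) := (LinearMap.fst F2 N B).compLeft Ar

omit [Fintype Ar] [DecidableEq Ar] in
@[simp] theorem lift_apply (b : Ar → N) (a : Ar) : (lift b : Ar → N × B) a = (b a, 0) := rfl

omit [Fintype Ar] [DecidableEq Ar] in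
@[simp] theorem unl_apply (b : Ar → N × B) (a : Ar) : unl b a = (b a).1 := rfl

end Gen

variable (q : DQ V Ar) (X : Raw V Ar)

/-- kill the coordinates of the arrows starting in `J` -/
def E (J : Finset V) : (Ar → X.M) →ₗ[F2] (Ar → X.M) := msk fun a => q.src a ∉ J

/-- keep the arrows into `p` -/
def R (p : V) : (Ar → X.M) →ₗ[F2] (Ar → X.M) := msk fun a => q.tgt a = p

omit [Fintype Ar] [DecidableEq Ar] in
theorem E_apply (J : Finset V) (b : Ar → X.M) (a : Ar) :
    E q X J b a = if q.src a ∉ J then b a else 0 := msk_apply _ b a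

omit [Fintype Ar] [DecidableEq Ar] in
theorem R_apply (p : V) (b : Ar → X.M) (a : Ar) :
    R q X p b a = if q.tgt a = p then b a else 0 := msk_apply _ b a

/-- the external neighbours -/
def GE (J : Finset V) (n : ℤ) : Submodule F2 (Ar → X.M) :=
  Submodule.pi Set.univ fun a => if q.tgt a ∈ J ∧ q.src a ∉ J then X.G (q.src a) n else ⊥

omit [Fintype Ar] [DecidableEq Ar] in
theorem mem_GE (J : Finset V) (n : ℤ) (b : Ar → X.M) :
    b ∈ GE q X J n ↔ ∀ a, (q.tgt a ∈ J ∧ q.src a ∉ J → b a ∈ X.G (q.src a) n) ∧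
      (¬ (q.tgt a ∈ J ∧ q.src a ∉ J) → b a = 0) := by
  simp only [GE, Submodule.mem_pi, Set.mem_univ, true_imp_iff]
  refine forall_congr' fun a => ?_
  by_cases h : q.tgt a ∈ J ∧ q.src a ∉ J
  · rw [if_pos h]
    exact ⟨fun h' => ⟨fun _ => h', fun h'' => absurd h h''⟩, fun h' => h'.1 h⟩
  · rw [if_neg h, Submodule.mem_bot]
    exact ⟨fun h' => ⟨fun h'' => absurd h'' h, fun _ => h'⟩, fun h' => h'.2 h⟩

abbrev M1 : Type := X.M × (Ar → X.M)

noncomputable def cd (J : Finset V) (p r : V) (γ : Ar) : M1 X →ₗ[F2] M1 X :=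
  ((X.d r).comp (LinearMap.fst F2 _ _)).prod
    (((E q X J).comp (out q X r + (out q X p).comp (X.ρ γ))).coprod (dB q X))

theorem cd_apply (J : Finset V) (p r : V) (γ : Ar) (x : M1 X) :
    cd q X J p r γ x =
      (X.d r x.1, E q X J (out q X r x.1 + out q X p (X.ρ γ x.1)) + dB q X x.2) := rfl

noncomputable def cg (J : Finset V) (p r : V) (γ : Ar) : M1 X →ₗ[F2] M1 X :=
  ((X.ρ γ).comp (LinearMap.fst F2 _ _)).prod
    ((R q X p).comp (LinearMap.snd F2 _ _) + (E q X J).comp ((out q X r).comp (sM q X r)))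

theorem cg_apply (J : Finset V) (p r : V) (γ : Ar) (x : M1 X) :
    cg q X J p r γ x = (X.ρ γ x.1, R q X p x.2 + E q X J (out q X r (sM q X r x))) := rfl

noncomputable def co (p r : V) (γ a : Ar) : M1 X →ₗ[F2] M1 X :=
  (LinearMap.inl F2 _ _).comp ((X.ρ a).comp
    ((inn q X p).comp (LinearMap.snd F2 _ _) + (X.ρ γ).comp (sM q X r) +
      (X.t p).comp ((X.ρ γ).comp (LinearMap.fst F2 _ _))))

theorem co_apply (p r : V) (γ a : Ar) (x : M1 X) :
    co q X p r γ a x =
      (X.ρ a (inn q X p x.2 + X.ρ γ (sM q X r x) + X.t p (X.ρ γ x.1)), 0) := rfl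

def cG (J : Finset V) (i j k : V) (n : ℤ) : Submodule F2 (M1 X) :=
  if k = i then (X.G j (n + 1)).prod (GE q X J n)
  else if k = j then (X.G i (n + 1)).prod (GE q X J n) else (X.G k n).prod ⊥

noncomputable def cD (J : Finset V) (i j : V) (β α : Ar) (k : V) : M1 X →ₗ[F2] M1 X :=
  if k = i then cd q X J i j β else if k = j then cd q X J j i α else fstOp (X.d k)

noncomputable def cT (i j k : V) : M1 X →ₗ[F2] M1 X :=
  if k = i then (LinearMap.inl F2 _ _).comp (sM q X j)
  else if k = j then (LinearMap.inl F2 _ _).comp (sM q X i) else fstOp (X.t k)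

noncomputable def cR (J : Finset V) (i j : V) (β α : Ar) (a : Ar) : M1 X →ₗ[F2] M1 X :=
  if q.src a = i then (if q.tgt a = j then cg q X J i j β else co q X i j β a)
  else if q.src a = j then (if q.tgt a = i then cg q X J j i α else co q X j i α a)
  else if q.tgt a ∈ J then
    (LinearMap.inr F2 _ _).comp ((LinearMap.single F2 (fun _ => X.M) a).comp (LinearMap.fst F2 _ _))
  else fstOp (X.ρ a)

/-- the common minimal model of the two triple mutations -/
noncomputable def CC (i j : V) (β α : Ar) : Raw V Ar where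
  M := M1 X
  G := cG q X {i, j} i j
  d := cD q X {i, j} i j β α
  t := cT q X i j
  ρ := cR q X {i, j} i j β α

theorem CC_symm {i j : V} (h : i ≠ j) (β α : Ar) : CC q X i j β α = CC q X j i α β := by
  have h1 : cG q X {i, j} i j = cG q X {j, i} j i := by
    funext k n
    rw [pair_comm j i, cG, cG]
    by_cases hi : k = i
    · rw [if_pos hi, if_neg (hi ▸ h), if_pos hi]
    · rw [if_neg hi, if_neg hi]
  have h2 : cD q X {i, j} i j β α = cD q X {j, i} j i α β := by
    funext k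
    rw [pair_comm j i, cD, cD]
    by_cases hi : k = i
    · rw [if_pos hi, if_neg (hi ▸ h), if_pos hi]
    · rw [if_neg hi, if_neg hi]
  have h3 : cT q X i j = cT q X j i := by
    funext k
    rw [cT, cT]
    by_cases hi : k = i
    · rw [if_pos hi, if_neg (hi ▸ h), if_pos hi]
    · rw [if_neg hi, if_neg hi]
  have h4 : cR q X {i, j} i j β α = cR q X {j, i} j i α β := by
    funext a
    rw [pair_comm j i, cR, cR]
    by_cases hi : q.src a = i
    · rw [if_pos hi, if_neg (show ¬ q.src a = j from hi ▸ h), if_pos hi]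
    · rw [if_neg hi, if_neg hi]
  rw [CC, CC, h1, h2, h3, h4]

/-- the situation of a simple edge -/
structure Edge (i j : V) (β α : Ar) : Prop where
  sb : q.src β = j
  tb : q.tgt β = i
  st : q.star β = α
  ub : ∀ a, q.src a = j → q.tgt a = i → a = β

namespace Edge

variable {q} {i j : V} {β α : Ar} (h : Edge q i j β α)
include h

theorem sa : q.src α = i := by rw [← h.st, q.src_star, h.tb]

theorem ta : q.tgt α = j := by rw [← h.st, q.tgt_star, h.sb]

theorem st' : q.star α = β := by rw [← h.st, q.star_star]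

theorem ne : i ≠ j := by
  rw [← h.tb, ← h.sb]
  exact q.tgt_ne_src β

theorem ua (a : Ar) (h1 : q.src a = i) (h2 : q.tgt a = j) : a = α := by
  rw [← h.st, ← h.ub (q.star a) (by rw [q.src_star, h2]) (by rw [q.tgt_star, h1]), q.star_star]

theorem symm : Edge q j i α β := ⟨h.sa, h.ta, h.st', h.ua⟩

theorem ab : α ≠ β := fun e => h.ne (by rw [← h.sa, e, h.sb])

/-- the five kinds of arrows, seen from the target -/
theorem cases (a : Ar) : a = α ∨ a = β ∨
    (q.tgt a = i ∧ q.src a ≠ i ∧ q.src a ≠ j ∧ a ≠ α ∧ a ≠ β) ∨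
    (q.tgt a = j ∧ q.src a ≠ i ∧ q.src a ≠ j ∧ a ≠ α ∧ a ≠ β) ∨
    (q.tgt a ≠ i ∧ q.tgt a ≠ j ∧ a ≠ α ∧ a ≠ β) := by
  by_cases h1 : a = α
  · exact Or.inl h1
  by_cases h2 : a = β
  · exact Or.inr (Or.inl h2)
  by_cases h3 : q.tgt a = i
  · exact Or.inr (Or.inr (Or.inl
      ⟨h3, h3 ▸ (q.tgt_ne_src a).symm, fun e => h2 (h.ub a e h3), h1, h2⟩))
  by_cases h4 : q.tgt a = j
  · exact Or.inr (Or.inr (Or.inr (Or.inl
      ⟨h4, fun e => h1 (h.ua a e h4), h4 ▸ (q.tgt_ne_src a).symm, h1, h2⟩)))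
  · exact Or.inr (Or.inr (Or.inr (Or.inr ⟨h3, h4, h1, h2⟩)))

end Edge

end Vale.Agent.P203.Br
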