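import Vale.Agent.P203.DGBraidA

namespace Vale.Agent.P203.Br

open Finset

variable {V Ar : Type} [DecidableEq V] [Fintype Ar] [DecidableEq Ar] {q : DQ V Ar}
  (X : Raw V Ar) {i j : V} {β α : Ar}

abbrev M2 : Type := M1 X × (Ar → M1 X)

abbrev M3 : Type := M2 X × (Ar → M2 X)

theorem inn_split (h : Edge q i j β α) (b : Ar → X.M) :
    inn q X j b = X.ρ α (b α) + inn q X j (E q X {i, j} b) := by
  rw [inn_apply, inn_apply, ← add_sum_erase _ _ (mem_univ α), ← add_sum_erase _ _ (mem_univ α),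
    if_pos h.ta, if_pos h.ta, E_apply, if_neg (by simp [h.sa]), map_zero, zero_add]
  congr 1
  refine sum_congr rfl fun a ha => ?_
  split_ifs with h1
  · rw [E_apply, if_pos]
    simp only [mem_insert, mem_singleton, not_or]
    exact ⟨fun e => (mem_erase.1 ha).1 (h.ua a e h1), h1 ▸ (q.tgt_ne_src a).symm⟩
  · rfl

theorem inn1 (h : Edge q i j β α) (B : Ar → M1 X) :
    inn q (Tm q X i) j B =
      ((X.ρ α (sM q X i (B α)) + inn q X j (E q X {i, j} (unl B)), 0) : M1 X) := by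
  have key : ∀ a, (if q.tgt a = j then (Tm q X i).ρ a (B a) else 0) =
      LinearMap.inl F2 X.M (Ar → X.M) (if q.tgt a = j then
        X.ρ a (Function.update (unl B) α (sM q X i (B α)) a) else 0) := by
    intro a
    split_ifs with h1
    · by_cases h2 : a = α
      · subst h2
        rw [Function.update_self]
        exact Tm_ρ_out q X h.sa _
      · rw [Function.update_of_ne h2]
        exact Tm_ρ_ne q X (h1 ▸ h.ne.symm) (fun e => h2 (h.ua a e h1)) _
    · rfl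
  refine (inn_apply _ _ _ _).trans ((sum_congr rfl fun a _ => key a).trans
    ((map_sum (LinearMap.inl F2 X.M (Ar → X.M)) _ _).symm.trans ?_))
  rw [← inn_apply, inn_split X h, Function.update_self, LinearMap.inl_apply]
  congr 3
  funext a
  rw [E_apply, E_apply]
  split_ifs with h1
  · rfl
  · exact Function.update_of_ne (fun e => h1 (by simp [e, h.sa])) _ _

theorem out1 (h : Edge q i j β α) (p : M1 X) (a : Ar) :
    out q (Tm q X i) j p a =
      ((E q X {i, j} (out q X j p.1) a, if a = α then Pi.single β p.1 else 0) : M1 X) := by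
  refine (out_apply _ _ _ _ _).trans ?_
  rw [E_apply, out_apply]
  rcases h.cases a with rfl | rfl | ⟨h1, h2, h3, h4, h5⟩ | ⟨h1, h2, h3, h4, h5⟩ | ⟨h1, h2, h4, h5⟩
  · rw [if_pos h.ta, h.st', if_neg (by simp [h.sa]), if_pos rfl]
    exact Tm_ρ_in q X h.tb _
  · rw [if_neg (h.tb ▸ h.ne), if_neg (by simp [h.sb]), if_neg h.ab.symm]
    rfl
  · have hn : ¬ q.tgt a = j := h1 ▸ h.ne
    rw [if_neg hn, if_neg hn, if_neg h4, ite_self]
    rfl
  · rw [if_pos h1, if_pos h1, if_pos (by simp [h2, h3]), if_neg h4]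
    exact Tm_ρ_ne q X (by rwa [q.tgt_star]) (by rw [q.src_star, h1]; exact h.ne.symm) _
  · rw [if_neg h2, if_neg h2, if_neg h4, ite_self]
    rfl

theorem dB1_ne (B : Ar → M1 X) {a : Ar} (ha : q.src a ≠ i) :
    dB q (Tm q X i) B a = ((X.d (q.src a) (B a).1, 0) : M1 X) :=
  Tm_d_ne q X ha _

theorem dB1_self (B : Ar → M1 X) {a : Ar} (ha : q.src a = i) :
    dB q (Tm q X i) B a =
      ((X.d i (B a).1, out q X i (B a).1 + dB q X (B a).2) : M1 X) := by
  refine (dB_apply _ _ _ _).trans ?_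
  rw [ha]
  exact Tm_d_self q X _

/-- the first coordinate of `sM` on the second floor -/
noncomputable def s2 (q : DQ V Ar) (X : Raw V Ar) (i j : V) (α : Ar) (p : M2 X) : X.M :=
  X.t j p.1.1 + (X.ρ α (sM q X i (p.2 α)) + inn q X j (E q X {i, j} (unl p.2)))

theorem sM1 (h : Edge q i j β α) (p : M2 X) :
    sM q (Tm q X i) j p = ((s2 q X i j α p, 0) : M1 X) := by
  refine (sM_apply _ _ _ _).trans ?_
  rw [inn1 X h, Tm_t_ne q X h.ne.symm]
  exact Prod.ext rfl (add_zero _)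

theorem mem2_j (n : ℤ) (p : M2 X) :
    p ∈ (Tm q (Tm q X i) j).G j n ↔
      p.1 ∈ (Tm q X i).G j (n + 1) ∧ p.2 ∈ GB q (Tm q X i) j n :=
  mem_Tm_self q (Tm q X i) p

theorem d2_j (h : Edge q i j β α) (p : M2 X) :
    (Tm q (Tm q X i) j).d j p = (((X.d j p.1.1, 0), fun a =>
      if a = α then (X.d i (p.2 α).1, Pi.single β p.1.1 + (out q X i (p.2 α).1 + dB q X (p.2 α).2))
      else (E q X {i, j} (out q X j p.1.1) a + ((Tm q X i).d (q.src a) (p.2 a)).1,
        ((Tm q X i).d (q.src a) (p.2 a)).2)) : M2 X) := by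
  refine (Tm_d_self q (Tm q X i) p).trans (Prod.ext (Tm_d_ne q X h.ne.symm _) (funext fun a => ?_))
  change out q (Tm q X i) j p.1 a + dB q (Tm q X i) p.2 a = _
  rw [out1 X h]
  dsimp only
  split_ifs with h1
  · subst h1
    rw [dB1_self X _ h.sa, E_apply, if_neg (by simp [h.sa])]
    exact Prod.ext (zero_add _) rfl
  · exact Prod.ext rfl (zero_add _)

theorem d2_i (h : Edge q i j β α) (p : M2 X) :
    (Tm q (Tm q X i) j).d i p =
      (((X.d i p.1.1, out q X i p.1.1 + dB q X p.1.2), 0) : M2 X) :=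
  (Tm_d_ne q (Tm q X i) h.ne p).trans (Prod.ext (Tm_d_self q X _) rfl)

theorem d2_ne {k : V} (hi : k ≠ i) (hj : k ≠ j) (p : M2 X) :
    (Tm q (Tm q X i) j).d k p = (((X.d k p.1.1, 0), 0) : M2 X) :=
  (Tm_d_ne q (Tm q X i) hj p).trans (Prod.ext (Tm_d_ne q X hi _) rfl)

theorem ρ2_β (h : Edge q i j β α) (p : M2 X) :
    (Tm q (Tm q X i) j).ρ β p = (((0, Pi.single β (s2 q X i j α p)), 0) : M2 X) := by
  refine (Tm_ρ_out q (Tm q X i) h.sb p).trans (Prod.ext ?_ rfl)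
  change (Tm q X i).ρ β (sM q (Tm q X i) j p) = _
  rw [sM1 X h]
  exact Tm_ρ_in q X h.tb _

theorem ρ2_inj {a : Ar} (ha : q.tgt a = j) (p : M2 X) :
    (Tm q (Tm q X i) j).ρ a p = ((0, Pi.single a p.1) : M2 X) :=
  Tm_ρ_in q (Tm q X i) ha p

theorem ρ2_ini (h : Edge q i j β α) {a : Ar} (ha : q.tgt a = i) (ha' : q.src a ≠ j) (p : M2 X) :
    (Tm q (Tm q X i) j).ρ a p = (((0, Pi.single a p.1.1), 0) : M2 X) :=
  (Tm_ρ_ne q (Tm q X i) (ha ▸ h.ne) ha' p).trans (Prod.ext (Tm_ρ_in q X ha _) rfl)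

theorem ρ2_outi (h : Edge q i j β α) {a : Ar} (ha : q.src a = i) (ha' : q.tgt a ≠ j) (p : M2 X) :
    (Tm q (Tm q X i) j).ρ a p = (((X.ρ a (sM q X i p.1), 0), 0) : M2 X) :=
  (Tm_ρ_ne q (Tm q X i) ha' (ha ▸ h.ne) p).trans (Prod.ext (Tm_ρ_out q X ha _) rfl)

theorem ρ2_outj (h : Edge q i j β α) {a : Ar} (ha : q.src a = j) (ha' : q.tgt a ≠ i) (p : M2 X) :
    (Tm q (Tm q X i) j).ρ a p = (((X.ρ a (s2 q X i j α p), 0), 0) : M2 X) := by
  refine (Tm_ρ_out q (Tm q X i) ha p).trans (Prod.ext ?_ rfl)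
  change (Tm q X i).ρ a (sM q (Tm q X i) j p) = _
  rw [sM1 X h]
  exact Tm_ρ_ne q X ha' (ha ▸ h.ne.symm) _

theorem ρ2_ne {a : Ar} (h1 : q.src a ≠ i) (h2 : q.src a ≠ j) (h3 : q.tgt a ≠ i) (h4 : q.tgt a ≠ j)
    (p : M2 X) : (Tm q (Tm q X i) j).ρ a p = (((X.ρ a p.1.1, 0), 0) : M2 X) :=
  (Tm_ρ_ne q (Tm q X i) h4 h2 p).trans (Prod.ext (Tm_ρ_ne q X h3 h1 _) rfl)

theorem t2_i (h : Edge q i j β α) (p : M2 X) :
    (Tm q (Tm q X i) j).t i p = (((sM q X i p.1, 0), 0) : M2 X) :=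
  (Tm_t_ne q (Tm q X i) h.ne p).trans (Prod.ext (Tm_t_self q X _) rfl)

theorem t2_j (h : Edge q i j β α) (p : M2 X) :
    (Tm q (Tm q X i) j).t j p = (((s2 q X i j α p, 0), 0) : M2 X) :=
  (Tm_t_self q (Tm q X i) p).trans (Prod.ext (sM1 X h p) rfl)

theorem t2_ne {k : V} (hi : k ≠ i) (hj : k ≠ j) (p : M2 X) :
    (Tm q (Tm q X i) j).t k p = (((X.t k p.1.1, 0), 0) : M2 X) :=
  (Tm_t_ne q (Tm q X i) hj p).trans (Prod.ext (Tm_t_ne q X hi _) rfl)

theorem inn2 (h : Edge q i j β α) (B : Ar → M2 X) :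
    inn q (Tm q (Tm q X i) j) i B =
      (((0, Pi.single β (s2 q X i j α (B β)) + R q X i (E q X {i, j} (unl (unl B)))), 0) : M2 X) := by
  let φ : (Ar → X.M) →ₗ[F2] M2 X :=
    (LinearMap.inl F2 (M1 X) (Ar → M1 X)).comp (LinearMap.inr F2 X.M (Ar → X.M))
  let c : Ar → X.M :=
    Pi.single β (s2 q X i j α (B β)) + R q X i (E q X {i, j} (unl (unl B)))
  have key : ∀ a, (if q.tgt a = i then (Tm q (Tm q X i) j).ρ a (B a) else 0) =
      φ (Pi.single a (c a)) := by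
    intro a
    simp only [c, Pi.add_apply, R_apply, E_apply]
    rcases h.cases a with rfl | rfl | ⟨h1, h2, h3, h4, h5⟩ | ⟨h1, h2, h3, h4, h5⟩ | ⟨h1, h2, h4, h5⟩
    · rw [if_neg (h.ta ▸ h.ne.symm), if_neg (h.ta ▸ h.ne.symm), Pi.single_eq_of_ne h.ab, add_zero,
        Pi.single_zero, map_zero]
      rfl
    · rw [if_pos h.tb, if_pos h.tb, if_neg (by simp [h.sb]), add_zero, Pi.single_eq_same]
      exact ρ2_β X h _
    · rw [if_pos h1, if_pos h1, if_pos (by simp [h2, h3]), Pi.single_eq_of_ne h5, zero_add]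
      exact ρ2_ini X h h1 h3 _
    · rw [if_neg (h1 ▸ h.ne.symm), if_neg (h1 ▸ h.ne.symm), Pi.single_eq_of_ne h5, add_zero,
        Pi.single_zero, map_zero]
      rfl
    · rw [if_neg h1, if_neg h1, Pi.single_eq_of_ne h5, add_zero, Pi.single_zero, map_zero]
      rfl
  refine (inn_apply _ _ _ _).trans ((sum_congr rfl fun a _ => key a).trans
    ((map_sum φ _ _).symm.trans ?_))
  rw [univ_sum_single]
  rfl

theorem out2 (h : Edge q i j β α) (p : M2 X) (a : Ar) :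
    out q (Tm q (Tm q X i) j) i p a =
      (((E q X {i, j} (out q X i (sM q X i p.1)) a, 0),
        if a = β then Pi.single α p.1 else 0) : M2 X) := by
  refine (out_apply _ _ _ _ _).trans ?_
  rw [E_apply, out_apply]
  rcases h.cases a with rfl | rfl | ⟨h1, h2, h3, h4, h5⟩ | ⟨h1, h2, h3, h4, h5⟩ | ⟨h1, h2, h4, h5⟩
  · rw [if_neg (h.ta ▸ h.ne.symm), if_neg (by simp [h.sa]), if_neg h.ab]
    rfl
  · rw [if_pos h.tb, h.st, if_neg (by simp [h.sb]), if_pos rfl]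
    exact ρ2_inj X h.ta _
  · rw [if_pos h1, if_pos h1, if_pos (by simp [h2, h3]), if_neg h5]
    exact ρ2_outi X h (by rwa [q.src_star]) (by rwa [q.tgt_star]) _
  · have hn : ¬ q.tgt a = i := h1 ▸ h.ne.symm
    rw [if_neg hn, if_neg hn, if_neg h5, ite_self]
    rfl
  · rw [if_neg h1, if_neg h1, if_neg h5, ite_self]
    rfl

/-- the first floor coordinate of `sM` on the third floor -/
noncomputable def s3 (q : DQ V Ar) (X : Raw V Ar) (i j : V) (β α : Ar) (p : M3 X) : M1 X :=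
  (sM q X i p.1.1,
    Pi.single β (s2 q X i j α (p.2 β)) + R q X i (E q X {i, j} (unl (unl p.2))))

theorem sM2 (h : Edge q i j β α) (p : M3 X) :
    sM q (Tm q (Tm q X i) j) i p = ((s3 q X i j β α p, 0) : M2 X) := by
  refine (sM_apply _ _ _ _).trans ?_
  rw [inn2 X h, t2_i X h]
  exact Prod.ext (Prod.ext (add_zero _) (zero_add _)) (add_zero _)

end Vale.Agent.P203.Br
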