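import Vale.Agent.P203.DGBraidB

namespace Vale.Agent.P203.Br

open Finset

variable {V Ar : Type} [DecidableEq V] [Fintype Ar] [DecidableEq Ar] {q : DQ V Ar}
  (X : Raw V Ar) {i j : V} {β α : Ar}

theorem E_E (J : Finset V) (b : Ar → X.M) : E q X J (E q X J b) = E q X J b := by
  funext a
  simp only [E_apply]
  split_ifs <;> rfl

theorem E_dB (J : Finset V) (b : Ar → X.M) : E q X J (dB q X b) = dB q X (E q X J b) := by
  funext a
  simp only [E_apply, dB_apply]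
  split_ifs
  · exact (map_zero _).symm
  · rfl

theorem R_dB (p : V) (b : Ar → X.M) : R q X p (dB q X b) = dB q X (R q X p b) := by
  funext a
  simp only [R_apply, dB_apply]
  split_ifs
  · rfl
  · exact (map_zero _).symm

theorem E_α (h : Edge q i j β α) (b : Ar → X.M) : E q X {i, j} b α = 0 := by
  rw [E_apply, if_neg (by simp [h.sa])]

theorem E_β (h : Edge q i j β α) (b : Ar → X.M) : E q X {i, j} b β = 0 := by
  rw [E_apply, if_neg (by simp [h.sb])]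

variable (q i j) in
/-- elements of the second floor at `j` -/
def mk2 (α : Ar) (y x : X.M) (bt c : Ar → X.M) : M2 X :=
  ((y, 0), Pi.single α (x, bt) + lift (E q X {i, j} c))

variable (q i j) in
/-- elements of the third floor at `i` -/
def mk3 (β : Ar) (v : M1 X) (w : M2 X) (b : Ar → X.M) : M3 X :=
  ((v, 0), Pi.single β w + lift (lift (E q X {i, j} b)))

theorem mk2_α (h : Edge q i j β α) (y x : X.M) (bt c : Ar → X.M) :
    (mk2 q X i j α y x bt c).2 α = (x, bt) := by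
  simp [mk2, E_α X h]

theorem mk2_ne (y x : X.M) (bt c : Ar → X.M) {a : Ar} (ha : a ≠ α) :
    (mk2 q X i j α y x bt c).2 a = (E q X {i, j} c a, 0) := by
  simp [mk2, Pi.single_eq_of_ne ha]

theorem mk2_E (h : Edge q i j β α) (y x : X.M) (bt c : Ar → X.M) :
    E q X {i, j} (unl (mk2 q X i j α y x bt c).2) = E q X {i, j} c := by
  funext a
  by_cases ha : a = α
  · rw [ha, E_α X h, E_α X h]
  · rw [← E_E X _ c, E_apply, E_apply q X _ (E q X _ c), unl_apply, mk2_ne X _ _ _ _ ha]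

theorem mk2_ext (h : Edge q i j β α) {p : M2 X} {y x : X.M} {bt c : Ar → X.M}
    (h1 : p.1 = (y, 0)) (h2 : p.2 α = (x, bt))
    (h3 : ∀ a, a ≠ α → p.2 a = (E q X {i, j} c a, 0)) : p = mk2 q X i j α y x bt c := by
  refine Prod.ext h1 (funext fun a => ?_)
  by_cases ha : a = α
  · rw [ha, h2, mk2_α X h]
  · rw [h3 a ha, mk2_ne X _ _ _ _ ha]

theorem mk2_add (y x y' x' : X.M) (bt c bt' c' : Ar → X.M) :
    mk2 q X i j α y x bt c + mk2 q X i j α y' x' bt' c' =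
      mk2 q X i j α (y + y') (x + x') (bt + bt') (c + c') := by
  simp only [mk2, Prod.mk_add_mk, add_zero, map_add]
  rw [← Prod.mk_add_mk x x' bt bt', Pi.single_add, add_add_add_comm]

theorem mk2_zero : mk2 q X i j α 0 0 0 0 = 0 := by
  simp only [mk2, map_zero, add_zero, Prod.mk_zero_zero, Pi.single_zero]

theorem mk2_congr {y x y' x' : X.M} {bt c bt' c' : Ar → X.M} (h1 : y = y') (h2 : x = x')
    (h3 : bt = bt') (h4 : E q X {i, j} c = E q X {i, j} c') :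
    mk2 q X i j α y x bt c = mk2 q X i j α y' x' bt' c' := by
  rw [mk2, mk2, h1, h2, h3, h4]

theorem mk3_β (h : Edge q i j β α) (v : M1 X) (w : M2 X) (b : Ar → X.M) :
    (mk3 q X i j β v w b).2 β = w := by
  simp [mk3, E_β X h]

theorem mk3_ne (v : M1 X) (w : M2 X) (b : Ar → X.M) {a : Ar} (ha : a ≠ β) :
    (mk3 q X i j β v w b).2 a = ((E q X {i, j} b a, 0), 0) := by
  simp [mk3, Pi.single_eq_of_ne ha]

theorem mk3_E (h : Edge q i j β α) (v : M1 X) (w : M2 X) (b : Ar → X.M) :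
    E q X {i, j} (unl (unl (mk3 q X i j β v w b).2)) = E q X {i, j} b := by
  funext a
  by_cases ha : a = β
  · rw [ha, E_β X h, E_β X h]
  · rw [← E_E X _ b, E_apply, E_apply q X _ (E q X _ b), unl_apply, unl_apply, mk3_ne X _ _ _ ha]

theorem mk3_ext (h : Edge q i j β α) {p : M3 X} {v : M1 X} {w : M2 X} {b : Ar → X.M}
    (h1 : p.1 = (v, 0)) (h2 : p.2 β = w)
    (h3 : ∀ a, a ≠ β → p.2 a = ((E q X {i, j} b a, 0), 0)) : p = mk3 q X i j β v w b := by
  refine Prod.ext h1 (funext fun a => ?_)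
  by_cases ha : a = β
  · rw [ha, h2, mk3_β X h]
  · rw [h3 a ha, mk3_ne X _ _ _ ha]

theorem mk3_add (v v' : M1 X) (w w' : M2 X) (b b' : Ar → X.M) :
    mk3 q X i j β v w b + mk3 q X i j β v' w' b' = mk3 q X i j β (v + v') (w + w') (b + b') := by
  simp only [mk3, Prod.mk_add_mk, add_zero, map_add]
  rw [Pi.single_add, add_add_add_comm]

theorem mk3_congr {v v' : M1 X} {w w' : M2 X} {b b' : Ar → X.M} (h1 : v = v') (h2 : w = w')
    (h4 : E q X {i, j} b = E q X {i, j} b') : mk3 q X i j β v w b = mk3 q X i j β v' w' b' := by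
  rw [mk3, mk3, h1, h2, h4]

theorem mem2_iff (h : Edge q i j β α) (n : ℤ) (p : M2 X) :
    p ∈ (Tm q (Tm q X i) j).G j n ↔ ∃ y ∈ X.G j (n + 1), ∃ x ∈ X.G i (n + 1),
      ∃ bt ∈ GB q X i n, ∃ c ∈ GB q X j n, p = mk2 q X i j α y x bt c := by
  rw [mem2_j]
  constructor
  · rintro ⟨h1, h2⟩
    obtain ⟨h3, h4⟩ := (mem_Tm_ne q X h.ne.symm _).1 h1
    have h5 := (mem_GB _ _ _ _ _).1 h2
    have h6 := (h5 α).1 h.ta
    rw [h.sa] at h6
    obtain ⟨h7, h8⟩ := (mem_Tm_self q X _).1 h6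
    have h9 : ∀ a, a ≠ α → q.tgt a = j → (p.2 a).1 ∈ X.G (q.src a) n ∧ (p.2 a).2 = 0 :=
      fun a ha ht => (mem_Tm_ne q X (fun e => ha (h.ua a e ht)) _).1 ((h5 a).1 ht)
    have h10 : ∀ a, q.tgt a ≠ j → p.2 a = 0 := fun a ht => (h5 a).2 ht
    refine ⟨p.1.1, h3, (p.2 α).1, h7, (p.2 α).2, h8, E q X {i, j} (unl p.2), ?_,
      mk2_ext X h (Prod.ext rfl h4) rfl fun a ha => ?_⟩
    · rw [mem_GB]
      intro a
      rw [E_apply, unl_apply]
      refine ⟨fun ht => ?_, fun ht => by rw [h10 a ht, Prod.fst_zero, ite_self]⟩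
      split_ifs with h11
      · exact zero_mem _
      · exact (h9 a (fun e => h11 (by simp [e, h.sa])) ht).1
    · rw [E_E, E_apply, unl_apply]
      by_cases ht : q.tgt a = j
      · rw [if_pos]
        · exact Prod.ext rfl (h9 a ha ht).2
        · simp only [mem_insert, mem_singleton, not_or]
          exact ⟨fun e => ha (h.ua a e ht), ht ▸ (q.tgt_ne_src a).symm⟩
      · rw [h10 a ht, Prod.fst_zero, ite_self]
        rfl
  · rintro ⟨y, hy, x, hx, bt, hbt, c, hc, rfl⟩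
    refine ⟨(mem_Tm_ne q X h.ne.symm _).2 ⟨hy, rfl⟩, (mem_GB _ _ _ _ _).2 fun a => ?_⟩
    have hc' := (mem_GB _ _ _ _ _).1 hc a
    by_cases ha : a = α
    · subst ha
      rw [mk2_α X h, h.sa]
      exact ⟨fun _ => (mem_Tm_self q X _).2 ⟨hx, hbt⟩, fun e => absurd h.ta e⟩
    · rw [mk2_ne X _ _ _ _ ha, E_apply]
      refine ⟨fun ht => (mem_Tm_ne q X (fun e => ha (h.ua a e ht)) _).2 ⟨?_, rfl⟩, fun ht => ?_⟩
      · dsimp only
        split_ifs
        · exact zero_mem _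
        · exact hc'.1 ht
      · rw [hc'.2 ht, ite_self]
        rfl

theorem mem2_ne {k : V} (hi : k ≠ i) (hj : k ≠ j) (n : ℤ) (p : M2 X) :
    p ∈ (Tm q (Tm q X i) j).G k n ↔ ∃ x ∈ X.G k n, p = ((x, 0), 0) := by
  refine (mem_Tm_ne q (Tm q X i) hj p).trans ⟨fun h => ?_, ?_⟩
  · obtain ⟨h1, h2⟩ := (mem_Tm_ne q X hi _).1 h.1
    exact ⟨p.1.1, h1, Prod.ext (Prod.ext rfl h2) h.2⟩
  · rintro ⟨x, hx, rfl⟩
    exact ⟨(mem_Tm_ne q X hi _).2 ⟨hx, rfl⟩, rfl⟩

variable (q i j) in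
/-- the triple mutation -/
noncomputable abbrev YY : Raw V Ar := Tm q (Tm q (Tm q X i) j) i

theorem memY_ne {k : V} (hi : k ≠ i) (hj : k ≠ j) (n : ℤ) (p : M3 X) :
    p ∈ (YY q X i j).G k n ↔ ∃ x ∈ X.G k n, p = (((x, 0), 0), 0) := by
  refine (mem_Tm_ne q (Tm q (Tm q X i) j) hi p).trans ⟨fun h => ?_, ?_⟩
  · obtain ⟨x, hx, h1⟩ := (mem2_ne X hi hj _ _).1 h.1
    exact ⟨x, hx, Prod.ext h1 h.2⟩
  · rintro ⟨x, hx, rfl⟩
    exact ⟨(mem2_ne X hi hj _ _).2 ⟨x, hx, rfl⟩, rfl⟩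

theorem memY_j (h : Edge q i j β α) (n : ℤ) (p : M3 X) :
    p ∈ (YY q X i j).G j n ↔ ∃ y ∈ X.G j (n + 1), ∃ x ∈ X.G i (n + 1),
      ∃ bt ∈ GB q X i n, ∃ c ∈ GB q X j n, p = (mk2 q X i j α y x bt c, 0) := by
  refine (mem_Tm_ne q (Tm q (Tm q X i) j) h.ne.symm p).trans ⟨fun h' => ?_, ?_⟩
  · obtain ⟨y, hy, x, hx, bt, hbt, c, hc, h1⟩ := (mem2_iff X h _ _).1 h'.1
    exact ⟨y, hy, x, hx, bt, hbt, c, hc, Prod.ext h1 h'.2⟩
  · rintro ⟨y, hy, x, hx, bt, hbt, c, hc, rfl⟩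
    exact ⟨(mem2_iff X h _ _).2 ⟨y, hy, x, hx, bt, hbt, c, hc, rfl⟩, rfl⟩

theorem memY_i (h : Edge q i j β α) (n : ℤ) (p : M3 X) :
    p ∈ (YY q X i j).G i n ↔ ∃ x' ∈ X.G i (n + 1 + 1), ∃ bt' ∈ GB q X i (n + 1),
      ∃ w : M2 X, w ∈ (Tm q (Tm q X i) j).G j n ∧ ∃ b ∈ GB q X i n,
        p = mk3 q X i j β (x', bt') w b := by
  refine (mem_Tm_self q (Tm q (Tm q X i) j) p).trans ⟨?_, ?_⟩
  · rintro ⟨h1, h2⟩
    obtain ⟨h3, h4⟩ := (mem_Tm_ne q (Tm q X i) h.ne _).1 h1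
    obtain ⟨h3', h4'⟩ := (mem_Tm_self q X _).1 h3
    have h5 := (mem_GB _ _ _ _ _).1 h2
    have h6 := (h5 β).1 h.tb
    rw [h.sb] at h6
    have h9 : ∀ a, a ≠ β → q.tgt a = i → ∃ x ∈ X.G (q.src a) n, p.2 a = ((x, 0), 0) :=
      fun a ha ht => (mem2_ne X (ht ▸ (q.tgt_ne_src a).symm) (fun e => ha (h.ub a e ht)) _ _).1
        ((h5 a).1 ht)
    have h10 : ∀ a, q.tgt a ≠ i → p.2 a = 0 := fun a ht => (h5 a).2 ht
    refine ⟨p.1.1.1, h3', p.1.1.2, h4', p.2 β, h6, E q X {i, j} (unl (unl p.2)), ?_,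
      mk3_ext X h (Prod.ext rfl h4) rfl fun a ha => ?_⟩
    · rw [mem_GB]
      intro a
      rw [E_apply, unl_apply, unl_apply]
      refine ⟨fun ht => ?_, fun ht => by rw [h10 a ht, Prod.fst_zero, Prod.fst_zero, ite_self]⟩
      split_ifs with h11
      · exact zero_mem _
      · obtain ⟨x, hx, e⟩ := h9 a (fun e => h11 (by simp [e, h.sb])) ht
        rw [e]
        exact hx
    · rw [E_E, E_apply, unl_apply, unl_apply]
      by_cases ht : q.tgt a = i
      · rw [if_pos]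
        · obtain ⟨x, -, e⟩ := h9 a ha ht
          rw [e]
        · simp only [mem_insert, mem_singleton, not_or]
          exact ⟨ht ▸ (q.tgt_ne_src a).symm, fun e => ha (h.ub a e ht)⟩
      · rw [h10 a ht, Prod.fst_zero, Prod.fst_zero, ite_self]
        rfl
  · rintro ⟨x', hx', bt', hbt', w, hw, b, hb, rfl⟩
    refine ⟨(mem_Tm_ne q (Tm q X i) h.ne _).2 ⟨(mem_Tm_self q X _).2 ⟨hx', hbt'⟩, rfl⟩,
      (mem_GB _ _ _ _ _).2 fun a => ?_⟩
    have hb' := (mem_GB _ _ _ _ _).1 hb a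
    by_cases ha : a = β
    · subst ha
      rw [mk3_β X h, h.sb]
      exact ⟨fun _ => hw, fun e => absurd h.tb e⟩
    · rw [mk3_ne X _ _ _ ha, E_apply]
      refine ⟨fun ht => (mem2_ne X (ht ▸ (q.tgt_ne_src a).symm) (fun e => ha (h.ub a e ht)) _ _).2
        ⟨_, ?_, rfl⟩, fun ht => ?_⟩
      · split_ifs
        · exact zero_mem _
        · exact hb'.1 ht
      · rw [hb'.2 ht, ite_self]
        rfl

theorem d2_mk2 (h : Edge q i j β α) (y x : X.M) (bt c : Ar → X.M) :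
    (Tm q (Tm q X i) j).d j (mk2 q X i j α y x bt c) =
      mk2 q X i j α (X.d j y) (X.d i x) (Pi.single β y + (out q X i x + dB q X bt))
        (out q X j y + dB q X c) := by
  refine (d2_j X h _).trans (mk2_ext X h rfl ?_ fun a ha => ?_)
  · dsimp only
    rw [if_pos rfl, mk2_α X h]
    rfl
  · dsimp only
    rw [if_neg ha, mk2_ne X _ _ _ _ ha, map_add, Pi.add_apply, E_dB, dB_apply]
    by_cases hs : q.src a = i
    · have : E q X {i, j} c a = 0 := by rw [E_apply, if_neg (by simp [hs])]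
      rw [this, map_zero]
      have e : (Tm q X i).d (q.src a) ((0, 0) : M1 X) = ((0, 0) : M1 X) := map_zero _
      rw [e]
      rfl
    · rw [Tm_d_ne q X hs]
      rfl

theorem s2_mk2 (h : Edge q i j β α) (y x : X.M) (bt c : Ar → X.M) :
    s2 q X i j α (mk2 q X i j α y x bt c) =
      X.t j y + (X.ρ α (sM q X i (x, bt)) + inn q X j (E q X {i, j} c)) := by
  rw [s2, mk2_α X h, mk2_E X h]
  rfl

theorem s3_mk3 (h : Edge q i j β α) (v : M1 X) (w : M2 X) (b : Ar → X.M) :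
    s3 q X i j β α (mk3 q X i j β v w b) =
      (sM q X i v, Pi.single β (s2 q X i j α w) + R q X i (E q X {i, j} b)) := by
  rw [s3, mk3_β X h, mk3_E X h]
  rfl

theorem single_α (v : M1 X) : ((0, Pi.single α v) : M2 X) = mk2 q X i j α 0 v.1 v.2 0 := by
  simp only [mk2, map_zero, add_zero, Prod.mk_zero_zero]

theorem single_β (w : M2 X) : ((0, Pi.single β w) : M3 X) = mk3 q X i j β 0 w 0 := by
  simp only [mk3, map_zero, add_zero, Prod.mk_zero_zero]

theorem dY_i (h : Edge q i j β α) (v : M1 X) (y x : X.M) (bt c b : Ar → X.M) :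
    (YY q X i j).d i (mk3 q X i j β v (mk2 q X i j α y x bt c) b) =
      mk3 q X i j β (X.d i v.1, out q X i v.1 + dB q X v.2)
        (mk2 q X i j α (X.d j y) (v.1 + X.d i x) (v.2 + (Pi.single β y + (out q X i x + dB q X bt)))
          (out q X j y + dB q X c))
        (out q X i (sM q X i v) + dB q X b) := by
  refine (Tm_d_self q (Tm q (Tm q X i) j) _).trans (mk3_ext X h (d2_i X h _) ?_ fun a ha => ?_)
  · change out q (Tm q (Tm q X i) j) i ((v, 0) : M2 X) β +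
      (Tm q (Tm q X i) j).d (q.src β) ((mk3 q X i j β v (mk2 q X i j α y x bt c) b).2 β) = _
    rw [out2 X h, mk3_β X h, h.sb, d2_mk2 X h, E_β X h, if_pos rfl]
    refine ((congrArg (· + _) (single_α (q := q) (i := i) (j := j) X v)).trans (mk2_add ..)).trans ?_
    rw [zero_add, zero_add]
  · change out q (Tm q (Tm q X i) j) i ((v, 0) : M2 X) a +
      (Tm q (Tm q X i) j).d (q.src a) ((mk3 q X i j β v (mk2 q X i j α y x bt c) b).2 a) = _
    rw [out2 X h, mk3_ne X _ _ _ ha, if_neg ha, map_add, Pi.add_apply, E_dB, dB_apply]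
    by_cases hs : q.src a ∈ ({i, j} : Finset V)
    · have : E q X {i, j} b a = 0 := by rw [E_apply, if_neg (not_not.2 hs)]
      rw [this, map_zero]
      have e : (Tm q (Tm q X i) j).d (q.src a) (((0, 0), 0) : M2 X) = (((0, 0), 0) : M2 X) :=
        map_zero _
      rw [e]
      exact Prod.ext (Prod.ext rfl (add_zero _)) (add_zero _)
    · simp only [mem_insert, mem_singleton, not_or] at hs
      rw [d2_ne X hs.1 hs.2]
      exact Prod.ext (Prod.ext rfl (add_zero _)) (add_zero _)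

theorem dY_j (h : Edge q i j β α) (y x : X.M) (bt c : Ar → X.M) :
    (YY q X i j).d j ((mk2 q X i j α y x bt c, 0) : M3 X) =
      ((mk2 q X i j α (X.d j y) (X.d i x) (Pi.single β y + (out q X i x + dB q X bt))
        (out q X j y + dB q X c), 0) : M3 X) :=
  (Tm_d_ne q (Tm q (Tm q X i) j) h.ne.symm _).trans (Prod.ext (d2_mk2 X h ..) rfl)

theorem dY_ne {k : V} (hi : k ≠ i) (hj : k ≠ j) (p : M3 X) :
    (YY q X i j).d k p = ((((X.d k p.1.1.1, 0), 0), 0) : M3 X) :=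
  (Tm_d_ne q (Tm q (Tm q X i) j) hi _).trans (Prod.ext (d2_ne X hi hj _) rfl)

theorem tY_i (h : Edge q i j β α) (p : M3 X) :
    (YY q X i j).t i p = mk3 q X i j β (s3 q X i j β α p) 0 0 := by
  refine (Tm_t_self q (Tm q (Tm q X i) j) _).trans (Prod.ext (sM2 X h p) ?_)
  simp only [mk3, map_zero, add_zero, Pi.single_zero]
  rfl

theorem tY_j (h : Edge q i j β α) (p : M3 X) :
    (YY q X i j).t j p = ((mk2 q X i j α (s2 q X i j α p.1) 0 0 0, 0) : M3 X) := by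
  refine (Tm_t_ne q (Tm q (Tm q X i) j) h.ne.symm _).trans (Prod.ext ((t2_j X h _).trans ?_) rfl)
  simp only [mk2, map_zero, add_zero, Prod.mk_zero_zero, Pi.single_zero]
  rfl

theorem tY_ne {k : V} (hi : k ≠ i) (hj : k ≠ j) (p : M3 X) :
    (YY q X i j).t k p = ((((X.t k p.1.1.1, 0), 0), 0) : M3 X) :=
  (Tm_t_ne q (Tm q (Tm q X i) j) hi _).trans (Prod.ext (t2_ne X hi hj _) rfl)

theorem ρY_β (h : Edge q i j β α) (p : M3 X) :
    (YY q X i j).ρ β p = mk3 q X i j β 0 p.1 0 :=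
  (Tm_ρ_in q (Tm q (Tm q X i) j) h.tb _).trans (single_β X _)

theorem ρY_α (h : Edge q i j β α) (p : M3 X) :
    (YY q X i j).ρ α p =
      ((mk2 q X i j α 0 (s3 q X i j β α p).1 (s3 q X i j β α p).2 0, 0) : M3 X) := by
  refine (Tm_ρ_out q (Tm q (Tm q X i) j) h.sa _).trans (Prod.ext ?_ rfl)
  change (Tm q (Tm q X i) j).ρ α (sM q (Tm q (Tm q X i) j) i p) = _
  rw [sM2 X h]
  exact (ρ2_inj X h.ta _).trans (single_α X _)

theorem single_E {a : Ar} (h2 : q.src a ≠ i) (h3 : q.src a ≠ j) (x : X.M) :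
    E q X {i, j} (Pi.single a x) = Pi.single a x := by
  funext b
  rw [E_apply]
  split_ifs with h
  · rw [Pi.single_eq_of_ne (fun e : b = a => by simp [e, h2, h3] at h)]
  · rfl

theorem ρY_ini {a : Ar} (h1 : q.tgt a = i) (h2 : q.src a ≠ i) (h3 : q.src a ≠ j) (x : X.M) :
    (YY q X i j).ρ a ((((x, 0), 0), 0) : M3 X) = mk3 q X i j β 0 0 (Pi.single a x) := by
  refine (Tm_ρ_in q (Tm q (Tm q X i) j) h1 _).trans ?_
  rw [mk3, single_E X h2 h3, Pi.single_zero, zero_add]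
  refine Prod.ext rfl (funext fun b => ?_)
  by_cases hb : b = a
  · subst hb
    exact (Pi.single_eq_same _ _).trans (by simp; rfl)
  · exact (Pi.single_eq_of_ne hb _).trans (by simp [Pi.single_eq_of_ne hb]; rfl)

theorem ρY_inj (h : Edge q i j β α) {a : Ar} (h1 : q.tgt a = j) (h2 : q.src a ≠ i)
    (h3 : q.src a ≠ j) (x : X.M) :
    (YY q X i j).ρ a ((((x, 0), 0), 0) : M3 X) =
      ((mk2 q X i j α 0 0 0 (Pi.single a x), 0) : M3 X) := by
  refine (Tm_ρ_ne q (Tm q (Tm q X i) j) (h1 ▸ h.ne.symm) h2 _).trans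
    (Prod.ext ((ρ2_inj X h1 _).trans ?_) rfl)
  rw [mk2, single_E X h2 h3, Prod.mk_zero_zero, Pi.single_zero, zero_add]
  refine Prod.ext rfl (funext fun b => ?_)
  by_cases hb : b = a
  · subst hb
    simp
  · simp [Pi.single_eq_of_ne hb]
    rfl

theorem ρY_outi (h : Edge q i j β α) {a : Ar} (h1 : q.src a = i) (h2 : q.tgt a ≠ j) (p : M3 X) :
    (YY q X i j).ρ a p = ((((X.ρ a (sM q X i (s3 q X i j β α p)), 0), 0), 0) : M3 X) := by
  refine (Tm_ρ_out q (Tm q (Tm q X i) j) h1 _).trans (Prod.ext ?_ rfl)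
  change (Tm q (Tm q X i) j).ρ a (sM q (Tm q (Tm q X i) j) i p) = _
  rw [sM2 X h]
  exact ρ2_outi X h h1 h2 _

theorem ρY_outj (h : Edge q i j β α) {a : Ar} (h1 : q.src a = j) (h2 : q.tgt a ≠ i) (p : M3 X) :
    (YY q X i j).ρ a p = ((((X.ρ a (s2 q X i j α p.1), 0), 0), 0) : M3 X) :=
  (Tm_ρ_ne q (Tm q (Tm q X i) j) h2 (h1 ▸ h.ne.symm) _).trans (Prod.ext (ρ2_outj X h h1 h2 _) rfl)

theorem ρY_ne {a : Ar} (h1 : q.src a ≠ i) (h2 : q.src a ≠ j) (h3 : q.tgt a ≠ i) (h4 : q.tgt a ≠ j)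
    (p : M3 X) : (YY q X i j).ρ a p = ((((X.ρ a p.1.1.1, 0), 0), 0) : M3 X) :=
  (Tm_ρ_ne q (Tm q (Tm q X i) j) h3 h1 _).trans (Prod.ext (ρ2_ne X h1 h2 h3 h4 _) rfl)

end Vale.Agent.P203.Br
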