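import Vale.Agent.P203.DGBraidC

namespace Vale.Agent.P203.Br

open Finset

variable {V Ar : Type} [DecidableEq V] [Fintype Ar] [DecidableEq Ar] {q : DQ V Ar}
  (X : Raw V Ar) {i j : V} {β α : Ar}

/-- additive maps are linear -/
def lin {N N' : Type} [AddCommGroup N] [Module F2 N] [AddCommGroup N'] [Module F2 N']
    (f : N → N') (h : ∀ a b, f (a + b) = f a + f b) : N →ₗ[F2] N' :=
  (AddMonoidHom.mk' f h).toZModLinearMap 2

variable (q i j β α)

noncomputable def ιi : M1 X →ₗ[F2] M3 X :=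
  lin (fun p => mk3 q X i j β (0, Pi.single β p.1) (mk2 q X i j α p.1 0 0 (R q X j p.2))
    (R q X i p.2)) fun a b => by
      simp only [mk3_add, mk2_add, Prod.mk_add_mk, add_zero, Prod.fst_add, Prod.snd_add, map_add,
        Pi.single_add]

noncomputable def ιj : M1 X →ₗ[F2] M3 X :=
  lin (fun p => (mk2 q X i j α (X.ρ α p.1) p.1 (R q X i p.2) (R q X j p.2), 0)) fun a b => by
    simp only [mk2_add, Prod.mk_add_mk, add_zero, Prod.fst_add, Prod.snd_add, map_add]

def ι0 : M1 X →ₗ[F2] M3 X :=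
  lin (fun p => (((p.1, 0), 0), 0)) fun a b => by
    simp only [Prod.mk_add_mk, add_zero, Prod.fst_add]

noncomputable def πi : M3 X →ₗ[F2] M1 X :=
  lin (fun p => ((p.2 β).1.1, E q X {i, j} (unl (p.2 β).2) + E q X {i, j} (unl (unl p.2)) +
    E q X {i, j} (out q X i (sM q X i ((p.2 β).2 α))))) fun a b => by
      simp only [Prod.mk_add_mk, Prod.fst_add, Prod.snd_add, map_add, Pi.add_apply]
      congr 1
      abel

noncomputable def πj : M3 X →ₗ[F2] M1 X :=
  lin (fun p => ((p.1.2 α).1, E q X {i, j} ((p.1.2 α).2 + out q X j ((p.1.2 α).2 β)) +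
    E q X {i, j} (unl p.1.2))) fun a b => by
      simp only [Prod.mk_add_mk, Prod.fst_add, Prod.snd_add, map_add, Pi.add_apply]
      congr 1
      abel

def π0 : M3 X →ₗ[F2] M1 X :=
  lin (fun p => (p.1.1.1, 0)) fun a b => by
    simp only [Prod.mk_add_mk, add_zero, Prod.fst_add]

def hi : M3 X →ₗ[F2] M3 X :=
  lin (fun p => mk3 q X i j β ((p.2 β).2 α) 0 0) fun a b => by
    simp only [mk3_add, add_zero, Prod.snd_add, Pi.add_apply]

def hj : M3 X →ₗ[F2] M3 X :=
  lin (fun p => (mk2 q X i j α ((p.1.2 α).2 β) 0 0 0, 0)) fun a b => by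
    simp only [mk2_add, Prod.mk_add_mk, add_zero, Prod.fst_add, Prod.snd_add, Pi.add_apply]

noncomputable def ι (k : V) : M1 X →ₗ[F2] M3 X :=
  if k = i then ιi q X i j β α else if k = j then ιj q X i j α else ι0 X

noncomputable def π (k : V) : M3 X →ₗ[F2] M1 X :=
  if k = i then πi q X i j β α else if k = j then πj q X i j β α else π0 X

def hh (k : V) : M3 X →ₗ[F2] M3 X :=
  if k = i then hi q X i j β α else if k = j then hj q X i j β α else 0

variable {q i j β α}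

theorem ι_i (y : X.M) (b : Ar → X.M) : ι q X i j β α i (y, b) =
    mk3 q X i j β (0, Pi.single β y) (mk2 q X i j α y 0 0 (R q X j b)) (R q X i b) := by
  rw [ι, if_pos rfl]
  rfl

theorem ι_j (h : Edge q i j β α) (x : X.M) (b : Ar → X.M) : ι q X i j β α j (x, b) =
    (mk2 q X i j α (X.ρ α x) x (R q X i b) (R q X j b), 0) := by
  rw [ι, if_neg h.ne.symm, if_pos rfl]
  rfl

theorem ι_ne {k : V} (h1 : k ≠ i) (h2 : k ≠ j) (x : X.M) (b : Ar → X.M) :
    ι q X i j β α k (x, b) = (((x, 0), 0), 0) := by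
  rw [ι, if_neg h1, if_neg h2]
  rfl

theorem π_i (h : Edge q i j β α) (v : M1 X) (y x : X.M) (bt c b : Ar → X.M) :
    π q X i j β α i (mk3 q X i j β v (mk2 q X i j α y x bt c) b) =
      (y, E q X {i, j} c + E q X {i, j} b + E q X {i, j} (out q X i (sM q X i (x, bt)))) := by
  rw [π, if_pos rfl]
  change (_, _) = _
  rw [mk3_β X h, mk3_E X h, mk2_E X h, mk2_α X h]
  rfl

theorem π_j (h : Edge q i j β α) (y x : X.M) (bt c : Ar → X.M) :
    π q X i j β α j (mk2 q X i j α y x bt c, 0) =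
      (x, E q X {i, j} (bt + out q X j (bt β)) + E q X {i, j} c) := by
  rw [π, if_neg h.ne.symm, if_pos rfl]
  change (_, _) = _
  dsimp only
  rw [mk2_E X h, mk2_α X h]

theorem π_ne {k : V} (h1 : k ≠ i) (h2 : k ≠ j) (p : M3 X) :
    π q X i j β α k p = (p.1.1.1, 0) := by
  rw [π, if_neg h1, if_neg h2]
  rfl

theorem hh_i (h : Edge q i j β α) (v : M1 X) (y x : X.M) (bt c b : Ar → X.M) :
    hh q X i j β α i (mk3 q X i j β v (mk2 q X i j α y x bt c) b) =
      mk3 q X i j β (x, bt) (mk2 q X i j α 0 0 0 0) 0 := by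
  rw [hh, if_pos rfl, mk2_zero]
  change mk3 q X i j β _ 0 0 = _
  rw [mk3_β X h, mk2_α X h]

theorem hh_j (h : Edge q i j β α) (y x : X.M) (bt c : Ar → X.M) :
    hh q X i j β α j (mk2 q X i j α y x bt c, 0) = (mk2 q X i j α (bt β) 0 0 0, 0) := by
  rw [hh, if_neg h.ne.symm, if_pos rfl]
  change (mk2 q X i j α _ 0 0 0, 0) = _
  dsimp only
  rw [mk2_α X h]

theorem hh_ne {k : V} (h1 : k ≠ i) (h2 : k ≠ j) (p : M3 X) : hh q X i j β α k p = 0 := by
  rw [hh, if_neg h1, if_neg h2]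
  rfl

theorem memC_i (n : ℤ) (p : M1 X) : p ∈ (CC q X i j β α).G i n ↔
    p.1 ∈ X.G j (n + 1) ∧ p.2 ∈ GE q X {i, j} n := by
  change p ∈ cG q X {i, j} i j i n ↔ _
  rw [cG, if_pos rfl]
  exact Submodule.mem_prod

theorem memC_j (h : Edge q i j β α) (n : ℤ) (p : M1 X) : p ∈ (CC q X i j β α).G j n ↔
    p.1 ∈ X.G i (n + 1) ∧ p.2 ∈ GE q X {i, j} n := by
  change p ∈ cG q X {i, j} i j j n ↔ _
  rw [cG, if_neg h.ne.symm, if_pos rfl]
  exact Submodule.mem_prod

theorem memC_ne {k : V} (h1 : k ≠ i) (h2 : k ≠ j) (n : ℤ) (p : M1 X) :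
    p ∈ (CC q X i j β α).G k n ↔ p.1 ∈ X.G k n ∧ p.2 = 0 := by
  change p ∈ cG q X {i, j} i j k n ↔ _
  rw [cG, if_neg h1, if_neg h2]
  exact Submodule.mem_prod.trans (by rw [Submodule.mem_bot])

theorem dC_i (y : X.M) (b : Ar → X.M) : (CC q X i j β α).d i ((y, b) : M1 X) =
    ((X.d j y, E q X {i, j} (out q X j y + out q X i (X.ρ β y)) + dB q X b) : M1 X) := by
  change cD q X {i, j} i j β α i _ = _
  rw [cD, if_pos rfl]
  rfl

theorem dC_j (h : Edge q i j β α) (x : X.M) (b : Ar → X.M) :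
    (CC q X i j β α).d j ((x, b) : M1 X) =
    ((X.d i x, E q X {i, j} (out q X i x + out q X j (X.ρ α x)) + dB q X b) : M1 X) := by
  change cD q X {i, j} i j β α j _ = _
  rw [cD, if_neg h.ne.symm, if_pos rfl]
  rfl

theorem dC_ne {k : V} (h1 : k ≠ i) (h2 : k ≠ j) (x : X.M) (b : Ar → X.M) :
    (CC q X i j β α).d k ((x, b) : M1 X) = ((X.d k x, 0) : M1 X) := by
  change cD q X {i, j} i j β α k _ = _
  rw [cD, if_neg h1, if_neg h2]
  rfl

theorem R_E (J : Finset V) (p : V) (b : Ar → X.M) :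
    R q X p (E q X J b) = E q X J (R q X p b) := by
  funext a
  simp only [R_apply, E_apply]
  split_ifs <;> rfl

theorem R_R (p : V) (b : Ar → X.M) : R q X p (R q X p b) = R q X p b := by
  funext a
  simp only [R_apply]
  split_ifs <;> rfl

theorem R_of_GB {p : V} {n : ℤ} {b : Ar → X.M} (hb : b ∈ GB q X p n) : R q X p b = b := by
  funext a
  rw [R_apply]
  split_ifs with h
  · rfl
  · exact (((mem_GB _ _ _ _ _).1 hb a).2 h).symm

theorem R_of_GB_ne {p r : V} (hpr : p ≠ r) {n : ℤ} {b : Ar → X.M} (hb : b ∈ GB q X r n) :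
    R q X p b = 0 := by
  funext a
  rw [R_apply]
  split_ifs with h
  · exact ((mem_GB _ _ _ _ _).1 hb a).2 (h ▸ hpr)
  · rfl

theorem R_out (p : V) (x : X.M) : R q X p (out q X p x) = out q X p x := by
  funext a
  simp only [R_apply, out_apply]
  split_ifs <;> rfl

theorem R_out_ne {p r : V} (hpr : p ≠ r) (x : X.M) : R q X p (out q X r x) = 0 := by
  funext a
  simp only [R_apply, out_apply]
  split_ifs with h1 h2
  · exact absurd (h1.symm.trans h2) hpr
  · rfl
  · rfl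

theorem inn_R (p : V) (b : Ar → X.M) : inn q X p (R q X p b) = inn q X p b := by
  rw [inn_apply, inn_apply]
  refine sum_congr rfl fun a _ => ?_
  split_ifs with h
  · rw [R_apply, if_pos h]
  · rfl

theorem E_of_GE {J : Finset V} {n : ℤ} {b : Ar → X.M} (hb : b ∈ GE q X J n) : E q X J b = b := by
  funext a
  rw [E_apply]
  split_ifs with h
  · exact (((mem_GE _ _ _ _ _).1 hb a).2 fun e => e.2 h).symm
  · rfl

theorem R_add_R (h : Edge q i j β α) {n : ℤ} {b : Ar → X.M} (hb : b ∈ GE q X {i, j} n) :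
    R q X i b + R q X j b = b := by
  funext a
  rw [Pi.add_apply, R_apply, R_apply]
  split_ifs with h1 h2 h2
  · exact absurd (h1.symm.trans h2) h.ne
  · exact add_zero _
  · exact zero_add _
  · rw [((mem_GE _ _ _ _ _).1 hb a).2 fun e => by simpa [h1, h2] using e.1, add_zero]

theorem R_mem {J : Finset V} {p : V} {n : ℤ} {b : Ar → X.M} (hb : b ∈ GE q X J n) :
    R q X p b ∈ GB q X p n := by
  rw [mem_GB]
  intro a
  rw [R_apply]
  refine ⟨fun h => ?_, fun h => if_neg h⟩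
  rw [if_pos h]
  by_cases h1 : q.tgt a ∈ J ∧ q.src a ∉ J
  · exact ((mem_GE _ _ _ _ _).1 hb a).1 h1
  · rw [((mem_GE _ _ _ _ _).1 hb a).2 h1]
    exact zero_mem _

theorem E_mem {J : Finset V} {p : V} (hp : p ∈ J) {n : ℤ} {b : Ar → X.M} (hb : b ∈ GB q X p n) :
    E q X J b ∈ GE q X J n := by
  rw [mem_GE]
  intro a
  have := (mem_GB _ _ _ _ _).1 hb a
  rw [E_apply]
  by_cases h1 : q.tgt a = p
  · refine ⟨fun h => by rw [if_pos h.2]; exact this.1 h1, fun h => if_neg fun e => h ⟨h1 ▸ hp, e⟩⟩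
  · rw [this.2 h1, ite_self]
    exact ⟨fun _ => zero_mem _, fun _ => rfl⟩

theorem dB_GE (hX : Valid q X) {J : Finset V} {n : ℤ} {b : Ar → X.M} (hb : b ∈ GE q X J n) :
    dB q X b ∈ GE q X J (n + 1) := by
  rw [mem_GE] at hb ⊢
  intro a
  rw [dB_apply]
  exact ⟨fun h => hX.d_mem _ _ _ ((hb a).1 h), fun h => by rw [(hb a).2 h, map_zero]⟩

theorem split_i (h : Edge q i j β α) (b : Ar → X.M) :
    E q X {i, j} (R q X i b) + R q X i b = Pi.single β (b β) := by
  funext a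
  rw [Pi.add_apply, E_apply, R_apply]
  rcases h.cases a with rfl | rfl | ⟨h1, h2, h3, h4, h5⟩ | ⟨h1, h2, h3, h4, h5⟩ | ⟨h1, h2, h4, h5⟩
  · rw [if_neg (h.ta ▸ h.ne.symm : ¬ q.tgt a = i), ite_self, add_zero, Pi.single_eq_of_ne h.ab]
  · rw [if_neg (by simp [h.sb]), if_pos h.tb, zero_add, Pi.single_eq_same]
  · rw [if_pos (by simp [h2, h3]), add_self_F2, Pi.single_eq_of_ne h5]
  · rw [if_pos (by simp [h2, h3]), add_self_F2, Pi.single_eq_of_ne h5]
  · rw [if_neg h1, ite_self, add_zero, Pi.single_eq_of_ne h5]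

theorem E_single_β (h : Edge q i j β α) (y : X.M) : E q X {i, j} (Pi.single β y) = 0 := by
  funext a
  rw [E_apply]
  split_ifs with h1
  · rfl
  · exact Pi.single_eq_of_ne (fun e => h1 (by simp [e, h.sb])) _

theorem out_β (h : Edge q i j β α) (x : X.M) : out q X i x β = X.ρ α x := by
  rw [out_apply, if_pos h.tb, h.st]

theorem dB_β (h : Edge q i j β α) (b : Ar → X.M) : dB q X b β = X.d j (b β) := by
  rw [dB_apply, h.sb]

theorem inn_β (h : Edge q i j β α) (y : X.M) : inn q X i (Pi.single β y) = X.ρ β y := by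
  rw [inn_single, if_pos h.tb]

theorem GB_β (h : Edge q i j β α) {n : ℤ} {b : Ar → X.M} (hb : b ∈ GB q X i n) :
    b β ∈ X.G j n := h.sb ▸ ((mem_GB _ _ _ _ _).1 hb β).1 h.tb

theorem GE_β (h : Edge q i j β α) {n : ℤ} {b : Ar → X.M} (hb : b ∈ GE q X {i, j} n) :
    b β = 0 := by rw [← E_of_GE X hb, E_β X h]

theorem ρα_mem (hX : Valid q X) (h : Edge q i j β α) {n : ℤ} {x : X.M} (hx : x ∈ X.G i n) :
    X.ρ α x ∈ X.G j n := h.ta ▸ hX.ρ_mem α n x (h.sa.symm ▸ hx)

theorem d_ρα (hX : Valid q X) (h : Edge q i j β α) {n : ℤ} {x : X.M} (hx : x ∈ X.G i n) :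
    X.d j (X.ρ α x) = X.ρ α (X.d i x) := by
  have := hX.dρ α n x (h.sa.symm ▸ hx)
  rwa [h.ta, h.sa] at this

end Vale.Agent.P203.Br
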