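import Mathlib

/-! Codimension counts for subspaces of possibly infinite dimensional spaces. -/

namespace Vale.Agent.P203.CohA

open Module

variable {K M N : Type*} [Field K] [AddCommGroup M] [Module K M] [AddCommGroup N] [Module K N]

theorem rk (g : M →ₗ[K] N) (A : Submodule K M) [FiniteDimensional K A] :
    finrank K (A.map g) + finrank K (A ⊓ LinearMap.ker g : Submodule K M) = finrank K A := by
  rw [← (g.domRestrict A).finrank_range_add_finrank_ker, LinearMap.range_domRestrict,
    LinearMap.ker_domRestrict, ← Submodule.map_comap_subtype, Submodule.finrank_map_subtype_eq]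

theorem rk_mkQ {B' B : Submodule K N} [FiniteDimensional K B] (hB : B' ≤ B) :
    finrank K (B.map B'.mkQ) + finrank K B' = finrank K B := by
  rw [← rk B'.mkQ B, Submodule.ker_mkQ, inf_eq_right.2 hB]

theorem rk_comp (f : M →ₗ[K] N) (A : Submodule K M) [FiniteDimensional K A] (B' : Submodule K N) :
    finrank K (A.map (B'.mkQ.comp f)) + finrank K (A ⊓ B'.comap f : Submodule K M) =
      finrank K A := by
  rw [← rk (B'.mkQ.comp f) A, LinearMap.ker_comp, Submodule.ker_mkQ]

/-- a surjection `A / A' → B / B'` -/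
theorem cod_surj (f : M →ₗ[K] N) {A' A : Submodule K M} {B' B : Submodule K N}
    [FiniteDimensional K A] [FiniteDimensional K B] (hA : A' ≤ A) (hB : B' ≤ B)
    (hf : ∀ x ∈ A', f x ∈ B') (h : B ≤ A.map f ⊔ B') :
    finrank K B + finrank K A' ≤ finrank K A + finrank K B' := by
  have h1 := rk_mkQ hB
  have h2 := rk_comp f A B'
  have : FiniteDimensional K (A ⊓ B'.comap f : Submodule K M) :=
    Submodule.finiteDimensional_of_le inf_le_left
  have h3 : finrank K A' ≤ finrank K (A ⊓ B'.comap f : Submodule K M) :=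
    Submodule.finrank_mono (le_inf hA hf)
  have h4 : finrank K (B.map B'.mkQ) ≤ finrank K (A.map (B'.mkQ.comp f)) := by
    refine Submodule.finrank_mono ?_
    rintro _ ⟨y, hy, rfl⟩
    obtain ⟨_, ⟨x, hx, rfl⟩, z, hz, rfl⟩ := Submodule.mem_sup.1 (h hy)
    refine ⟨x, hx, ?_⟩
    rw [map_add, B'.mkQ_apply z, (Submodule.Quotient.mk_eq_zero _).2 hz, add_zero]
    rfl
  omega

/-- an injection `A / A' → B / B'` -/
theorem cod_inj (f : M →ₗ[K] N) {A' A : Submodule K M} {B' B : Submodule K N}
    [FiniteDimensional K A] [FiniteDimensional K B] (hA : A' ≤ A) (hB : B' ≤ B)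
    (hf : ∀ x ∈ A, f x ∈ B) (h : ∀ x ∈ A, f x ∈ B' → x ∈ A') :
    finrank K A + finrank K B' ≤ finrank K B + finrank K A' := by
  have h1 := rk_mkQ hB
  have h2 := rk_comp f A B'
  have : FiniteDimensional K A' := Submodule.finiteDimensional_of_le hA
  have h3 : finrank K (A ⊓ B'.comap f : Submodule K M) ≤ finrank K A' :=
    Submodule.finrank_mono fun x hx => h x hx.1 hx.2
  have h4 : finrank K (A.map (B'.mkQ.comp f)) ≤ finrank K (B.map B'.mkQ) := by
    refine Submodule.finrank_mono ?_
    rintro _ ⟨x, hx, rfl⟩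
    exact ⟨f x, hf x hx, rfl⟩
  omega

theorem finrank_sup_span {S : Submodule K M} [FiniteDimensional K S] {x : M} (hx : x ∉ S) :
    finrank K (S ⊔ K ∙ x : Submodule K M) = finrank K S + 1 := by
  have h := Submodule.finrank_sup_add_finrank_inf_eq S (K ∙ x)
  rwa [(Submodule.disjoint_span_singleton_of_notMem hx).eq_bot, finrank_bot, add_zero,
    finrank_span_singleton fun h0 : x = 0 => hx (h0 ▸ zero_mem _)] at h

theorem exists_hyperplane {T : Submodule K M} [FiniteDimensional K T] (k : ℕ) :
    ∀ S : Submodule K M, S ≤ T → finrank K S + k + 1 = finrank K T →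
      ∃ H : Submodule K M, S ≤ H ∧ H ≤ T ∧ finrank K H + 1 = finrank K T := by
  induction k with
  | zero => exact fun S hS h => ⟨S, le_rfl, hS, h⟩
  | succ k ih =>
    intro S hS h
    have := Submodule.finiteDimensional_of_le hS
    obtain ⟨x, hx, hx'⟩ := SetLike.exists_of_lt (lt_of_le_of_ne hS (by
      rintro rfl
      omega))
    obtain ⟨H, h1, h2⟩ := ih (S ⊔ K ∙ x)
      (sup_le hS ((Submodule.span_singleton_le_iff_mem _ _).2 hx)) (by
        rw [finrank_sup_span hx']
        omega)
    exact ⟨H, le_sup_left.trans h1, h2⟩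

/-- a product of subspaces -/
def piEquiv {ι : Type*} (p : ι → Submodule K M) :
    Submodule.pi Set.univ p ≃ₗ[K] ∀ a, p a where
  toFun x a := ⟨x.1 a, x.2 a trivial⟩
  invFun x := ⟨fun a => x a, fun a _ => (x a).2⟩
  map_add' _ _ := rfl
  map_smul' _ _ := rfl
  left_inv _ := rfl
  right_inv _ := rfl

theorem finite_pi {ι : Type*} [Finite ι] (p : ι → Submodule K M)
    [∀ a, FiniteDimensional K (p a)] : FiniteDimensional K (Submodule.pi Set.univ p) :=
  Module.Finite.equiv (piEquiv p).symm

theorem finrank_pi {ι : Type*} [Fintype ι] (p : ι → Submodule K M)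
    [∀ a, FiniteDimensional K (p a)] :
    finrank K (Submodule.pi Set.univ p) = ∑ a, finrank K (p a) := by
  rw [(piEquiv p).finrank_eq, Module.finrank_pi_fintype]

end Vale.Agent.P203.CohA
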