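import Vale.Agent.P203.DGBasic
import Vale.Agent.P203.DGCohA

namespace Vale.Agent.P203

open Finset

variable {V Ar : Type} [DecidableEq V] [Fintype Ar] [DecidableEq Ar] {q : DQ V Ar}

theorem Valid.fin_Zc {X : Raw V Ar} (hX : Valid q X) (n : ℤ) (j : V) :
    Module.Finite F2 (Zc X j n) :=
  have := hX.fin j n
  Submodule.finiteDimensional_of_le (S₂ := X.G j n) inf_le_left

theorem Valid.fin_sub {X : Raw V Ar} (hX : Valid q X) {n : ℤ} {U : V → Submodule F2 X.M}
    (h : IsSub q X n U) (j : V) : Module.Finite F2 (U j) :=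
  have := hX.fin_Zc n j
  Submodule.finiteDimensional_of_le (h.hi j)

theorem Valid.dimH_add {X : Raw V Ar} (hX : Valid q X) (n : ℤ) (j : V) :
    dimH X n j + Module.finrank F2 (Bd X j n) = Module.finrank F2 (Zc X j n) :=
  have := hX.fin_Zc n j
  Nat.sub_add_cancel (Submodule.finrank_mono (hX.Bd_le_Zc j n))

theorem Valid.dimH_eq_zero_iff {X : Raw V Ar} (hX : Valid q X) (n : ℤ) (j : V) :
    dimH X n j = 0 ↔ ∀ x ∈ X.G j n, X.d j x = 0 → ∃ y ∈ X.G j (n - 1), x = X.d j y := by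
  have := hX.fin_Zc n j
  have h := hX.dimH_add n j
  constructor
  · intro h0 x hx hd
    have e : Bd X j n = Zc X j n :=
      Submodule.eq_of_le_of_finrank_le (hX.Bd_le_Zc j n) (by omega)
    obtain ⟨y, hy, rfl⟩ : x ∈ Bd X j n := e.ge ⟨hx, hd⟩
    exact ⟨y, hy, rfl⟩
  · intro h0
    have e : Bd X j n = Zc X j n := le_antisymm (hX.Bd_le_Zc j n) fun x hx => by
      obtain ⟨y, hy, rfl⟩ := h0 x hx.1 hx.2
      exact ⟨y, hy, rfl⟩
    rw [dimH, e, Nat.sub_self]

theorem Valid.isSub_Bd {X : Raw V Ar} (hX : Valid q X) (n : ℤ) : IsSub q X n fun j => Bd X j n :=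
  ⟨fun _ => le_rfl, fun j => hX.Bd_le_Zc j n, fun a => by
    rintro _ ⟨y, hy, rfl⟩
    exact ⟨X.ρ a y, hX.ρ_mem a _ y hy, hX.dρ a _ y hy⟩⟩

theorem Valid.isSub_Zc {X : Raw V Ar} (hX : Valid q X) (n : ℤ) : IsSub q X n fun j => Zc X j n :=
  ⟨fun j => hX.Bd_le_Zc j n, fun _ => le_rfl, fun a x hx => ⟨hX.ρ_mem a n x hx.1, by
    have h : X.d (q.src a) x = 0 := hx.2
    rw [SetLike.mem_coe, LinearMap.mem_ker, hX.dρ a n x hx.1, h, map_zero]⟩⟩

theorem Valid.Q_top {X : Raw V Ar} (hX : Valid q X) (n : ℤ) : dimH X n ∈ QQ q X n :=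
  ⟨_, hX.isSub_Bd n, hX.dimH_add n⟩

theorem Valid.Q_le {X : Raw V Ar} (hX : Valid q X) (n : ℤ) : ∀ e ∈ QQ q X n, e ≤ dimH X n := by
  rintro e ⟨U, hU, he⟩ j
  have := hX.fin_sub hU j
  have h1 := Submodule.finrank_mono (hU.lo j)
  have h2 := hX.dimH_add n j
  have h3 := he j
  change e j ≤ dimH X n j
  omega

theorem Valid.exh {X : Raw V Ar} (hX : Valid q X) : ∃ n, ∀ m, n < m → dimH X m = 0 := by
  obtain ⟨N, hN⟩ := hX.bdd
  refine ⟨N, fun m hm => funext fun j => (hX.dimH_eq_zero_iff m j).2 fun x hx _ => ?_⟩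
  rw [hN j m hm, Submodule.mem_bot] at hx
  exact ⟨0, zero_mem _, by rw [hx, map_zero]⟩

theorem Rel.QQ_eq {X Y : Raw V Ar} (h : Rel q X Y) (n : ℤ) : QQ q X n = QQ q Y n := by
  obtain ⟨hX, hY, f, hf⟩ := h
  have fZ : ∀ j, ∀ x ∈ Zc X j n, f j x ∈ Zc Y j n := fun j x hx => ⟨hf.ch.mem j n x hx.1, by
    have h : X.d j x = 0 := hx.2
    rw [SetLike.mem_coe, LinearMap.mem_ker, ← hf.ch.d j n x hx.1, h, map_zero]⟩
  have fB : ∀ j, ∀ x ∈ Bd X j n, f j x ∈ Bd Y j n := fun j => by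
    rintro _ ⟨x, hx, rfl⟩
    exact ⟨f j x, hf.ch.mem j _ x hx, (hf.ch.d j _ x hx).symm⟩
  have fs : ∀ j, Zc Y j n ≤ (Zc X j n).map (f j) ⊔ Bd Y j n := fun j y hy => by
    obtain ⟨x', hx', y', hy', e1, rfl⟩ := hf.acy j n 0 (zero_mem _) y hy.1 (map_zero _)
      ((map_zero _).trans (Eq.symm hy.2))
    exact Submodule.add_mem_sup ⟨x', ⟨hx', e1.symm⟩, rfl⟩ ⟨y', hy', rfl⟩
  have fi : ∀ j, ∀ x ∈ Zc X j n, f j x ∈ Bd Y j n → x ∈ Bd X j n := fun j x hx => by
    rintro ⟨y, hy, e⟩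
    obtain ⟨x', hx', -, -, e1, -⟩ := hf.acy j (n - 1) x (by
      rw [sub_add_cancel]
      exact hx.1) y hy hx.2 e.symm
    exact ⟨x', hx', e1.symm⟩
  have key : ∀ j (U : Submodule F2 X.M) (U' : Submodule F2 Y.M), U ≤ Zc X j n → Bd Y j n ≤ U' →
      U' ≤ Zc Y j n → (∀ x ∈ Zc X j n, f j x ∈ U' ↔ x ∈ U) → ∀ e : ℕ,
      e + Module.finrank F2 U = Module.finrank F2 (Zc X j n) ↔
        e + Module.finrank F2 U' = Module.finrank F2 (Zc Y j n) := fun j U U' h1 h2 h3 h4 e => by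
    have := hX.fin_Zc n j
    have := hY.fin_Zc n j
    have a1 := CohA.cod_surj (f j) h1 h3 (fun x hx => (h4 x (h1 hx)).2 hx)
      ((fs j).trans (sup_le_sup_left h2 _))
    have a2 := CohA.cod_inj (f j) h1 h3 (fZ j) fun x hx => (h4 x hx).1
    omega
  ext e
  constructor
  · rintro ⟨U, hU, he⟩
    have hi : ∀ j, (U j).map (f j) ⊔ Bd Y j n ≤ Zc Y j n := fun j => sup_le (by
      rintro _ ⟨x, hx, rfl⟩
      exact fZ j x (hU.hi j hx)) (hY.Bd_le_Zc j n)
    refine ⟨fun j => (U j).map (f j) ⊔ Bd Y j n, ⟨fun j => le_sup_right, hi, fun a y hy => ?_⟩,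
      fun j => (key j (U j) _ (hU.hi j) le_sup_right (hi j) (fun x hx => ⟨fun h => ?_,
        fun h => Submodule.mem_sup_left ⟨x, h, rfl⟩⟩) _).1 (he j)⟩
    · obtain ⟨_, ⟨x, hx, rfl⟩, b, hb, rfl⟩ := Submodule.mem_sup.1 hy
      rw [map_add, ← hf.ρ a n x (hU.hi _ hx).1]
      exact Submodule.add_mem_sup ⟨_, hU.st a x hx, rfl⟩ ((hY.isSub_Bd n).st a b hb)
    · obtain ⟨_, ⟨u, hu, rfl⟩, b, hb, e⟩ := Submodule.mem_sup.1 h
      have h1 := fi j (x - u) (sub_mem hx (hU.hi j hu)) (by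
        rw [map_sub, ← e, add_sub_cancel_left]
        exact hb)
      simpa using add_mem (hU.lo j h1) hu
  · rintro ⟨U, hU, he⟩
    refine ⟨fun j => Zc X j n ⊓ (U j).comap (f j), ⟨fun j x hx =>
      ⟨hX.Bd_le_Zc j n hx, hU.lo j (fB j x hx)⟩, fun j => inf_le_left, fun a x hx =>
      ⟨(hX.isSub_Zc n).st a x hx.1, ?_⟩⟩, fun j => (key j _ (U j) inf_le_left (hU.lo j) (hU.hi j)
        (fun x hx => ⟨fun h => ⟨hx, h⟩, fun h => h.2⟩) _).2 (he j)⟩
    rw [SetLike.mem_coe, Submodule.mem_comap, hf.ρ a n x hx.1.1]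
    exact hU.st a _ hx.2

theorem Rel.dimH_eq {X Y : Raw V Ar} (h : Rel q X Y) : dimH X = dimH Y :=
  funext fun n => le_antisymm (h.2.1.Q_le n _ (h.QQ_eq n ▸ h.1.Q_top n))
    (h.1.Q_le n _ ((h.QQ_eq n).symm ▸ h.2.1.Q_top n))

namespace CohAux

/-- the sum of the subspaces at the neighbours of `i` -/
def PB (q : DQ V Ar) {X : Raw V Ar} (U : V → Submodule F2 X.M) (i : V) :
    Submodule F2 (Ar → X.M) :=
  Submodule.pi Set.univ fun a => if q.tgt a = i then U (q.src a) else ⊥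

omit [Fintype Ar] [DecidableEq Ar] in
theorem mem_PB {X : Raw V Ar} {U : V → Submodule F2 X.M} {i : V} {b : Ar → X.M} :
    b ∈ PB q U i ↔ ∀ a, (q.tgt a = i → b a ∈ U (q.src a)) ∧ (q.tgt a ≠ i → b a = 0) := by
  simp only [PB, Submodule.mem_pi, Set.mem_univ, true_imp_iff]
  refine forall_congr' fun a => ?_
  by_cases h : q.tgt a = i <;> simp [h]

omit [DecidableEq Ar] in
theorem fin_PB {X : Raw V Ar} (U : V → Submodule F2 X.M) [∀ j, Module.Finite F2 (U j)] (i : V) :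
    Module.Finite F2 (PB q U i) ∧
      Module.finrank F2 (PB q U i) = nb q (fun j => Module.finrank F2 (U j)) i := by
  have : ∀ a, Module.Finite F2
      (if q.tgt a = i then U (q.src a) else ⊥ : Submodule F2 X.M) := fun a => by
    by_cases h : q.tgt a = i
    · rw [if_pos h]
      infer_instance
    · rw [if_neg h]
      infer_instance
  refine ⟨CohA.finite_pi _, (CohA.finrank_pi _).trans (sum_congr rfl fun a _ => ?_)⟩
  by_cases h : q.tgt a = i
  · rw [if_pos h, if_pos h]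
  · rw [if_neg h, if_neg h, finrank_bot]

omit [DecidableEq Ar] in
theorem nb_add (e e' : V → ℕ) (i : V) : nb q (e + e') i = nb q e i + nb q e' i := by
  rw [nb, nb, nb, ← sum_add_distrib]
  exact sum_congr rfl fun a _ => by split_ifs <;> rfl

theorem upd {X : Raw V Ar} {n : ℤ} {U : V → Submodule F2 X.M} (h : IsSub q X n U) {i : V}
    {H : Submodule F2 X.M} (h1 : Bd X i n ≤ H) (h2 : H ≤ Zc X i n)
    (h3 : ∀ a, q.tgt a = i → ∀ x ∈ U (q.src a), X.ρ a x ∈ H)
    (h4 : ∀ a, q.src a = i → ∀ x ∈ H, X.ρ a x ∈ U (q.tgt a)) :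
    IsSub q X n (Function.update U i H) := by
  refine ⟨le_update_iff.2 ⟨h1, fun j _ => h.lo j⟩,
    update_le_iff.2 ⟨h2, fun j _ => h.hi j⟩, fun a x hx => ?_⟩
  by_cases ht : q.tgt a = i
  · rw [Function.update_of_ne (ht ▸ (q.tgt_ne_src a).symm)] at hx
    rw [ht, Function.update_self]
    exact h3 a ht x hx
  · rw [Function.update_of_ne ht]
    by_cases hs : q.src a = i
    · rw [hs, Function.update_self] at hx
      exact h4 a hs x hx
    · rw [Function.update_of_ne hs] at hx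
      exact h.st a x hx

theorem count {X : Raw V Ar} (hX : Valid q X) {n : ℤ} {U' U : V → Submodule F2 X.M}
    (h' : IsSub q X n U') (h : IsSub q X n U) (hle : U' ≤ U) (i : V)
    (hA : U i ≤ (PB q U i).map (inn q X i) ⊔ U' i)
    (hB : ∀ x ∈ U i, out q X i x ∈ PB q U' i → x ∈ U' i) :
    2 * Module.finrank F2 (U i) + nb q (fun j => Module.finrank F2 (U' j)) i ≤
      nb q (fun j => Module.finrank F2 (U j)) i + 2 * Module.finrank F2 (U' i) := by
  have := hX.fin_sub h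
  have := hX.fin_sub h'
  obtain ⟨f1, e1⟩ := fin_PB (q := q) U i
  obtain ⟨f2, e2⟩ := fin_PB (q := q) U' i
  have : Module.Finite F2 (PB q U i ⊓ (U' i).comap (inn q X i) : Submodule F2 _) :=
    Submodule.finiteDimensional_of_le inf_le_left
  have a1 := CohA.cod_surj (inn q X i) (A' := PB q U i ⊓ (U' i).comap (inn q X i)) inf_le_left
    (hle i) (fun x hx => hx.2) hA
  have a2 := CohA.cod_inj (out q X i) (B := PB q U i ⊓ (U' i).comap (inn q X i)) (hle i)
    (fun b hb => ⟨mem_PB.2 fun a => ⟨fun ha => hle _ ((mem_PB.1 hb a).1 ha), (mem_PB.1 hb a).2⟩, by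
      rw [SetLike.mem_coe, Submodule.mem_comap, inn_apply]
      refine Submodule.sum_mem _ fun a _ => ?_
      split_ifs with ha
      · exact ha ▸ h'.st a _ ((mem_PB.1 hb a).1 ha)
      · exact zero_mem _⟩)
    (fun x hx => ⟨mem_PB.2 fun a => ⟨fun ha => by
      rw [out_apply, if_pos ha, ← q.tgt_star a]
      exact h.st (q.star a) x (by rw [q.src_star, ha]; exact hx), fun ha => by
      rw [out_apply, if_neg ha]⟩, by
      have hd : X.d i x = 0 := (h.hi i hx).2
      rw [SetLike.mem_coe, Submodule.mem_comap, hX.inn_out (h.hi i hx).1, hd, map_zero, add_zero]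
      exact h'.lo i ⟨_, hX.t_mem' (h.hi i hx).1, rfl⟩⟩) hB
  omega

end CohAux

theorem Valid.simple_step {X : Raw V Ar} (hX : Valid q X) [Finite V] {n : ℤ}
    {U' U : V → Submodule F2 X.M} (h' : IsSub q X n U') (h : IsSub q X n U) (hle : U' ≤ U)
    (hne : U' ≠ U) : ∃ U'', IsSub q X n U'' ∧ U' ≤ U'' ∧ U'' ≤ U ∧ ∃ y : V → ℕ, y ≠ 0 ∧
      (∀ j, y j + Module.finrank F2 (U'' j) = Module.finrank F2 (U j)) ∧
      ((∃ i, y = Pi.single i 1) ∨ ∀ i, 2 * y i ≤ nb q y i) := by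
  have := Fintype.ofFinite V
  have := hX.fin_sub h
  obtain ⟨N, hN⟩ : ∃ N, ∑ j, Module.finrank F2 (U j) ≤ ∑ j, Module.finrank F2 (U' j) + N :=
    ⟨_, Nat.le_add_left _ _⟩
  induction N generalizing U' with
  | zero =>
    refine absurd (funext fun j => Submodule.eq_of_le_of_finrank_le (hle j) ?_) hne
    exact ((sum_eq_sum_iff_of_le fun j _ => Submodule.finrank_mono (hle j)).1
      (le_antisymm (sum_le_sum fun j _ => Submodule.finrank_mono (hle j)) hN) j (mem_univ j)).ge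
  | succ N ih =>
    have := hX.fin_sub h'
    have hmono : ∀ j, Module.finrank F2 (U' j) ≤ Module.finrank F2 (U j) := fun j =>
      Submodule.finrank_mono (hle j)
    by_cases hA : ∀ i, U i ≤ (CohAux.PB q U i).map (inn q X i) ⊔ U' i
    swap
    · obtain ⟨i, hi⟩ := not_forall.1 hA
      have hS : (CohAux.PB q U i).map (inn q X i) ⊔ U' i ≤ U i := sup_le (by
        rintro _ ⟨b, hb, rfl⟩
        rw [inn_apply]
        refine Submodule.sum_mem _ fun a _ => ?_
        split_ifs with ha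
        · exact ha ▸ h.st a _ ((CohAux.mem_PB.1 hb a).1 ha)
        · exact zero_mem _) (hle i)
      obtain ⟨k, hk⟩ := Nat.exists_eq_add_of_lt
        (Submodule.finrank_lt_finrank_of_lt (lt_of_le_not_ge hS hi))
      obtain ⟨H, h1, h2, h3⟩ := CohA.exists_hyperplane k _ hS hk.symm
      refine ⟨Function.update U i H, CohAux.upd h ((h'.lo i).trans (le_sup_right.trans h1))
        (h2.trans (h.hi i)) (fun a ha x hx => h1 (Submodule.mem_sup_left
          ⟨Pi.single a x, CohAux.mem_PB.2 fun b => ?_, by rw [inn_single, if_pos ha]⟩))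
        fun a ha x hx => h.st a x (ha ▸ h2 hx),
        le_update_iff.2 ⟨le_sup_right.trans h1, fun j _ => hle j⟩,
        update_le_iff.2 ⟨h2, fun j _ => le_rfl⟩, Pi.single i 1,
        by simp, fun j => ?_, Or.inl ⟨i, rfl⟩⟩
      · by_cases hb : b = a
        · subst hb
          simp [ha, hx]
        · simp [Pi.single_eq_of_ne hb]
      · by_cases hj : j = i
        · subst hj
          rw [Function.update_self, Pi.single_eq_same, add_comm, h3]
        · rw [Function.update_of_ne hj, Pi.single_eq_of_ne hj, zero_add]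
    by_cases hB : ∀ i, ∀ x ∈ U i, out q X i x ∈ CohAux.PB q U' i → x ∈ U' i
    · have e : (fun j => Module.finrank F2 (U j)) =
          (fun j => Module.finrank F2 (U j) - Module.finrank F2 (U' j)) +
            fun j => Module.finrank F2 (U' j) := funext fun j => (Nat.sub_add_cancel (hmono j)).symm
      refine ⟨U', h', le_rfl, hle, fun j => Module.finrank F2 (U j) - Module.finrank F2 (U' j),
        fun h0 => hne (funext fun j => Submodule.eq_of_le_of_finrank_le (hle j)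
          (Nat.sub_eq_zero_iff_le.1 (congrFun h0 j))), fun j => Nat.sub_add_cancel (hmono j),
        Or.inr fun i => ?_⟩
      have h1 := CohAux.count hX h' h hle i (hA i) (hB i)
      rw [e, CohAux.nb_add] at h1
      have h2 := hmono i
      beta_reduce
      omega
    push Not at hB
    obtain ⟨i, x, hx, ho, hx'⟩ := hB
    have hH : U' i ⊔ F2 ∙ x ≤ U i := sup_le (hle i) ((Submodule.span_singleton_le_iff_mem _ _).2 hx)
    have hW : IsSub q X n (Function.update U' i (U' i ⊔ F2 ∙ x)) :=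
      CohAux.upd h' ((h'.lo i).trans le_sup_left) (hH.trans (h.hi i))
        (fun a ha y hy => Submodule.mem_sup_left (ha ▸ h'.st a y hy)) fun a ha y hy => by
          obtain ⟨u, hu, w, hw, rfl⟩ := Submodule.mem_sup.1 hy
          obtain ⟨c, rfl⟩ := Submodule.mem_span_singleton.1 hw
          have h1 := (CohAux.mem_PB.1 ho (q.star a)).1 ((q.tgt_star a).trans ha)
          rw [out_apply, if_pos ((q.tgt_star a).trans ha), q.star_star, q.src_star] at h1
          rw [map_add, map_smul]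
          exact add_mem (h'.st a u (ha ▸ hu)) (Submodule.smul_mem _ _ h1)
    have hr : ∀ j, Module.finrank F2 (Function.update U' i (U' i ⊔ F2 ∙ x) j : Submodule F2 X.M) =
        (Pi.single i 1 : V → ℕ) j + Module.finrank F2 (U' j) := fun j => by
      by_cases hj : j = i
      · subst hj
        rw [Function.update_self, Pi.single_eq_same, add_comm, CohA.finrank_sup_span hx']
      · rw [Function.update_of_ne hj, Pi.single_eq_of_ne hj, zero_add]
    by_cases he : Function.update U' i (U' i ⊔ F2 ∙ x) = U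
    · exact ⟨U', h', le_rfl, hle, Pi.single i 1, by simp, fun j => by rw [← hr, he],
        Or.inl ⟨i, rfl⟩⟩
    · obtain ⟨U'', a1, a2, a3⟩ := ih hW (update_le_iff.2 ⟨hH, fun j _ => hle j⟩) he (by
        simp only [hr, sum_add_distrib, sum_pi_single', mem_univ, if_true]
        omega)
      exact ⟨U'', a1, le_trans (le_update_iff.2 ⟨le_sup_left, fun j _ => le_rfl⟩) a2, a3⟩

theorem Valid.CS1 {X : Raw V Ar} (hX : Valid q X) [Finite V] (n : ℤ) :
    ∀ e ∈ QQ q X n, e ≠ 0 → ∃ y ∈ QQ q X n, y ≠ 0 ∧ y ≤ e ∧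
      ((∃ i, y = Pi.single i 1) ∨ ∀ i, 2 * y i ≤ nb q y i) := by
  rintro e ⟨U, hU, he⟩ h0
  obtain ⟨U'', a1, a2, -, y, a4, a5, a6⟩ := hX.simple_step hU (hX.isSub_Zc n) hU.hi fun h =>
    h0 (funext fun j => by
      have h1 := he j
      rw [congrFun h j] at h1
      exact Nat.add_eq_right.1 h1)
  refine ⟨y, ⟨U'', a1, a5⟩, a4, fun j => ?_, a6⟩
  have := hX.fin_sub a1 j
  have h1 := Submodule.finrank_mono (a2 j)
  have h2 := a5 j
  have h3 := he j
  change y j ≤ e j
  omega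

theorem Valid.CS2 {X : Raw V Ar} (hX : Valid q X) [Finite V] (n : ℤ) :
    ∀ e ∈ QQ q X n, e ≠ dimH X n → ∃ y : V → ℕ, y ≠ 0 ∧ e + y ∈ QQ q X n ∧
      ((∃ i, y = Pi.single i 1) ∨ ∀ i, 2 * y i ≤ nb q y i) := by
  rintro e ⟨U, hU, he⟩ h0
  obtain ⟨U'', a1, -, -, y, a4, a5, a6⟩ := hX.simple_step (hX.isSub_Bd n) hU hU.lo fun h =>
    h0 (funext fun j => by
      have h1 := he j
      rw [← congrFun h j, ← hX.dimH_add n j] at h1
      exact Nat.add_right_cancel h1)
  refine ⟨y, a4, ⟨U'', a1, fun j => ?_⟩, a6⟩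
  rw [Pi.add_apply, add_assoc, a5 j, he j]

end Vale.Agent.P203
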