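import Mathlib

namespace Vale.Agent.P203

open Finset

/-- A double quiver without loops. -/
structure DQ (V Ar : Type) where
  src : Ar → V
  star : Ar → Ar
  star_star : ∀ a, star (star a) = a
  noloop : ∀ a, src (star a) ≠ src a

abbrev F2 : Type := ZMod 2

/-- Raw data of a dg module over the Ginzburg algebra in characteristic two: one ambient space,
homogeneous pieces `G i n` (vertex `i`, degree `n`) and operators. -/
structure Raw (V Ar : Type) : Type 1 where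
  M : Type
  [ab : AddCommGroup M]
  [md : Module F2 M]
  G : V → ℤ → Submodule F2 M
  d : V → M →ₗ[F2] M
  t : V → M →ₗ[F2] M
  ρ : Ar → M →ₗ[F2] M

attribute [instance] Raw.ab Raw.md

variable {V Ar : Type} [DecidableEq V] [Fintype Ar] [DecidableEq Ar]

def DQ.tgt (q : DQ V Ar) (a : Ar) : V := q.src (q.star a)

theorem add_self_F2 {N : Type*} [AddCommGroup N] [Module F2 N] (x : N) : x + x = 0 := by
  rw [← two_smul F2 x, show (2 : F2) = 0 from rfl, zero_smul]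

structure Valid (q : DQ V Ar) (X : Raw V Ar) : Prop where
  fin : ∀ i n, Module.Finite F2 (X.G i n)
  bdd : ∃ N : ℤ, ∀ i n, N < n → X.G i n = ⊥
  d_mem : ∀ i n, ∀ x ∈ X.G i n, X.d i x ∈ X.G i (n + 1)
  t_mem : ∀ i n, ∀ x ∈ X.G i (n + 1), X.t i x ∈ X.G i n
  ρ_mem : ∀ a n, ∀ x ∈ X.G (q.src a) n, X.ρ a x ∈ X.G (q.tgt a) n
  dd : ∀ i n, ∀ x ∈ X.G i n, X.d i (X.d i x) = 0
  dρ : ∀ a n, ∀ x ∈ X.G (q.src a) n, X.d (q.tgt a) (X.ρ a x) = X.ρ a (X.d (q.src a) x)
  dt : ∀ i n, ∀ x ∈ X.G i n, X.d i (X.t i x) + X.t i (X.d i x) =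
    ∑ a, if q.tgt a = i then X.ρ a (X.ρ (q.star a) x) else 0

section Ops

variable (q : DQ V Ar) (X : Raw V Ar)

/-- sum of the arrows into `i` -/
noncomputable def inn (i : V) : (Ar → X.M) →ₗ[F2] X.M :=
  ∑ a, if q.tgt a = i then (X.ρ a).comp (LinearMap.proj a) else 0

/-- the arrows out of `i`, indexed by their reverses -/
noncomputable def out (i : V) : X.M →ₗ[F2] (Ar → X.M) :=
  LinearMap.pi fun a => if q.tgt a = i then X.ρ (q.star a) else 0

/-- the differential on the neighbours -/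
noncomputable def dB : (Ar → X.M) →ₗ[F2] (Ar → X.M) :=
  LinearMap.pi fun a => (X.d (q.src a)).comp (LinearMap.proj a)

/-- the degree `n` part of the sum of the neighbours of `i` -/
def GB (i : V) (n : ℤ) : Submodule F2 (Ar → X.M) :=
  Submodule.pi Set.univ fun a => if q.tgt a = i then X.G (q.src a) n else ⊥

theorem inn_apply (i : V) (b : Ar → X.M) :
    inn q X i b = ∑ a, if q.tgt a = i then X.ρ a (b a) else 0 := by
  rw [inn, LinearMap.sum_apply]
  exact sum_congr rfl fun a _ => by split_ifs <;> rfl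

theorem out_apply (i : V) (x : X.M) (a : Ar) :
    out q X i x a = if q.tgt a = i then X.ρ (q.star a) x else 0 := by
  rw [out, LinearMap.pi_apply]
  split_ifs <;> rfl

theorem dB_apply (b : Ar → X.M) (a : Ar) : dB q X b a = X.d (q.src a) (b a) := rfl

theorem mem_GB (i : V) (n : ℤ) (b : Ar → X.M) :
    b ∈ GB q X i n ↔ ∀ a, (q.tgt a = i → b a ∈ X.G (q.src a) n) ∧ (q.tgt a ≠ i → b a = 0) := by
  simp only [GB, Submodule.mem_pi, Set.mem_univ, true_imp_iff]
  refine forall_congr' fun a => ?_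
  by_cases h : q.tgt a = i <;> simp [h]

/-- apply an operator to the first coordinate, forget the second -/
def fstOp {N B : Type} [AddCommGroup N] [Module F2 N] [AddCommGroup B] [Module F2 B]
    (f : N →ₗ[F2] N) : (N × B) →ₗ[F2] (N × B) :=
  (LinearMap.inl F2 N B).comp (f.comp (LinearMap.fst F2 N B))

@[simp] theorem fstOp_apply {N B : Type} [AddCommGroup N] [Module F2 N] [AddCommGroup B]
    [Module F2 B] (f : N →ₗ[F2] N) (p : N × B) : fstOp f p = (f p.1, 0) := rfl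

/-- the map sending a pair `x, b` to `t x + in b` -/
noncomputable def sM (i : V) : (X.M × (Ar → X.M)) →ₗ[F2] X.M :=
  (X.t i).coprod (inn q X i)

theorem sM_apply (i : V) (p : X.M × (Ar → X.M)) : sM q X i p = X.t i p.1 + inn q X i p.2 := rfl

/-- The down mutation (cone of `out`) at the vertex `i`. -/
noncomputable def Tm (i : V) : Raw V Ar where
  M := X.M × (Ar → X.M)
  G j n := if j = i then (X.G i (n + 1)).prod (GB q X i n) else (X.G j n).prod ⊥
  d j := if j = i then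
      ((X.d i).comp (LinearMap.fst F2 _ _)).prod ((out q X i).coprod (dB q X))
    else fstOp (X.d j)
  t j := if j = i then (LinearMap.inl F2 _ _).comp (sM q X i) else fstOp (X.t j)
  ρ a := if q.tgt a = i then
      (LinearMap.inr F2 _ _).comp ((LinearMap.single F2 (fun _ => X.M) a).comp (LinearMap.fst F2 _ _))
    else if q.src a = i then (LinearMap.inl F2 _ _).comp ((X.ρ a).comp (sM q X i))
    else fstOp (X.ρ a)

/-- The up mutation (cocone of `in`) at the vertex `i`; elements are pairs `y, b`. -/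
noncomputable def Tp (i : V) : Raw V Ar where
  M := X.M × (Ar → X.M)
  G j n := if j = i then (X.G i (n - 1)).prod (GB q X i n) else (X.G j n).prod ⊥
  d j := if j = i then
      ((X.d i).coprod (inn q X i)).prod ((dB q X).comp (LinearMap.snd F2 _ _))
    else fstOp (X.d j)
  t j := if j = i then ((X.t i).prod (out q X i)).comp (LinearMap.fst F2 _ _) else fstOp (X.t j)
  ρ a := if q.tgt a = i then
      ((X.t i).prod (out q X i)).comp ((X.ρ a).comp (LinearMap.fst F2 _ _))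
    else if q.src a = i then
      (LinearMap.inl F2 _ _).comp ((LinearMap.proj (q.star a)).comp (LinearMap.snd F2 _ _))
    else fstOp (X.ρ a)

end Ops

section Mor

variable (q : DQ V Ar) (X Y : Raw V Ar)

/-- degree preserving chain maps at each vertex -/
structure Chain (f : V → X.M →ₗ[F2] Y.M) : Prop where
  mem : ∀ i n, ∀ x ∈ X.G i n, f i x ∈ Y.G i n
  d : ∀ i n, ∀ x ∈ X.G i n, f i (X.d i x) = Y.d i (f i x)

/-- the mapping cones are acyclic -/
def Acy (f : V → X.M →ₗ[F2] Y.M) : Prop :=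
  ∀ i n, ∀ x ∈ X.G i (n + 1), ∀ y ∈ Y.G i n, X.d i x = 0 → f i x = Y.d i y →
    ∃ x' ∈ X.G i n, ∃ y' ∈ Y.G i (n - 1), x = X.d i x' ∧ y = f i x' + Y.d i y'

/-- strict quasi-isomorphisms -/
structure Qis (f : V → X.M →ₗ[F2] Y.M) : Prop where
  ch : Chain X Y f
  t : ∀ i n, ∀ x ∈ X.G i n, f i (X.t i x) = Y.t i (f i x)
  ρ : ∀ a n, ∀ x ∈ X.G (q.src a) n, f (q.tgt a) (X.ρ a x) = Y.ρ a (f (q.src a) x)
  acy : Acy X Y f

/-- quasi-isomorphisms up to coherent homotopy -/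
structure AQis (f : V → X.M →ₗ[F2] Y.M) (fa : Ar → X.M →ₗ[F2] Y.M)
    (ft : V → X.M →ₗ[F2] Y.M) : Prop where
  ch : Chain X Y f
  a_mem : ∀ a n, ∀ x ∈ X.G (q.src a) (n + 1), fa a x ∈ Y.G (q.tgt a) n
  t_mem : ∀ i n, ∀ x ∈ X.G i (n + 2), ft i x ∈ Y.G i n
  ρ : ∀ a n, ∀ x ∈ X.G (q.src a) n,
    Y.d (q.tgt a) (fa a x) + fa a (X.d (q.src a) x) =
      f (q.tgt a) (X.ρ a x) + Y.ρ a (f (q.src a) x)
  t : ∀ i n, ∀ x ∈ X.G i n,
    Y.d i (ft i x) + ft i (X.d i x) + (f i (X.t i x) + Y.t i (f i x)) =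
      ∑ a, if q.tgt a = i then Y.ρ a (fa (q.star a) x) + fa a (X.ρ (q.star a) x) else 0
  acy : Acy X Y f

/-- both are valid and there is a strict quasi-isomorphism -/
def Rel : Prop := Valid q X ∧ Valid q Y ∧ ∃ f, Qis q X Y f

/-- the equivalence relation generated by strict quasi-isomorphisms -/
def Eqv : Prop := Relation.EqvGen (Rel q) X Y

end Mor

section Coh

variable (q : DQ V Ar) (X : Raw V Ar)

/-- cycles -/
def Zc (j : V) (n : ℤ) : Submodule F2 X.M := X.G j n ⊓ LinearMap.ker (X.d j)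

/-- boundaries -/
def Bd (j : V) (n : ℤ) : Submodule F2 X.M := (X.G j (n - 1)).map (X.d j)

/-- submodules of the `n`-th cohomology -/
structure IsSub (n : ℤ) (U : V → Submodule F2 X.M) : Prop where
  lo : ∀ j, Bd X j n ≤ U j
  hi : ∀ j, U j ≤ Zc X j n
  st : ∀ a, ∀ x ∈ U (q.src a), X.ρ a x ∈ U (q.tgt a)

/-- dimension vectors of the quotients of the `n`-th cohomology -/
def QQ (n : ℤ) : Set (V → ℕ) :=
  {e | ∃ U, IsSub q X n U ∧ ∀ j, e j + Module.finrank F2 (U j) = Module.finrank F2 (Zc X j n)}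

/-- dimension vector of the `n`-th cohomology -/
noncomputable def dimH (n : ℤ) (j : V) : ℕ :=
  Module.finrank F2 (Zc X j n) - Module.finrank F2 (Bd X j n)

end Coh

/-- total dimension at the neighbours of `i` -/
def nb (q : DQ V Ar) (e : V → ℕ) (i : V) : ℕ := ∑ a, if q.tgt a = i then e (q.src a) else 0

/-- vanishing above degree `n` -/
def Le {X : Type*} (dim : X → ℤ → V → ℕ) (n : ℤ) (x : X) : Prop := ∀ m, n < m → dim x m = 0

/-- The interface exported by the dg part. -/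
structure Mod (q : DQ V Ar) (Fz : Finset V) (X : Type 1) where
  τ : V → Equiv.Perm X
  dim : X → ℤ → V → ℕ
  Q : X → ℤ → Set (V → ℕ)
  E : X
  comm : ∀ i j, (∀ a, ¬ (q.src a = j ∧ q.tgt a = i)) → τ i * τ j = τ j * τ i
  braid : ∀ i j β, (∀ a, (q.src a = j ∧ q.tgt a = i) ↔ a = β) →
    τ i * τ j * τ i = τ j * τ i * τ j
  dim_E : ∀ m v, dim E m v = if m = 0 ∧ v ∈ Fz then 1 else 0
  dim_off : ∀ i x m j, j ≠ i → dim (τ i x) m j = dim x m j
  down : ∀ i x n, Le dim n x → Le dim n (τ i x)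
  exh : ∀ x, ∃ n, Le dim n x
  Q_top : ∀ x n, dim x n ∈ Q x n
  Q_le : ∀ x n, ∀ e ∈ Q x n, e ≤ dim x n
  I1 : ∀ i x n, Le dim n x → ∀ e ∈ Q x n, ∃ e' ∈ Q (τ i x) n,
    (∀ j, j ≠ i → e' j = e j) ∧ nb q e i ≤ e' i + e i
  I2 : ∀ i x n, Le dim n x → ∀ e' ∈ Q (τ i x) n, ∃ e ∈ Q x n,
    (∀ j, j ≠ i → e j = e' j) ∧ e i + e' i ≤ nb q e' i
  I3 : ∀ i x n, Le dim n x → Q (τ i x) n ⊆ Q (τ i (τ i x)) n
  up : ∀ i x n, Le dim n x → (Le dim n ((τ i)⁻¹ x) ↔ Pi.single i 1 ∉ Q x n)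
  CS1 : ∀ x n, ∀ e ∈ Q x n, e ≠ 0 → ∃ y ∈ Q x n, y ≠ 0 ∧ y ≤ e ∧
    ((∃ i, y = Pi.single i 1) ∨ ∀ i, 2 * y i ≤ nb q y i)
  CS2 : ∀ x n, ∀ e ∈ Q x n, e ≠ dim x n → ∃ y : V → ℕ, y ≠ 0 ∧ e + y ∈ Q x n ∧
    ((∃ i, y = Pi.single i 1) ∨ ∀ i, 2 * y i ≤ nb q y i)

end Vale.Agent.P203
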