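import Vale.Agent.P203.DGValid

namespace Vale.Agent.P203

open Finset

variable {V Ar : Type} [DecidableEq V] [Fintype Ar] [DecidableEq Ar] {q : DQ V Ar}

namespace EtaX

variable {X : Raw V Ar} {i j : V} {n : ℤ} {a : Ar} {x x' : X.M} {b b' c c' : Ar → X.M}

/-- the family with zero second coordinates -/
def up (b : Ar → X.M) : Ar → X.M × (Ar → X.M) := fun a => (b a, 0)

/-- elements of the double mutation -/
def mk3 (x : X.M) (b c : Ar → X.M) : (X.M × (Ar → X.M)) × (Ar → X.M × (Ar → X.M)) :=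
  ((x, b), up c)

omit [DecidableEq V] [Fintype Ar] [DecidableEq Ar] in
theorem up_add : up b + up c = up (b + c) := by
  funext a; simp [up]

omit [DecidableEq V] [Fintype Ar] [DecidableEq Ar] in
theorem up_zero : up (0 : Ar → X.M) = 0 := rfl

omit [DecidableEq V] [Fintype Ar] [DecidableEq Ar] in
theorem mk3_add : mk3 x b c + mk3 x' b' c' = mk3 (x + x') (b + b') (c + c') :=
  Prod.ext rfl up_add

omit [DecidableEq V] [Fintype Ar] [DecidableEq Ar] in
theorem mk3_inj (h : mk3 x b c = mk3 x' b' c') : x = x' ∧ b = b' ∧ c = c' :=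
  ⟨congrArg (·.1.1) h, congrArg (·.1.2) h, funext fun a => congrArg (fun p => (p.2 a).1) h⟩

omit [DecidableEq V] [Fintype Ar] [DecidableEq Ar] in
theorem mk3_congr (h1 : x = x') (h2 : b = b') (h3 : c = c') : mk3 x b c = mk3 x' b' c' := by
  rw [h1, h2, h3]

theorem src_ne (h : q.tgt a = i) : q.src a ≠ i := h ▸ (q.tgt_ne_src a).symm

theorem GB_Tm (B : Ar → X.M × (Ar → X.M)) :
    B ∈ GB q (Tm q X i) i n ↔ ∃ b ∈ GB q X i n, B = up b := by
  refine (mem_GB q (Tm q X i) i n B).trans ⟨fun h => ⟨fun a => (B a).1, (mem_GB q X i n _).2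
    fun a => ⟨fun ha => ((mem_Tm_ne q X (src_ne ha) _).1 ((h a).1 ha)).1,
      fun ha => congrArg Prod.fst ((h a).2 ha)⟩, funext fun a => Prod.ext rfl ?_⟩, ?_⟩
  · by_cases ha : q.tgt a = i
    · exact ((mem_Tm_ne q X (src_ne ha) _).1 ((h a).1 ha)).2
    · exact (congrArg Prod.snd ((h a).2 ha) : (B a).2 = (0 : X.M × (Ar → X.M)).2)
  · rintro ⟨b, hb, rfl⟩ a
    have := (mem_GB q X i n b).1 hb a
    exact ⟨fun ha => (mem_Tm_ne q X (src_ne ha) _).2 ⟨this.1 ha, rfl⟩,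
      fun ha => Prod.ext (this.2 ha) rfl⟩

theorem GB_Tp (B : Ar → X.M × (Ar → X.M)) :
    B ∈ GB q (Tp q X i) i n ↔ ∃ b ∈ GB q X i n, B = up b := by
  refine (mem_GB q (Tp q X i) i n B).trans ⟨fun h => ⟨fun a => (B a).1, (mem_GB q X i n _).2
    fun a => ⟨fun ha => ((mem_Tp_ne q X (src_ne ha) _).1 ((h a).1 ha)).1,
      fun ha => congrArg Prod.fst ((h a).2 ha)⟩, funext fun a => Prod.ext rfl ?_⟩, ?_⟩
  · by_cases ha : q.tgt a = i
    · exact ((mem_Tp_ne q X (src_ne ha) _).1 ((h a).1 ha)).2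
    · exact (congrArg Prod.snd ((h a).2 ha) : (B a).2 = (0 : X.M × (Ar → X.M)).2)
  · rintro ⟨b, hb, rfl⟩ a
    have := (mem_GB q X i n b).1 hb a
    exact ⟨fun ha => (mem_Tp_ne q X (src_ne ha) _).2 ⟨this.1 ha, rfl⟩,
      fun ha => Prod.ext (this.2 ha) rfl⟩

theorem dB_Tm (hb : b ∈ GB q X i n) : dB q (Tm q X i) (up b) = up (dB q X b) := by
  funext a
  by_cases ha : q.tgt a = i
  · exact Tm_d_ne q X (src_ne ha) _
  · have h : b a = 0 := ((mem_GB q X i n b).1 hb a).2 ha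
    have h1 : up b a = 0 := Prod.ext h rfl
    refine (congrArg ((Tm q X i).d (q.src a)) h1).trans ((map_zero _).trans (Prod.ext ?_ rfl))
    exact ((congrArg (X.d (q.src a)) h).trans (map_zero _)).symm

theorem dB_Tp (hb : b ∈ GB q X i n) : dB q (Tp q X i) (up b) = up (dB q X b) := by
  funext a
  by_cases ha : q.tgt a = i
  · exact Tp_d_ne q X (src_ne ha) _
  · have h : b a = 0 := ((mem_GB q X i n b).1 hb a).2 ha
    have h1 : up b a = 0 := Prod.ext h rfl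
    refine (congrArg ((Tp q X i).d (q.src a)) h1).trans ((map_zero _).trans (Prod.ext ?_ rfl))
    exact ((congrArg (X.d (q.src a)) h).trans (map_zero _)).symm

theorem inn_Tm (hb : b ∈ GB q X i n) : inn q (Tm q X i) i (up b) = (0, b) := by
  refine (inn_apply q (Tm q X i) i _).trans ((sum_congr rfl (g := fun a =>
    LinearMap.inr F2 X.M (Ar → X.M) (Pi.single a (b a))) fun a _ => ?_).trans ?_)
  · split_ifs with ha
    · exact Tm_ρ_in q X ha _
    · rw [((mem_GB q X i n b).1 hb a).2 ha, Pi.single_zero, map_zero]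
      rfl
  · exact (map_sum (LinearMap.inr F2 X.M (Ar → X.M)) _ _).symm.trans
      (by rw [Finset.univ_sum_single]; rfl)

theorem inn_Tp : inn q (Tp q X i) i (up b) =
    (X.t i (inn q X i b), out q X i (inn q X i b)) := by
  refine (inn_apply q (Tp q X i) i _).trans ((sum_congr rfl (g := fun a =>
    (X.t i).prod (out q X i) (if q.tgt a = i then X.ρ a (b a) else 0)) fun a _ => ?_).trans ?_)
  · split_ifs with ha
    · exact Tp_ρ_in q X ha _
    · exact (map_zero _).symm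
  · exact (map_sum ((X.t i).prod (out q X i)) _ _).symm.trans (by rw [← inn_apply]; rfl)

theorem out_Tm (p : X.M × (Ar → X.M)) :
    out q (Tm q X i) i p = up (out q X i (sM q X i p)) := by
  funext a
  refine (out_apply q (Tm q X i) i p a).trans ?_
  rw [up, out_apply]
  split_ifs with ha
  · exact Tm_ρ_out q X ha _
  · rfl

theorem out_Tp (hb : b ∈ GB q X i n) : out q (Tp q X i) i (x, b) = up b := by
  funext a
  refine (out_apply q (Tp q X i) i (x, b) a).trans ?_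
  split_ifs with ha
  · exact (Tp_ρ_out q X ha _).trans (by rw [q.star_star]; rfl)
  · exact Prod.ext (((mem_GB q X i n b).1 hb a).2 ha).symm rfl

/-! The double mutation `Tp (Tm X)`. -/

theorem pm_mem (P : (X.M × (Ar → X.M)) × (Ar → X.M × (Ar → X.M))) :
    P ∈ (Tp q (Tm q X i) i).G i n ↔
      ∃ x ∈ X.G i n, ∃ b ∈ GB q X i (n - 1), ∃ c ∈ GB q X i n, P = mk3 x b c := by
  refine (mem_Tp_self q (Tm q X i) P).trans
    ((and_congr (mem_Tm_self q X P.1) (GB_Tm P.2)).trans ?_)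
  rw [sub_add_cancel]
  exact ⟨fun ⟨⟨h1, h2⟩, c, h3, h4⟩ => ⟨_, h1, _, h2, c, h3, Prod.ext rfl h4⟩,
    fun ⟨x, h1, b, h2, c, h3, h4⟩ => h4 ▸ ⟨⟨h1, h2⟩, c, h3, rfl⟩⟩

theorem pm_mem_ne (h : j ≠ i) (P : (X.M × (Ar → X.M)) × (Ar → X.M × (Ar → X.M))) :
    P ∈ (Tp q (Tm q X i) i).G j n ↔ ∃ x ∈ X.G j n, P = mk3 x 0 0 := by
  refine (mem_Tp_ne q (Tm q X i) h P).trans ((and_congr (mem_Tm_ne q X h P.1) Iff.rfl).trans ?_)
  exact ⟨fun ⟨⟨h1, h2⟩, h3⟩ => ⟨_, h1, Prod.ext (Prod.ext rfl h2) h3⟩,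
    fun ⟨x, h1, h4⟩ => h4 ▸ ⟨⟨h1, rfl⟩, rfl⟩⟩

theorem pm_d (hc : c ∈ GB q X i n) : (Tp q (Tm q X i) i).d i (mk3 x b c) =
    mk3 (X.d i x) (out q X i x + dB q X b + c) (dB q X c) :=
  (Tp_d_self q (Tm q X i) _).trans (Prod.ext ((congrArg₂ (· + ·) (Tm_d_self q X _)
    (inn_Tm hc)).trans (Prod.ext (add_zero _) rfl)) (dB_Tm hc))

theorem pm_d_ne (h : j ≠ i) : (Tp q (Tm q X i) i).d j (mk3 x b c) = mk3 (X.d j x) 0 0 :=
  (Tp_d_ne q (Tm q X i) h _).trans (Prod.ext (Tm_d_ne q X h _) rfl)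

theorem pm_t : (Tp q (Tm q X i) i).t i (mk3 x b c) =
    mk3 (sM q X i (x, b)) 0 (out q X i (sM q X i (x, b))) :=
  (Tp_t_self q (Tm q X i) _).trans (Prod.ext (Tm_t_self q X _) (out_Tm _))

theorem pm_t_ne (h : j ≠ i) : (Tp q (Tm q X i) i).t j (mk3 x b c) = mk3 (X.t j x) 0 0 :=
  (Tp_t_ne q (Tm q X i) h _).trans (Prod.ext (Tm_t_ne q X h _) rfl)

theorem pm_ρ_in (h : q.tgt a = i) : (Tp q (Tm q X i) i).ρ a (mk3 x b c) =
    mk3 (X.ρ a x) 0 (out q X i (X.ρ a x)) := by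
  have e : sM q X i ((Tm q X i).ρ a (x, b)) = X.ρ a x :=
    (congrArg (sM q X i) (Tm_ρ_in q X h (x, b))).trans (by
      rw [sM_apply, map_zero, zero_add, inn_single, if_pos h])
  exact (Tp_ρ_in q (Tm q X i) h _).trans (Prod.ext ((Tm_t_self q X _).trans (Prod.ext e rfl))
    ((out_Tm _).trans (congrArg (fun y => up (out q X i y)) e)))

theorem pm_ρ_out (h : q.src a = i) : (Tp q (Tm q X i) i).ρ a (mk3 x b c) =
    mk3 (c (q.star a)) 0 0 := Tp_ρ_out q (Tm q X i) h _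

theorem pm_ρ_ne (h : q.tgt a ≠ i) (h' : q.src a ≠ i) :
    (Tp q (Tm q X i) i).ρ a (mk3 x b c) = mk3 (X.ρ a x) 0 0 :=
  (Tp_ρ_ne q (Tm q X i) h h' _).trans (Prod.ext (Tm_ρ_ne q X h h' _) rfl)

/-- the unit -/
noncomputable def eta (q : DQ V Ar) (X : Raw V Ar) (i j : V) :
    X.M →ₗ[F2] (X.M × (Ar → X.M)) × (Ar → X.M × (Ar → X.M)) :=
  (LinearMap.inl F2 _ _).prod (((LinearMap.inl F2 _ _).compLeft Ar).comp
    (if j = i then out q X i else 0))

theorem eta_self : eta q X i i x = mk3 x 0 (out q X i x) := by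
  rw [eta, if_pos rfl]; rfl

theorem eta_ne (h : j ≠ i) : eta q X i j x = mk3 x 0 0 := by
  rw [eta, if_neg h]; rfl

theorem qis_eta (hX : Valid q X) (i : V) : Qis q X (Tp q (Tm q X i) i) (eta q X i) := by
  refine ⟨⟨fun j n x hx => ?_, fun j n x hx => ?_⟩, fun j n x hx => ?_, fun a n x hx => ?_,
    fun j n x hx y hy _ h => ?_⟩
  · by_cases h : j = i
    · subst h
      exact (pm_mem _).2 ⟨x, hx, 0, zero_mem _, _, hX.out_mem hx, eta_self⟩
    · exact (pm_mem_ne h _).2 ⟨x, hx, eta_ne h⟩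
  · by_cases h : j = i
    · subst h
      refine eta_self.trans (Eq.trans ?_ ((congrArg _ eta_self).trans
        (pm_d (hX.out_mem hx))).symm)
      exact mk3_congr rfl (by rw [map_zero, add_zero, add_self_F2]) (hX.dB_out hx).symm
    · exact (eta_ne h).trans ((congrArg _ (eta_ne h)).trans (pm_d_ne h)).symm
  · by_cases h : j = i
    · subst h
      refine eta_self.trans (Eq.trans ?_ ((congrArg _ eta_self).trans pm_t).symm)
      rw [sM_apply, map_zero, add_zero]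
    · exact (eta_ne h).trans ((congrArg _ (eta_ne h)).trans (pm_t_ne h)).symm
  · by_cases h : q.tgt a = i
    · subst h
      exact eta_self.trans ((congrArg _ (eta_ne (src_ne rfl))).trans (pm_ρ_in rfl)).symm
    by_cases h' : q.src a = i
    · subst h'
      refine (eta_ne h).trans (Eq.trans ?_ ((congrArg _ eta_self).trans (pm_ρ_out rfl)).symm)
      rw [out_apply, if_pos (q.tgt_star a), q.star_star]
    · exact (eta_ne h).trans ((congrArg _ (eta_ne h')).trans (pm_ρ_ne h h')).symm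
  · by_cases hj : j = i
    · subst hj
      obtain ⟨y, h1, b, h2, c, h3, rfl⟩ := (pm_mem y).1 hy
      obtain ⟨e1, e2, -⟩ := mk3_inj (eta_self.symm.trans (h.trans (pm_d h3)))
      refine ⟨y, h1, mk3 0 0 b, (pm_mem _).2 ⟨0, zero_mem _, 0, zero_mem _, b, h2, rfl⟩, e1,
        Eq.trans ?_ ((congrArg₂ (fun u v : (X.M × (Ar → X.M)) × (Ar → X.M × (Ar → X.M)) => u + v)
          eta_self (pm_d h2)).trans mk3_add).symm⟩
      exact mk3_congr (by simp) (by simp) (eq_of_add_eq_zero_F2 e2.symm).symm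
    · obtain ⟨y, h1, rfl⟩ := (pm_mem_ne hj y).1 hy
      exact ⟨y, h1, 0, zero_mem _, (mk3_inj ((eta_ne hj).symm.trans (h.trans (pm_d_ne hj)))).1,
        ((congrArg₂ (· + ·) (eta_ne hj) (map_zero _)).trans (add_zero _)).symm⟩

/-! The double mutation `Tm (Tp X)`. -/

theorem mp_mem (P : (X.M × (Ar → X.M)) × (Ar → X.M × (Ar → X.M))) :
    P ∈ (Tm q (Tp q X i) i).G i n ↔
      ∃ x ∈ X.G i n, ∃ b ∈ GB q X i (n + 1), ∃ c ∈ GB q X i n, P = mk3 x b c := by
  refine (mem_Tm_self q (Tp q X i) P).trans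
    ((and_congr (mem_Tp_self q X P.1) (GB_Tp P.2)).trans ?_)
  rw [add_sub_cancel_right]
  exact ⟨fun ⟨⟨h1, h2⟩, c, h3, h4⟩ => ⟨_, h1, _, h2, c, h3, Prod.ext rfl h4⟩,
    fun ⟨x, h1, b, h2, c, h3, h4⟩ => h4 ▸ ⟨⟨h1, h2⟩, c, h3, rfl⟩⟩

theorem mp_mem_ne (h : j ≠ i) (P : (X.M × (Ar → X.M)) × (Ar → X.M × (Ar → X.M))) :
    P ∈ (Tm q (Tp q X i) i).G j n ↔ ∃ x ∈ X.G j n, P = mk3 x 0 0 := by
  refine (mem_Tm_ne q (Tp q X i) h P).trans ((and_congr (mem_Tp_ne q X h P.1) Iff.rfl).trans ?_)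
  exact ⟨fun ⟨⟨h1, h2⟩, h3⟩ => ⟨_, h1, Prod.ext (Prod.ext rfl h2) h3⟩,
    fun ⟨x, h1, h4⟩ => h4 ▸ ⟨⟨h1, rfl⟩, rfl⟩⟩

theorem mp_d {m : ℤ} (hb : b ∈ GB q X i m) (hc : c ∈ GB q X i n) :
    (Tm q (Tp q X i) i).d i (mk3 x b c) =
      mk3 (X.d i x + inn q X i b) (dB q X b) (b + dB q X c) :=
  (Tm_d_self q (Tp q X i) _).trans (Prod.ext (Tp_d_self q X _)
    ((congrArg₂ (· + ·) (out_Tp hb) (dB_Tp hc)).trans up_add))

theorem mp_d_ne (h : j ≠ i) : (Tm q (Tp q X i) i).d j (mk3 x b c) = mk3 (X.d j x) 0 0 :=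
  (Tm_d_ne q (Tp q X i) h _).trans (Prod.ext (Tp_d_ne q X h _) rfl)

theorem mp_sM : sM q (Tp q X i) i (mk3 x b c) =
    (X.t i (x + inn q X i c), out q X i (x + inn q X i c)) :=
  (congrArg₂ (· + ·) (Tp_t_self q X _) inn_Tp).trans
    (Prod.ext (map_add (X.t i) _ _).symm (map_add (out q X i) _ _).symm)

theorem mp_t : (Tm q (Tp q X i) i).t i (mk3 x b c) =
    mk3 (X.t i (x + inn q X i c)) (out q X i (x + inn q X i c)) 0 :=
  (Tm_t_self q (Tp q X i) _).trans (Prod.ext mp_sM rfl)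

theorem mp_t_ne (h : j ≠ i) : (Tm q (Tp q X i) i).t j (mk3 x b c) = mk3 (X.t j x) 0 0 :=
  (Tm_t_ne q (Tp q X i) h _).trans (Prod.ext (Tp_t_ne q X h _) rfl)

theorem mp_ρ_in (h : q.tgt a = i) : (Tm q (Tp q X i) i).ρ a (mk3 x 0 c) =
    mk3 0 0 (Pi.single a x) := by
  refine (Tm_ρ_in q (Tp q X i) h _).trans (Prod.ext rfl (funext fun a' => ?_))
  by_cases h' : a' = a
  · subst h'
    exact (Pi.single_eq_same _ _).trans (Prod.ext
      (show x = (Pi.single a' x : Ar → X.M) a' by rw [Pi.single_eq_same]) rfl)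
  · exact (Pi.single_eq_of_ne h' _).trans (Prod.ext
      (show (0 : X.M) = (Pi.single a x : Ar → X.M) a' by rw [Pi.single_eq_of_ne h']) rfl)

theorem mp_ρ_out (h : q.src a = i) : (Tm q (Tp q X i) i).ρ a (mk3 x b c) =
    mk3 (X.ρ a (x + inn q X i c)) 0 0 := by
  refine (Tm_ρ_out q (Tp q X i) h _).trans (Prod.ext ((congrArg ((Tp q X i).ρ a) mp_sM).trans
    ((Tp_ρ_out q X h _).trans (Prod.ext ((out_apply q X i _ _).trans ?_) rfl))) rfl)
  rw [if_pos ((q.tgt_star a).trans h), q.star_star]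
  rfl

theorem mp_ρ_ne (h : q.tgt a ≠ i) (h' : q.src a ≠ i) :
    (Tm q (Tp q X i) i).ρ a (mk3 x b c) = mk3 (X.ρ a x) 0 0 :=
  (Tm_ρ_ne q (Tp q X i) h h' _).trans (Prod.ext (Tp_ρ_ne q X h h' _) rfl)

/-- the counit -/
noncomputable def eps (q : DQ V Ar) (X : Raw V Ar) (i j : V) :
    (X.M × (Ar → X.M)) × (Ar → X.M × (Ar → X.M)) →ₗ[F2] X.M :=
  (LinearMap.fst F2 _ _).coprod ((if j = i then inn q X i else 0).comp
    ((LinearMap.fst F2 _ _).compLeft Ar))

theorem eps_self : eps q X i i (mk3 x b c) = x + inn q X i c := by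
  rw [eps, if_pos rfl]; rfl

theorem eps_ne (h : j ≠ i) : eps q X i j (mk3 x b c) = x := by
  rw [eps, if_neg h]; exact add_zero _

theorem qis_eps (hX : Valid q X) (i : V) : Qis q (Tm q (Tp q X i) i) X (eps q X i) := by
  refine ⟨⟨fun j n x hx => ?_, fun j n x hx => ?_⟩, fun j n x hx => ?_, fun a n x hx => ?_,
    fun j n x hx y hy h0 h => ?_⟩
  · by_cases h : j = i
    · subst h
      obtain ⟨x, h1, b, -, c, h3, rfl⟩ := (mp_mem x).1 hx
      exact (eps_self (q := q) (i := j) (x := x) (b := b) (c := c)).symm ▸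
        add_mem h1 (hX.inn_mem h3)
    · obtain ⟨x, h1, rfl⟩ := (mp_mem_ne h x).1 hx
      exact (eps_ne (q := q) (x := x) (b := 0) (c := 0) h).symm ▸ h1
  · by_cases h : j = i
    · subst h
      obtain ⟨x, -, b, h2, c, h3, rfl⟩ := (mp_mem x).1 hx
      refine ((congrArg _ (mp_d h2 h3)).trans eps_self).trans
        (Eq.trans ?_ (congrArg _ eps_self).symm)
      rw [map_add, map_add, add_assoc, add_add_cancel_F2, hX.d_inn h3]
    · obtain ⟨x, -, rfl⟩ := (mp_mem_ne h x).1 hx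
      exact ((congrArg _ (mp_d_ne h)).trans (eps_ne h)).trans (congrArg _ (eps_ne h)).symm
  · by_cases h : j = i
    · subst h
      obtain ⟨x, -, b, -, c, -, rfl⟩ := (mp_mem x).1 hx
      refine ((congrArg _ mp_t).trans eps_self).trans (Eq.trans ?_ (congrArg _ eps_self).symm)
      rw [map_zero, add_zero]
    · obtain ⟨x, -, rfl⟩ := (mp_mem_ne h x).1 hx
      exact ((congrArg _ (mp_t_ne h)).trans (eps_ne h)).trans (congrArg _ (eps_ne h)).symm
  · by_cases h : q.tgt a = i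
    · subst h
      obtain ⟨x, -, rfl⟩ := (mp_mem_ne (src_ne rfl) x).1 hx
      refine ((congrArg _ (mp_ρ_in rfl)).trans eps_self).trans
        (Eq.trans ?_ (congrArg _ (eps_ne (src_ne rfl))).symm)
      rw [zero_add, inn_single, if_pos rfl]
    by_cases h' : q.src a = i
    · subst h'
      obtain ⟨x, -, b, -, c, -, rfl⟩ := (mp_mem x).1 hx
      exact ((congrArg _ (mp_ρ_out rfl)).trans (eps_ne h)).trans (congrArg _ eps_self).symm
    · obtain ⟨x, -, rfl⟩ := (mp_mem_ne h' x).1 hx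
      exact ((congrArg _ (mp_ρ_ne h h')).trans (eps_ne h)).trans (congrArg _ (eps_ne h')).symm
  · by_cases hj : j = i
    · subst hj
      obtain ⟨x, -, b, h2, c, h3, rfl⟩ := (mp_mem x).1 hx
      have e1 : b + dB q X c = 0 := (mk3_inj (x' := 0) (b' := 0) ((mp_d h2 h3).symm.trans h0)).2.2
      have e2 := eps_self.symm.trans h
      refine ⟨mk3 y c 0, (mp_mem _).2 ⟨y, hy, c, h3, 0, zero_mem _, rfl⟩, 0, zero_mem _,
        Eq.trans ?_ (mp_d h3 (zero_mem (GB q X j n))).symm,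
        ((congrArg₂ (· + ·) eps_self (map_zero _)).trans (by simp)).symm⟩
      exact mk3_congr (by rw [← e2, add_assoc, add_self_F2, add_zero]) (eq_of_add_eq_zero_F2 e1)
        (by simp)
    · obtain ⟨x, -, rfl⟩ := (mp_mem_ne hj x).1 hx
      exact ⟨mk3 y 0 0, (mp_mem_ne hj _).2 ⟨y, hy, rfl⟩, 0, zero_mem _,
        (mk3_congr ((eps_ne hj).symm.trans h) rfl rfl).trans (mp_d_ne hj).symm,
        ((congrArg₂ (· + ·) (eps_ne hj) (map_zero _)).trans (add_zero _)).symm⟩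

end EtaX

theorem rel_eta {X : Raw V Ar} (hX : Valid q X) (i : V) : Rel q X (Tp q (Tm q X i) i) :=
  ⟨hX, (hX.tm i).tp i, _, EtaX.qis_eta hX i⟩

theorem rel_eps {X : Raw V Ar} (hX : Valid q X) (i : V) : Rel q (Tm q (Tp q X i) i) X :=
  ⟨(hX.tp i).tm i, hX, _, EtaX.qis_eps hX i⟩

end Vale.Agent.P203
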