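import Vale.Agent.P203.DGValid

namespace Vale.Agent.P203

open Finset

variable {V Ar : Type} [DecidableEq V] [Fintype Ar] [DecidableEq Ar] {q : DQ V Ar}

namespace DGFun

section Five

variable {A B A' B' : Type} [AddCommGroup A] [Module F2 A] [AddCommGroup B] [Module F2 B]
  [AddCommGroup A'] [Module F2 A'] [AddCommGroup B'] [Module F2 B']

/-- acyclicity of the cone of one chain map -/
def AcyG (G : ℤ → Submodule F2 A) (G' : ℤ → Submodule F2 A') (d : A →ₗ[F2] A) (d' : A' →ₗ[F2] A')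
    (f : A →ₗ[F2] A') : Prop :=
  ∀ n, ∀ x ∈ G (n + 1), ∀ y ∈ G' n, d x = 0 → f x = d' y →
    ∃ x' ∈ G n, ∃ y' ∈ G' (n - 1), x = d x' ∧ y = f x' + d' y'

theorem five {GA : ℤ → Submodule F2 A} {GA' : ℤ → Submodule F2 A'} {GB : ℤ → Submodule F2 B}
    {GB' : ℤ → Submodule F2 B'} {dA : A →ₗ[F2] A} {dA' : A' →ₗ[F2] A'} {dB : B →ₗ[F2] B}
    {dB' : B' →ₗ[F2] B'} {f : A →ₗ[F2] A'} {g : B →ₗ[F2] B'} {φ : A →ₗ[F2] B} {φ' : A' →ₗ[F2] B'}
    (hA : AcyG GA GA' dA dA' f) (hB : AcyG GB GB' dB dB' g)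
    (m : ∀ n, ∀ x ∈ GA n, φ x ∈ GB (n + 1)) (m' : ∀ n, ∀ x ∈ GA' (n - 1), φ' x ∈ GB' n)
    (c : ∀ n, ∀ x ∈ GA n, dB (φ x) = φ (dA x)) (c' : ∀ n, ∀ x ∈ GA' n, dB' (φ' x) = φ' (dA' x))
    (e : ∀ n, ∀ x ∈ GA n, g (φ x) = φ' (f x)) {n : ℤ} {x : A} {b : B} {y : A'} {z : B'}
    (hx : x ∈ GA (n + 1)) (hb : b ∈ GB (n + 1)) (hy : y ∈ GA' n) (hz : z ∈ GB' n)
    (h1 : dA x = 0) (h2 : φ x + dB b = 0) (h3 : f x = dA' y) (h4 : g b = φ' y + dB' z) :
    ∃ x' ∈ GA n, ∃ b' ∈ GB n, ∃ y' ∈ GA' (n - 1), ∃ z' ∈ GB' (n - 1), x = dA x' ∧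
      b = φ x' + dB b' ∧ y = f x' + dA' y' ∧ z = g b' + (φ' y' + dB' z') := by
  obtain ⟨x', hx', y', hy', e1, e2⟩ := hA n x hx y hy h1 h3
  obtain ⟨b', hb', z', hz', e3, e4⟩ := hB n (φ x' + b) (add_mem (m n x' hx') hb) (φ' y' + z)
    (add_mem (m' n y' hy') hz) (by rw [map_add, c n x' hx', ← e1, h2]) (by
      rw [map_add, map_add, e n x' hx', h4, e2, map_add, c' _ y' hy', add_assoc,
        add_add_cancel_F2])
  refine ⟨x', hx', b', hb', y', hy', z', hz', e1, ?_, e2, ?_⟩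
  · rw [← e3, add_add_cancel_F2]
  · rw [add_left_comm, ← e4, add_add_cancel_F2]

end Five

variable {X Y : Raw V Ar}

/-- the induced map on the neighbours -/
def fB (q : DQ V Ar) (f : V → X.M →ₗ[F2] Y.M) : (Ar → X.M) →ₗ[F2] (Ar → Y.M) :=
  LinearMap.pi fun a => (f (q.src a)).comp (LinearMap.proj a)

theorem fB_apply (f : V → X.M →ₗ[F2] Y.M) (b : Ar → X.M) (a : Ar) :
    fB q f b a = f (q.src a) (b a) := rfl

/-- the induced map on mutations -/
def fP (q : DQ V Ar) (f : V → X.M →ₗ[F2] Y.M) (j : V) :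
    (X.M × (Ar → X.M)) →ₗ[F2] (Y.M × (Ar → Y.M)) := (f j).prodMap (fB q f)

theorem fP_apply (f : V → X.M →ₗ[F2] Y.M) (j : V) (p : X.M × (Ar → X.M)) :
    fP q f j p = (f j p.1, fB q f p.2) := rfl

variable {f : V → X.M →ₗ[F2] Y.M} {i : V} {n : ℤ}

theorem fB_single (a : Ar) (x : X.M) : fB q f (Pi.single a x) = Pi.single a (f (q.src a) x) := by
  ext b
  rw [fB_apply]
  by_cases h : b = a
  · subst h
    simp
  · simp [Pi.single_eq_of_ne h]

theorem fB_mem (hf : Qis q X Y f) {b : Ar → X.M} (hb : b ∈ GB q X i n) :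
    fB q f b ∈ GB q Y i n := by
  rw [mem_GB] at hb ⊢
  intro a
  rw [fB_apply]
  exact ⟨fun h => hf.ch.mem _ _ _ ((hb a).1 h), fun h => by rw [(hb a).2 h, map_zero]⟩

theorem fB_d (hf : Qis q X Y f) {b : Ar → X.M} (hb : b ∈ GB q X i n) :
    fB q f (dB q X b) = dB q Y (fB q f b) := by
  rw [mem_GB] at hb
  ext a
  rw [fB_apply, dB_apply, dB_apply, fB_apply]
  by_cases h : q.tgt a = i
  · exact hf.ch.d _ _ _ ((hb a).1 h)
  · simp only [(hb a).2 h, map_zero]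

theorem f_inn (hf : Qis q X Y f) {b : Ar → X.M} (hb : b ∈ GB q X i n) :
    f i (inn q X i b) = inn q Y i (fB q f b) := by
  rw [mem_GB] at hb
  rw [inn_apply, inn_apply, map_sum]
  refine sum_congr rfl fun a _ => ?_
  split_ifs with h
  · rw [fB_apply, ← hf.ρ a n _ ((hb a).1 h), h]
  · exact map_zero _

theorem fB_out (hf : Qis q X Y f) {x : X.M} (hx : x ∈ X.G i n) :
    fB q f (out q X i x) = out q Y i (f i x) := by
  ext a
  rw [fB_apply, out_apply, out_apply]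
  split_ifs with h
  · have := hf.ρ (q.star a) n x (by rw [q.src_star, h]; exact hx)
    rwa [q.tgt_star, q.src_star, h] at this
  · exact map_zero _

theorem f_sM (hf : Qis q X Y f) {m : ℤ} {p : X.M × (Ar → X.M)} (h1 : p.1 ∈ X.G i m)
    (h2 : p.2 ∈ GB q X i n) : f i (sM q X i p) = sM q Y i (fP q f i p) := by
  rw [sM_apply, sM_apply, map_add, hf.t i m _ h1, f_inn hf h2, fP_apply]

theorem acyB (hf : Qis q X Y f) (i : V) :
    AcyG (GB q X i) (GB q Y i) (dB q X) (dB q Y) (fB q f) := by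
  intro n b hb c hc h1 h2
  rw [mem_GB] at hb hc
  have key : ∀ a, ∃ x y, ((q.tgt a = i → x ∈ X.G (q.src a) n) ∧ (q.tgt a ≠ i → x = 0)) ∧
      ((q.tgt a = i → y ∈ Y.G (q.src a) (n - 1)) ∧ (q.tgt a ≠ i → y = 0)) ∧
      b a = X.d (q.src a) x ∧ c a = f (q.src a) x + Y.d (q.src a) y := fun a => by
    by_cases h : q.tgt a = i
    · obtain ⟨x, hx, y, hy, e1, e2⟩ := hf.acy _ n _ ((hb a).1 h) _ ((hc a).1 h) (congrFun h1 a)
        (congrFun h2 a)
      exact ⟨x, y, ⟨fun _ => hx, fun h' => absurd h h'⟩, ⟨fun _ => hy, fun h' => absurd h h'⟩,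
        e1, e2⟩
    · exact ⟨0, 0, by simp, by simp, by simp [(hb a).2 h], by simp [(hc a).2 h]⟩
  choose x y h3 h4 h5 h6 using key
  exact ⟨x, (mem_GB q X i n x).2 h3, y, (mem_GB q Y i _ y).2 h4, funext h5, funext h6⟩

theorem sqr {α β : Type} (F : α → β) {u u' : α} {v v' : β} (h1 : u = u') (h2 : v = v')
    (h : F u' = v') : F u = v := by
  rw [h1, h2, h]

end DGFun

open DGFun

theorem Rel.tm {X Y : Raw V Ar} (h : Rel q X Y) (i : V) : Rel q (Tm q X i) (Tm q Y i) := by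
  obtain ⟨hX, hY, f, hf⟩ := h
  refine ⟨hX.tm i, hY.tm i, fP q f, ⟨fun j n p hp => ?_, fun j n p hp => ?_⟩,
    fun j n p hp => ?_, fun a n p hp => ?_, fun j n p hp r hr h1 h2 => ?_⟩
  · by_cases hj : j = i
    · subst hj
      replace hp := (mem_Tm_self q X p).1 hp
      exact (mem_Tm_self q Y _).2 ⟨hf.ch.mem _ _ _ hp.1, fB_mem hf hp.2⟩
    · replace hp := (mem_Tm_ne q X hj p).1 hp
      exact (mem_Tm_ne q Y hj _).2
        ⟨hf.ch.mem _ _ _ hp.1, (congrArg (fB q f) hp.2).trans (map_zero _)⟩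
  · by_cases hj : j = i
    · subst hj
      replace hp := (mem_Tm_self q X p).1 hp
      exact sqr (fP q f j) (Tm_d_self q X p) (Tm_d_self q Y _) (Prod.ext (hf.ch.d _ _ _ hp.1)
        ((map_add (fB q f) _ _).trans (congrArg₂ _ (fB_out hf hp.1) (fB_d hf hp.2))))
    · replace hp := (mem_Tm_ne q X hj p).1 hp
      exact sqr (fP q f j) (Tm_d_ne q X hj p) (Tm_d_ne q Y hj _)
        (Prod.ext (hf.ch.d _ _ _ hp.1) (map_zero (fB q f)))
  · by_cases hj : j = i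
    · subst hj
      replace hp := (mem_Tm_self q X p).1 hp
      exact sqr (fP q f j) (Tm_t_self q X p) (Tm_t_self q Y _)
        (Prod.ext (f_sM hf hp.1 hp.2) (map_zero (fB q f)))
    · replace hp := (mem_Tm_ne q X hj p).1 hp
      exact sqr (fP q f j) (Tm_t_ne q X hj p) (Tm_t_ne q Y hj _)
        (Prod.ext (hf.t _ _ _ hp.1) (map_zero (fB q f)))
  · by_cases ht : q.tgt a = i
    · exact sqr (fP q f _) (Tm_ρ_in q X ht p) (Tm_ρ_in q Y ht _)
        (Prod.ext (map_zero (f _)) (fB_single a _))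
    by_cases hs : q.src a = i
    · subst hs
      replace hp := (mem_Tm_self q X p).1 hp
      exact sqr (fP q f _) (Tm_ρ_out q X rfl p) (Tm_ρ_out q Y rfl _)
        (Prod.ext ((hf.ρ a n _ (hX.sM_mem hp.1 hp.2)).trans
          (congrArg _ (f_sM hf hp.1 hp.2))) (map_zero (fB q f)))
    · replace hp := (mem_Tm_ne q X hs p).1 hp
      exact sqr (fP q f _) (Tm_ρ_ne q X ht hs p) (Tm_ρ_ne q Y ht hs _)
        (Prod.ext (hf.ρ a n _ hp.1) (map_zero (fB q f)))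
  · by_cases hj : j = i
    · subst hj
      replace hp := (mem_Tm_self q X p).1 hp
      replace hr := (mem_Tm_self q Y r).1 hr
      replace h1 := (Tm_d_self q X p).symm.trans h1
      replace h2 := h2.trans (Tm_d_self q Y r)
      obtain ⟨x', hx', b', hb', y', hy', z', hz', e1, e2, e3, e4⟩ :=
        five (GA := fun n => X.G j (n + 1)) (GA' := fun n => Y.G j (n + 1)) (f := f j)
          (fun n x hx y hy k1 k2 => by
            simpa only [sub_add_cancel, add_sub_cancel_right] using hf.acy j (n + 1) x hx y hy k1 k2)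
          (acyB hf j) (fun _ _ hx => hX.out_mem hx)
          (fun _ _ hx => hY.out_mem (by simpa only [sub_add_cancel] using hx))
          (fun _ _ hx => hX.dB_out hx) (fun _ _ hx => hY.dB_out hx) (fun _ _ hx => fB_out hf hx)
          hp.1 hp.2 hr.1 hr.2 (congrArg Prod.fst h1) (congrArg Prod.snd h1) (congrArg Prod.fst h2)
          (congrArg Prod.snd h2)
      exact ⟨(x', b'), (mem_Tm_self q X _).2 ⟨hx', hb'⟩, (y', z'),
        (mem_Tm_self q Y _).2 ⟨hy', hz'⟩, (Prod.ext e1 e2).trans (Tm_d_self q X _).symm,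
        (sqr (fP q f j (x', b') + ·) (Tm_d_self q Y (y', z')) (Eq.refl r)
          (Prod.ext e3.symm e4.symm)).symm⟩
    · replace hp := (mem_Tm_ne q X hj p).1 hp
      replace hr := (mem_Tm_ne q Y hj r).1 hr
      replace h1 := (Tm_d_ne q X hj p).symm.trans h1
      replace h2 := h2.trans (Tm_d_ne q Y hj r)
      obtain ⟨x', hx', y', hy', e1, e2⟩ := hf.acy j n _ hp.1 _ hr.1 (congrArg Prod.fst h1)
        (congrArg Prod.fst h2)
      exact ⟨(x', 0), (mem_Tm_ne q X hj _).2 ⟨hx', rfl⟩, (y', 0),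
        (mem_Tm_ne q Y hj _).2 ⟨hy', rfl⟩, (Prod.ext e1 hp.2).trans (Tm_d_ne q X hj _).symm,
        (sqr (fP q f j (x', 0) + ·) (Tm_d_ne q Y hj (y', 0)) (Eq.refl r) (Prod.ext e2.symm
          (((add_zero _).trans (map_zero (fB q f))).trans hr.2.symm))).symm⟩

theorem Rel.tp {X Y : Raw V Ar} (h : Rel q X Y) (i : V) : Rel q (Tp q X i) (Tp q Y i) := by
  obtain ⟨hX, hY, f, hf⟩ := h
  refine ⟨hX.tp i, hY.tp i, fP q f, ⟨fun j n p hp => ?_, fun j n p hp => ?_⟩,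
    fun j n p hp => ?_, fun a n p hp => ?_, fun j n p hp r hr h1 h2 => ?_⟩
  · by_cases hj : j = i
    · subst hj
      replace hp := (mem_Tp_self q X p).1 hp
      exact (mem_Tp_self q Y _).2 ⟨hf.ch.mem _ _ _ hp.1, fB_mem hf hp.2⟩
    · replace hp := (mem_Tp_ne q X hj p).1 hp
      exact (mem_Tp_ne q Y hj _).2
        ⟨hf.ch.mem _ _ _ hp.1, (congrArg (fB q f) hp.2).trans (map_zero _)⟩
  · by_cases hj : j = i
    · subst hj
      replace hp := (mem_Tp_self q X p).1 hp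
      exact sqr (fP q f j) (Tp_d_self q X p) (Tp_d_self q Y _) (Prod.ext ((map_add (f j) _ _).trans
        (congrArg₂ _ (hf.ch.d _ _ _ hp.1) (f_inn hf hp.2))) (fB_d hf hp.2))
    · replace hp := (mem_Tp_ne q X hj p).1 hp
      exact sqr (fP q f j) (Tp_d_ne q X hj p) (Tp_d_ne q Y hj _)
        (Prod.ext (hf.ch.d _ _ _ hp.1) (map_zero (fB q f)))
  · by_cases hj : j = i
    · subst hj
      replace hp := (mem_Tp_self q X p).1 hp
      exact sqr (fP q f j) (Tp_t_self q X p) (Tp_t_self q Y _)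
        (Prod.ext (hf.t _ _ _ hp.1) (fB_out hf hp.1))
    · replace hp := (mem_Tp_ne q X hj p).1 hp
      exact sqr (fP q f j) (Tp_t_ne q X hj p) (Tp_t_ne q Y hj _)
        (Prod.ext (hf.t _ _ _ hp.1) (map_zero (fB q f)))
  · by_cases ht : q.tgt a = i
    · subst ht
      replace hp := (mem_Tp_ne q X (q.tgt_ne_src a).symm p).1 hp
      have e := hX.ρ_mem a n _ hp.1
      exact sqr (fP q f _) (Tp_ρ_in q X rfl p) (Tp_ρ_in q Y rfl _)
        (Prod.ext ((hf.t _ _ _ e).trans (congrArg _ (hf.ρ a n _ hp.1)))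
          ((fB_out hf e).trans (congrArg _ (hf.ρ a n _ hp.1))))
    by_cases hs : q.src a = i
    · exact sqr (fP q f _) (Tp_ρ_out q X hs p) (Tp_ρ_out q Y hs _)
        (Prod.ext rfl (map_zero (fB q f)))
    · replace hp := (mem_Tp_ne q X hs p).1 hp
      exact sqr (fP q f _) (Tp_ρ_ne q X ht hs p) (Tp_ρ_ne q Y ht hs _)
        (Prod.ext (hf.ρ a n _ hp.1) (map_zero (fB q f)))
  · by_cases hj : j = i
    · subst hj
      replace hp := (mem_Tp_self q X p).1 hp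
      replace hr := (mem_Tp_self q Y r).1 hr
      replace h1 := (Tp_d_self q X p).symm.trans h1
      replace h2 := h2.trans (Tp_d_self q Y r)
      obtain ⟨x', hx', b', hb', y', hy', z', hz', e1, e2, e3, e4⟩ :=
        five (GB := fun n => X.G j (n - 1)) (GB' := fun n => Y.G j (n - 1)) (g := f j) (acyB hf j)
          (fun n x hx y hy k1 k2 => hf.acy j (n - 1) x
            (by simpa only [sub_add_cancel, add_sub_cancel_right] using hx) y hy k1 k2)
          (fun _ _ hx => by simpa only [add_sub_cancel_right] using hX.inn_mem hx)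
          (fun _ _ hx => hY.inn_mem hx)
          (fun _ _ hx => hX.d_inn hx) (fun _ _ hx => hY.d_inn hx) (fun _ _ hx => f_inn hf hx)
          hp.2 hp.1 hr.2 hr.1 (congrArg Prod.snd h1) ((add_comm _ _).trans (congrArg Prod.fst h1))
          (congrArg Prod.snd h2) ((congrArg Prod.fst h2).trans (add_comm _ _))
      exact ⟨(b', x'), (mem_Tp_self q X _).2 ⟨hb', hx'⟩, (z', y'),
        (mem_Tp_self q Y _).2 ⟨hz', hy'⟩,
        (Prod.ext (e2.trans (add_comm _ _)) e1).trans (Tp_d_self q X _).symm,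
        (sqr (fP q f j (b', x') + ·) (Tp_d_self q Y (z', y')) (Eq.refl r)
          (Prod.ext (e4.trans (congrArg _ (add_comm _ _))).symm e3.symm)).symm⟩
    · replace hp := (mem_Tp_ne q X hj p).1 hp
      replace hr := (mem_Tp_ne q Y hj r).1 hr
      replace h1 := (Tp_d_ne q X hj p).symm.trans h1
      replace h2 := h2.trans (Tp_d_ne q Y hj r)
      obtain ⟨x', hx', y', hy', e1, e2⟩ := hf.acy j n _ hp.1 _ hr.1 (congrArg Prod.fst h1)
        (congrArg Prod.fst h2)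
      exact ⟨(x', 0), (mem_Tp_ne q X hj _).2 ⟨hx', rfl⟩, (y', 0),
        (mem_Tp_ne q Y hj _).2 ⟨hy', rfl⟩, (Prod.ext e1 hp.2).trans (Tp_d_ne q X hj _).symm,
        (sqr (fP q f j (x', 0) + ·) (Tp_d_ne q Y hj (y', 0)) (Eq.refl r) (Prod.ext e2.symm
          (((add_zero _).trans (map_zero (fB q f))).trans hr.2.symm))).symm⟩

namespace DGFun

variable (X : Raw V Ar)

/-- the first mutated ambient space -/
abbrev M1 : Type := X.M × (Ar → X.M)

/-- the twice mutated ambient space -/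
abbrev M2 : Type := M1 X × (Ar → M1 X)

/-- include the neighbours -/
def lB : (Ar → X.M) →ₗ[F2] (Ar → M1 X) :=
  LinearMap.pi fun a => (LinearMap.inl F2 _ _).comp (LinearMap.proj a)

/-- forget the second coordinates -/
def rB : (Ar → M1 X) →ₗ[F2] (Ar → X.M) :=
  LinearMap.pi fun a => (LinearMap.fst F2 _ _).comp (LinearMap.proj a)

/-- exchange the two neighbour parts -/
def sw : M2 X →ₗ[F2] M2 X :=
  (((LinearMap.fst F2 _ _).comp (LinearMap.fst F2 _ _)).prod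
    ((rB X).comp (LinearMap.snd F2 _ _))).prod
    ((lB X).comp ((LinearMap.snd F2 _ _).comp (LinearMap.fst F2 _ _)))

/-- elements of the twice mutated space -/
def el (x : X.M) (b b' : Ar → X.M) : M2 X := ((x, b), lB X b')

theorem sw_el (x : X.M) (b b' : Ar → X.M) : sw X (el X x b b') = el X x b' b := rfl

theorem el_zero (p : M1 X) : ((p, 0) : M2 X) = el X p.1 p.2 0 :=
  Prod.ext rfl (map_zero (lB X)).symm

theorem lB_single (a : Ar) (x : X.M) :
    (Pi.single a ((x, 0) : M1 X) : Ar → M1 X) = lB X (Pi.single a x) := by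
  funext b
  show _ = ((Pi.single a x : Ar → X.M) b, 0)
  by_cases h : b = a
  · subst h
    simp
  · rw [Pi.single_eq_of_ne h, Pi.single_eq_of_ne h]
    rfl

variable {X} {i j k : V} {n : ℤ} {a : Ar} {x : X.M} {b : Ar → X.M}

/-- two different vertices without arrows between them -/
structure Far (q : DQ V Ar) (i j : V) : Prop where
  ne : i ≠ j
  l : ∀ a, q.tgt a = i → q.src a ≠ j
  r : ∀ a, q.tgt a = j → q.src a ≠ i

theorem Far.symm (h : Far q i j) : Far q j i := ⟨h.ne.symm, h.r, h.l⟩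

theorem lB_mem (h : Far q i j) (hb : b ∈ GB q X j n) : lB X b ∈ GB q (Tm q X i) j n := by
  rw [mem_GB] at hb
  refine (mem_GB q (Tm q X i) j n _).2 fun a => ⟨fun ha => ?_, fun ha => ?_⟩
  · exact (mem_Tm_ne q X (h.r a ha) _).2 ⟨(hb a).1 ha, rfl⟩
  · exact Prod.ext ((hb a).2 ha) rfl

theorem of_mem_GB (h : Far q i j) {B : Ar → M1 X} (hB : B ∈ GB q (Tm q X i) j n) :
    ∃ b ∈ GB q X j n, B = lB X b := by
  replace hB := (mem_GB q (Tm q X i) j n _).1 hB
  refine ⟨rB X B, (mem_GB q X j n _).2 fun a => ⟨fun ha => ?_, fun ha => ?_⟩, funext fun a => ?_⟩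
  · exact ((mem_Tm_ne q X (h.r a ha) _).1 ((hB a).1 ha)).1
  · exact congrArg Prod.fst ((hB a).2 ha)
  · by_cases ha : q.tgt a = j
    · exact Prod.ext rfl ((mem_Tm_ne q X (h.r a ha) _).1 ((hB a).1 ha)).2
    · have e : (B a).2 = 0 := congrArg Prod.snd ((hB a).2 ha)
      exact Prod.ext rfl e

theorem out_Tm (h : Far q i j) (p : M1 X) : out q (Tm q X i) j p = lB X (out q X j p.1) := by
  funext a
  refine (out_apply q (Tm q X i) j p a).trans ?_
  show _ = (out q X j p.1 a, 0)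
  rw [out_apply]
  split_ifs with ha
  · exact Tm_ρ_ne q X (by rw [q.tgt_star]; exact h.r a ha)
      (by rw [q.src_star, ha]; exact h.ne.symm) p
  · rfl

theorem dB_Tm (h : Far q i j) (hb : b ∈ GB q X j n) :
    dB q (Tm q X i) (lB X b) = lB X (dB q X b) := by
  rw [mem_GB] at hb
  funext a
  by_cases ha : q.tgt a = j
  · exact Tm_d_ne q X (h.r a ha) _
  · have e : lB X b a = 0 := Prod.ext ((hb a).2 ha) rfl
    refine ((congrArg ((Tm q X i).d (q.src a)) e).trans (map_zero _)).trans ?_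
    exact Prod.ext ((congrArg (X.d (q.src a)) ((hb a).2 ha)).trans (map_zero _)).symm rfl

theorem inn_Tm (h : Far q i j) (b : Ar → X.M) :
    inn q (Tm q X i) j (lB X b) = (inn q X j b, 0) := by
  refine (inn_apply q (Tm q X i) j _).trans ?_
  refine Eq.trans ?_ ((map_sum (LinearMap.inl F2 X.M (Ar → X.M)) _ _).symm.trans
    (congrArg _ (inn_apply q X j b).symm))
  refine sum_congr rfl fun a _ => ?_
  split_ifs with ha
  · exact Tm_ρ_ne q X (ha ▸ h.ne.symm) (h.r a ha) _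
  · rfl

theorem sM_Tm (h : Far q i j) (b' : Ar → X.M) :
    sM q (Tm q X i) j (el X x b b') = (sM q X j (x, b'), 0) :=
  (congrArg₂ (· + ·) (Tm_t_ne q X h.ne.symm _) (inn_Tm h b')).trans (Prod.ext rfl (add_zero _))

theorem mem_in (h : Far q i j) {p : M2 X} : p ∈ (Tm q (Tm q X i) j).G i n ↔
    ∃ x ∈ X.G i (n + 1), ∃ b ∈ GB q X i n, p = el X x b 0 := by
  refine (mem_Tm_ne q (Tm q X i) h.ne p).trans ⟨fun ⟨h1, h2⟩ => ?_, ?_⟩
  · replace h1 := (mem_Tm_self q X _).1 h1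
    exact ⟨_, h1.1, _, h1.2, Eq.trans (b := (p.1, 0)) (Prod.ext rfl h2) (el_zero X p.1)⟩
  · rintro ⟨x, hx, b, hb, rfl⟩
    exact ⟨(mem_Tm_self q X _).2 ⟨hx, hb⟩, map_zero (lB X)⟩

theorem mem_out (h : Far q i j) {p : M2 X} : p ∈ (Tm q (Tm q X i) j).G j n ↔
    ∃ x ∈ X.G j (n + 1), ∃ b ∈ GB q X j n, p = el X x 0 b := by
  refine (mem_Tm_self q (Tm q X i) p).trans ⟨fun ⟨h1, h2⟩ => ?_, ?_⟩
  · replace h1 := (mem_Tm_ne q X h.ne.symm _).1 h1
    obtain ⟨b, hb, e⟩ := of_mem_GB h h2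
    exact ⟨_, h1.1, b, hb, Prod.ext (Prod.ext rfl h1.2) e⟩
  · rintro ⟨x, hx, b, hb, rfl⟩
    exact ⟨(mem_Tm_ne q X h.ne.symm _).2 ⟨hx, rfl⟩, lB_mem h hb⟩

theorem mem_off (hi : k ≠ i) (hj : k ≠ j) {p : M2 X} : p ∈ (Tm q (Tm q X i) j).G k n ↔
    ∃ x ∈ X.G k n, p = el X x 0 0 := by
  refine (mem_Tm_ne q (Tm q X i) hj p).trans ⟨fun ⟨h1, h2⟩ => ?_, ?_⟩
  · replace h1 := (mem_Tm_ne q X hi _).1 h1
    exact ⟨_, h1.1, Prod.ext (Prod.ext rfl h1.2) (h2.trans (map_zero (lB X)).symm)⟩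
  · rintro ⟨x, hx, rfl⟩
    exact ⟨(mem_Tm_ne q X hi _).2 ⟨hx, rfl⟩, map_zero (lB X)⟩

theorem lift_eq {u : M2 X} {v w : M1 X} (h1 : u = (v, 0)) (h2 : v = w) : u = el X w.1 w.2 0 :=
  h1.trans (h2 ▸ el_zero X v)

theorem d_in (h : Far q i j) : (Tm q (Tm q X i) j).d i (el X x b 0) =
    el X (X.d i x) (out q X i x + dB q X b) 0 :=
  lift_eq (Tm_d_ne q (Tm q X i) h.ne _) (Tm_d_self q X _)

theorem d_out (h : Far q i j) (hb : b ∈ GB q X j n) : (Tm q (Tm q X i) j).d j (el X x 0 b) =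
    el X (X.d j x) 0 (out q X j x + dB q X b) :=
  (Tm_d_self q (Tm q X i) _).trans (Prod.ext (Tm_d_ne q X h.ne.symm _)
    ((congrArg₂ (· + ·) (out_Tm h _) (dB_Tm h hb)).trans (map_add (lB X) _ _).symm))

theorem d_off (hi : k ≠ i) (hj : k ≠ j) : (Tm q (Tm q X i) j).d k (el X x 0 0) =
    el X (X.d k x) 0 0 :=
  lift_eq (Tm_d_ne q (Tm q X i) hj _) (Tm_d_ne q X hi _)

theorem t_in (h : Far q i j) : (Tm q (Tm q X i) j).t i (el X x b 0) =
    el X (sM q X i (x, b)) 0 0 :=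
  lift_eq (Tm_t_ne q (Tm q X i) h.ne _) (Tm_t_self q X _)

theorem t_out (h : Far q i j) : (Tm q (Tm q X i) j).t j (el X x 0 b) =
    el X (sM q X j (x, b)) 0 0 :=
  lift_eq (Tm_t_self q (Tm q X i) _) (sM_Tm h b)

theorem t_off (hi : k ≠ i) (hj : k ≠ j) : (Tm q (Tm q X i) j).t k (el X x 0 0) =
    el X (X.t k x) 0 0 :=
  lift_eq (Tm_t_ne q (Tm q X i) hj _) (Tm_t_ne q X hi _)

theorem ρ_to_in (h : Far q i j) (ha : q.tgt a = i) : (Tm q (Tm q X i) j).ρ a (el X x 0 0) =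
    el X 0 (Pi.single a x) 0 :=
  lift_eq (Tm_ρ_ne q (Tm q X i) (ha ▸ h.ne) (h.l a ha) _) (Tm_ρ_in q X ha _)

theorem ρ_to_out (ha : q.tgt a = j) : (Tm q (Tm q X i) j).ρ a (el X x 0 0) =
    el X 0 0 (Pi.single a x) :=
  (Tm_ρ_in q (Tm q X i) ha _).trans (Prod.ext rfl (lB_single X a x))

theorem ρ_from_in (h : Far q i j) (ha : q.src a = i) : (Tm q (Tm q X i) j).ρ a (el X x b 0) =
    el X (X.ρ a (sM q X i (x, b))) 0 0 :=
  lift_eq (Tm_ρ_ne q (Tm q X i) (fun e => h.r a e ha) (ha ▸ h.ne) _) (Tm_ρ_out q X ha _)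

theorem ρ_from_out (h : Far q i j) (ha : q.src a = j) : (Tm q (Tm q X i) j).ρ a (el X x 0 b) =
    el X (X.ρ a (sM q X j (x, b))) 0 0 :=
  lift_eq (Tm_ρ_out q (Tm q X i) ha _) ((congrArg ((Tm q X i).ρ a) (sM_Tm h b)).trans
    (Tm_ρ_ne q X (fun e => h.l a e ha) (ha ▸ h.ne.symm) _))

theorem ρ_off (h1 : q.tgt a ≠ i) (h2 : q.tgt a ≠ j) (h3 : q.src a ≠ i) (h4 : q.src a ≠ j) :
    (Tm q (Tm q X i) j).ρ a (el X x 0 0) = el X (X.ρ a x) 0 0 :=
  lift_eq (Tm_ρ_ne q (Tm q X i) h2 h4 _) (Tm_ρ_ne q X h1 h3 _)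

theorem sw_chain (h : Far q i j) :
    Chain (Tm q (Tm q X i) j) (Tm q (Tm q X j) i) fun _ => sw X := by
  refine ⟨fun k n p hp => ?_, fun k n p hp => ?_⟩
  · by_cases hi : k = i
    · subst hi
      obtain ⟨x, hx, b, hb, rfl⟩ := (mem_in h).1 hp
      exact (mem_out h.symm).2 ⟨x, hx, b, hb, rfl⟩
    by_cases hj : k = j
    · subst hj
      obtain ⟨x, hx, b, hb, rfl⟩ := (mem_out h).1 hp
      exact (mem_in h.symm).2 ⟨x, hx, b, hb, rfl⟩
    · obtain ⟨x, hx, rfl⟩ := (mem_off hi hj).1 hp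
      exact (mem_off hj hi).2 ⟨x, hx, rfl⟩
  · by_cases hi : k = i
    · subst hi
      obtain ⟨x, hx, b, hb, rfl⟩ := (mem_in h).1 hp
      exact sqr (sw X) (d_in h) (d_out h.symm hb) rfl
    by_cases hj : k = j
    · subst hj
      obtain ⟨x, hx, b, hb, rfl⟩ := (mem_out h).1 hp
      exact sqr (sw X) (d_out h hb) (d_in h.symm) rfl
    · obtain ⟨x, hx, rfl⟩ := (mem_off hi hj).1 hp
      exact sqr (sw X) (d_off hi hj) (d_off hj hi) rfl

theorem sw_sw (h : Far q i j) {p : M2 X} (hp : p ∈ (Tm q (Tm q X i) j).G k n) :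
    sw X (sw X p) = p := by
  by_cases hi : k = i
  · subst hi
    obtain ⟨x, hx, b, hb, rfl⟩ := (mem_in h).1 hp
    rfl
  by_cases hj : k = j
  · subst hj
    obtain ⟨x, hx, b, hb, rfl⟩ := (mem_out h).1 hp
    rfl
  · obtain ⟨x, hx, rfl⟩ := (mem_off hi hj).1 hp
    rfl

end DGFun

theorem rel_comm {X : Raw V Ar} (hX : Valid q X) {i j : V} (hij : i ≠ j)
    (h : ∀ a, ¬ (q.src a = j ∧ q.tgt a = i)) :
    Rel q (Tm q (Tm q X i) j) (Tm q (Tm q X j) i) := by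
  have hF : Far q i j := ⟨hij, fun a h1 h2 => h a ⟨h2, h1⟩,
    fun a h1 h2 => h (q.star a) ⟨h1, (q.tgt_star a).trans h2⟩⟩
  refine ⟨(hX.tm i).tm j, (hX.tm j).tm i, fun _ => sw X, sw_chain hF, fun k n p hp => ?_,
    fun a n p hp => ?_, fun k n p hp r hr _ h2 => ?_⟩
  · by_cases hi : k = i
    · subst hi
      obtain ⟨x, hx, b, hb, rfl⟩ := (mem_in hF).1 hp
      exact sqr (sw X) (t_in hF) (t_out hF.symm) rfl
    by_cases hj : k = j
    · subst hj
      obtain ⟨x, hx, b, hb, rfl⟩ := (mem_out hF).1 hp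
      exact sqr (sw X) (t_out hF) (t_in hF.symm) rfl
    · obtain ⟨x, hx, rfl⟩ := (mem_off hi hj).1 hp
      exact sqr (sw X) (t_off hi hj) (t_off hj hi) rfl
  · by_cases hi : q.src a = i
    · obtain ⟨x, hx, b, hb, rfl⟩ := (mem_in hF).1 (hi ▸ hp)
      exact sqr (sw X) (ρ_from_in hF hi) (ρ_from_out hF.symm hi) rfl
    by_cases hj : q.src a = j
    · obtain ⟨x, hx, b, hb, rfl⟩ := (mem_out hF).1 (hj ▸ hp)
      exact sqr (sw X) (ρ_from_out hF hj) (ρ_from_in hF.symm hj) rfl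
    obtain ⟨x, hx, rfl⟩ := (mem_off hi hj).1 hp
    by_cases hi' : q.tgt a = i
    · exact sqr (sw X) (ρ_to_in hF hi') (ρ_to_out hi') rfl
    by_cases hj' : q.tgt a = j
    · exact sqr (sw X) (ρ_to_out hj') (ρ_to_in hF.symm hj') rfl
    · exact sqr (sw X) (ρ_off hi' hj' hi hj) (ρ_off hj' hi' hj hi) rfl
  · refine ⟨sw X r, (sw_chain hF.symm).mem k n r hr, 0, zero_mem _, ?_, ?_⟩
    · exact ((sw_sw hF hp).symm.trans (congrArg (sw X) h2)).trans ((sw_chain hF.symm).d k n r hr)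
    · exact ((congrArg₂ (fun u v : M2 X => u + v) (sw_sw hF.symm hr)
        (map_zero ((Tm q (Tm q X j) i).d k))).trans (add_zero _)).symm

end Vale.Agent.P203
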