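import Vale.Agent.P203.DGValid
import Vale.Agent.P203.DGCoh

namespace Vale.Agent.P203

open Finset

variable {V Ar : Type} [DecidableEq V] [Fintype Ar] [DecidableEq Ar] {q : DQ V Ar}

variable {X : Raw V Ar} {n : ℤ}

namespace DGI

open Module Submodule

section Lin

variable {A B : Type} [AddCommGroup A] [Module F2 A] [AddCommGroup B] [Module F2 B]

theorem rank_map (f : A →ₗ[F2] B) (Z : Submodule F2 A) [Module.Finite F2 Z] :
    finrank F2 (Z.map f) + finrank F2 (Z ⊓ LinearMap.ker f : Submodule F2 A) = finrank F2 Z := by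
  rw [← LinearMap.finrank_range_add_finrank_ker (f.domRestrict Z), LinearMap.range_domRestrict,
    LinearMap.ker_domRestrict, ← map_comap_subtype, finrank_map_subtype_eq]

/-- the dimension of `Z / (Z ∩ f⁻¹ T)` is that of `(f Z + T) / T` -/
theorem master (f : A →ₗ[F2] B) (Z : Submodule F2 A) (T : Submodule F2 B) [Module.Finite F2 Z]
    [Module.Finite F2 T] : finrank F2 (Z.map f ⊔ T : Submodule F2 B) +
      finrank F2 (Z ⊓ T.comap f : Submodule F2 A) = finrank F2 Z + finrank F2 T := by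
  have h1 := finrank_sup_add_finrank_inf_eq (Z.map f) T
  have h2 := rank_map f Z
  have h3 := rank_map f (Z ⊓ T.comap f)
  rw [← map_inf_eq_map_inf_comap, inf_assoc,
    inf_eq_right.2 (show LinearMap.ker f ≤ T.comap f from LinearMap.ker_le_comap f)] at h3
  omega

/-- a product of submodules as a product of modules -/
def piEq (p : Ar → Submodule F2 A) : Submodule.pi Set.univ p ≃ₗ[F2] ∀ a, p a where
  toFun x a := ⟨x.1 a, x.2 a trivial⟩
  map_add' _ _ := rfl
  map_smul' _ _ := rfl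
  invFun y := ⟨fun a => y a, fun a _ => (y a).2⟩
  left_inv _ := rfl
  right_inv _ := rfl

end Lin

/-- the sum of the submodules at the neighbours of `i` -/
def PB (q : DQ V Ar) {X : Raw V Ar} (U : V → Submodule F2 X.M) (i : V) :
    Submodule F2 (Ar → X.M) :=
  Submodule.pi Set.univ fun a => if q.tgt a = i then U (q.src a) else ⊥

variable {U W : V → Submodule F2 X.M} {i j : V}

omit [DecidableEq V] [Fintype Ar] [DecidableEq Ar] in
theorem src_ne {a : Ar} (h : q.tgt a = i) : q.src a ≠ i := h ▸ (q.noloop a).symm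

omit [Fintype Ar] [DecidableEq Ar] in
theorem mem_PB {b : Ar → X.M} :
    b ∈ PB q U i ↔ ∀ a, (q.tgt a = i → b a ∈ U (q.src a)) ∧ (q.tgt a ≠ i → b a = 0) := by
  simp only [PB, Submodule.mem_pi, Set.mem_univ, true_imp_iff]
  refine forall_congr' fun a => ?_
  by_cases h : q.tgt a = i <;> simp [h]

omit [Fintype Ar] [DecidableEq Ar] in
theorem PB_mono (h : ∀ j, j ≠ i → U j ≤ W j) : PB q U i ≤ PB q W i := fun _ hb =>
  mem_PB.2 fun a => ⟨fun e => h _ (src_ne e) ((mem_PB.1 hb a).1 e),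
    (mem_PB.1 hb a).2⟩

omit [DecidableEq Ar] in
theorem fin_PB (h : ∀ j, j ≠ i → Module.Finite F2 (U j)) : Module.Finite F2 (PB q U i) ∧
    finrank F2 (PB q U i) = ∑ a, if q.tgt a = i then finrank F2 (U (q.src a)) else 0 := by
  have : ∀ a, Module.Finite F2 (if q.tgt a = i then U (q.src a) else ⊥ : Submodule F2 X.M) := by
    intro a
    by_cases e : q.tgt a = i
    · rw [if_pos e]
      exact h _ (src_ne e)
    · rw [if_neg e]
      infer_instance
  refine ⟨Module.Finite.equiv (piEq _).symm, ?_⟩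
  rw [PB, (piEq _).finrank_eq, finrank_pi_fintype]
  refine sum_congr rfl fun a _ => ?_
  by_cases e : q.tgt a = i
  · rw [if_pos e, if_pos e]
  · rw [if_neg e, if_neg e, finrank_bot]

omit [DecidableEq Ar] in
theorem rank_PB {e : V → ℕ} (hW : ∀ j, Module.Finite F2 (W j)) (h : ∀ j, j ≠ i → U j ≤ W j)
    (he : ∀ j, j ≠ i → e j + finrank F2 (U j) = finrank F2 (W j)) :
    nb q e i + finrank F2 (PB q U i) = finrank F2 (PB q W i) := by
  rw [(fin_PB fun j _ => hW j).2, (fin_PB fun j hj => finiteDimensional_of_le (h j hj)).2, nb,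
    ← sum_add_distrib]
  refine sum_congr rfl fun a _ => ?_
  split_ifs with e
  · exact he _ (src_ne e)
  · rfl

variable (q X) in
/-- first inclusion -/
noncomputable def il (i : V) : X.M →ₗ[F2] (Tm q X i).M := LinearMap.inl F2 X.M (Ar → X.M)

variable (q X) in
/-- second inclusion -/
noncomputable def ir (i : V) : (Ar → X.M) →ₗ[F2] (Tm q X i).M := LinearMap.inr F2 X.M (Ar → X.M)

theorem il_inj : Function.Injective (il q X i) := LinearMap.inl_injective

theorem il_add_ir (x : X.M) (b : Ar → X.M) : il q X i x + ir q X i b = (x, b) :=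
  Prod.ext (add_zero x) (zero_add b)

theorem rank_il (U : Submodule F2 X.M) : finrank F2 (U.map (il q X i)) = finrank F2 U :=
  (equivMapOfInjective _ il_inj U).finrank_eq.symm

theorem ρ_in {a : Ar} (h : q.tgt a = i) (x : X.M) :
    (Tm q X i).ρ a (il q X i x) = ir q X i (Pi.single a x) := Tm_ρ_in q X h _

theorem ρ_out {a : Ar} (h : q.src a = i) (b : Ar → X.M) :
    (Tm q X i).ρ a (ir q X i b) = il q X i (X.ρ a (inn q X i b)) :=
  (Tm_ρ_out q X h (0, b)).trans (by rw [sM_apply, map_zero, zero_add]; rfl)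

theorem ρ_ne {a : Ar} (h : q.tgt a ≠ i) (h' : q.src a ≠ i) (x : X.M) :
    (Tm q X i).ρ a (il q X i x) = il q X i (X.ρ a x) := Tm_ρ_ne q X h h' _

theorem d_ne (h : j ≠ i) (x : X.M) : (Tm q X i).d j (il q X i x) = il q X i (X.d j x) :=
  Tm_d_ne q X h _

theorem G_off (h : j ≠ i) (m : ℤ) : (Tm q X i).G j m = (X.G j m).map (il q X i) :=
  Submodule.ext fun p => (mem_Tm_ne q X h p).trans ⟨fun h => ⟨_, h.1, Prod.ext rfl h.2.symm⟩, by
    rintro ⟨x, hx, rfl⟩
    exact ⟨hx, rfl⟩⟩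

theorem Zc_off (h : j ≠ i) (m : ℤ) : Zc (Tm q X i) j m = (Zc X j m).map (il q X i) := by
  rw [Zc, G_off h, map_inf_eq_map_inf_comap]
  refine congrArg _ (congrArg _ (Submodule.ext fun x => ?_))
  rw [mem_comap, LinearMap.mem_ker, LinearMap.mem_ker, d_ne h, map_eq_zero_iff _ il_inj]

theorem Bd_off (h : j ≠ i) (m : ℤ) : Bd (Tm q X i) j m = (Bd X j m).map (il q X i) := by
  rw [Bd, Bd, G_off h, ← map_comp, ← map_comp]
  exact congrArg (Submodule.map · _) (LinearMap.ext (d_ne h))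

theorem mem_Zc_self {m : ℤ} (x : X.M) (b : Ar → X.M) :
    il q X i x + ir q X i b ∈ Zc (Tm q X i) i m ↔
      (x ∈ X.G i (m + 1) ∧ b ∈ GB q X i m) ∧ X.d i x = 0 ∧ out q X i x + dB q X b = 0 := by
  rw [il_add_ir]
  exact and_congr (mem_Tm_self q X (x, b))
    (LinearMap.mem_ker.trans ((Tm_d_self q X (x, b)).congr_left.trans Prod.ext_iff))

theorem mem_Bd_self {m : ℤ} (p : (Tm q X i).M) : p ∈ Bd (Tm q X i) i m ↔
    ∃ y ∈ X.G i m, ∃ c ∈ GB q X i (m - 1),
      p = il q X i (X.d i y) + ir q X i (out q X i y + dB q X c) := by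
  simp only [il_add_ir]
  constructor
  · rintro ⟨y, hy, rfl⟩
    obtain ⟨h1, h2⟩ := (mem_Tm_self q X y).1 hy
    exact ⟨_, by rwa [sub_add_cancel] at h1, _, h2, Tm_d_self q X y⟩
  · rintro ⟨y, hy, c, hc, rfl⟩
    exact ⟨(y, c), (mem_Tm_self q X _).2 ⟨by rwa [sub_add_cancel], hc⟩, Tm_d_self q X _⟩

theorem mem_ZB {m : ℤ} {b : Ar → X.M} :
    b ∈ PB q (fun j => Zc X j m) i ↔ b ∈ GB q X i m ∧ dB q X b = 0 := by
  rw [mem_PB, mem_GB]
  refine ⟨fun h => ⟨fun a => ⟨fun e => ((h a).1 e).1, (h a).2⟩, funext fun a => ?_⟩,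
    fun h a => ⟨fun e => ⟨(h.1 a).1 e, congrFun h.2 a⟩, (h.1 a).2⟩⟩
  by_cases e : q.tgt a = i
  · exact ((h a).1 e).2
  · rw [dB_apply, (h a).2 e, map_zero, Pi.zero_apply]

theorem dB_mem_Bd {m : ℤ} {c : Ar → X.M} (hc : c ∈ GB q X i (m - 1)) :
    dB q X c ∈ PB q (fun j => Bd X j m) i :=
  mem_PB.2 fun a => ⟨fun e => ⟨_, ((mem_GB q X i _ c).1 hc a).1 e, rfl⟩,
    fun e => by rw [dB_apply, ((mem_GB q X i _ c).1 hc a).2 e, map_zero]⟩

theorem sub_out (hU : IsSub q X n U) {x : X.M} (hx : x ∈ U i) : out q X i x ∈ PB q U i :=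
  mem_PB.2 fun a => by
    rw [out_apply]
    refine ⟨fun e => ?_, fun e => if_neg e⟩
    have := hU.st (q.star a) x (by rwa [q.src_star, e])
    rwa [if_pos e, ← q.tgt_star]

theorem sub_inn (hU : IsSub q X n U) {b : Ar → X.M} (hb : b ∈ PB q U i) : inn q X i b ∈ U i := by
  rw [inn_apply]
  refine Submodule.sum_mem _ fun a _ => ?_
  split_ifs with e
  · exact e ▸ hU.st a _ ((mem_PB.1 hb a).1 e)
  · exact zero_mem _

omit [DecidableEq Ar] in
theorem fin_Zc1 (hX : Valid q X) (j : V) (m : ℤ) : Module.Finite F2 (Zc X j m) :=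
  have := hX.fin j m
  finiteDimensional_of_le (S₂ := X.G j m) inf_le_left

theorem ir_mem {m : ℤ} {b : Ar → X.M} (hb : b ∈ PB q (fun j => Zc X j m) i) :
    ir q X i b ∈ Zc (Tm q X i) i m := by
  have := (mem_Zc_self 0 b).2 ⟨⟨zero_mem _, (mem_ZB.1 hb).1⟩, map_zero _,
    by rw [map_zero, zero_add, (mem_ZB.1 hb).2]⟩
  rwa [map_zero, zero_add] at this

/-- a cycle at `i` is homologous to a cycle of the neighbours -/
theorem split (hX : Valid q X) {m : ℤ} (h : dimH X (m + 1) i = 0) {p : (Tm q X i).M}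
    (hp : p ∈ Zc (Tm q X i) i m) : ∃ y ∈ X.G i m, ∃ b ∈ PB q (fun j => Zc X j m) i,
      p = il q X i (X.d i y) + ir q X i (out q X i y + b) := by
  obtain ⟨x, b, rfl⟩ : ∃ x b, p = il q X i x + ir q X i b := ⟨p.1, p.2, (il_add_ir _ _).symm⟩
  obtain ⟨⟨h1, h2⟩, h3, h4⟩ := (mem_Zc_self x b).1 hp
  obtain ⟨y, hy, e⟩ := (hX.dimH_eq_zero_iff _ _).1 h _ h1 h3
  rw [add_sub_cancel_right] at hy
  refine ⟨y, hy, out q X i y + b, mem_ZB.2 ⟨add_mem (hX.out_mem hy) h2, ?_⟩, ?_⟩
  · rw [map_add, hX.dB_out hy, ← e, h4]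
  · rw [add_add_cancel_F2, e]

end DGI

open DGI Module Submodule

theorem dimH_Tm_off (X : Raw V Ar) {i j : V} (h : j ≠ i) (m : ℤ) :
    dimH (Tm q X i) m j = dimH X m j := by
  rw [dimH, dimH, Zc_off h, Bd_off h, rank_il, rank_il]

theorem Valid.down (hX : Valid q X) (i : V) (h : ∀ m, n < m → dimH X m = 0) :
    ∀ m, n < m → dimH (Tm q X i) m = 0 := by
  intro m hm
  funext j
  rcases eq_or_ne j i with rfl | hj
  swap
  · rw [dimH_Tm_off X hj, h m hm]
  refine ((hX.tm j).dimH_eq_zero_iff m j).2 fun p h1 h2 => ?_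
  obtain ⟨y, hy, b, hb, e⟩ := split hX (congrFun (h (m + 1) (by omega)) j) (p := p) ⟨h1, h2⟩
  have : ∀ a, ∃ c, ((q.tgt a = j → c ∈ X.G (q.src a) (m - 1)) ∧ (q.tgt a ≠ j → c = 0)) ∧
      b a = X.d (q.src a) c := fun a => by
    by_cases ea : q.tgt a = j
    · obtain ⟨h3, h4⟩ := (mem_PB.1 hb a).1 ea
      obtain ⟨c, hc, e⟩ := (hX.dimH_eq_zero_iff m _).1 (congrFun (h m hm) _) _ h3 h4
      exact ⟨c, ⟨fun _ => hc, fun h => (h ea).elim⟩, e⟩
    · exact ⟨0, ⟨fun h => (ea h).elim, fun _ => rfl⟩, by rw [(mem_PB.1 hb a).2 ea, map_zero]⟩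
  choose c hc ec using this
  obtain rfl : b = dB q X c := funext ec
  obtain ⟨z, hz, ez⟩ := (mem_Bd_self p).2 ⟨y, hy, c, (mem_GB q X j _ c).2 hc, e⟩
  exact ⟨z, hz, ez.symm⟩

theorem Valid.I1 (hX : Valid q X) (i : V) (h : ∀ m, n < m → dimH X m = 0) :
    ∀ e ∈ QQ q X n, ∃ e' ∈ QQ q (Tm q X i) n,
      (∀ j, j ≠ i → e' j = e j) ∧ nb q e i ≤ e' i + e i := by
  rintro e ⟨U, hU, he⟩
  have hX' := hX.tm i
  obtain ⟨T, hT, hT'⟩ : ∃ T : V → Submodule F2 (Tm q X i).M,
      T i = Bd (Tm q X i) i n ⊔ (PB q U i).map (ir q X i) ∧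
        ∀ j, j ≠ i → T j = (U j).map (il q X i) :=
    ⟨fun j => if j = i then _ else _, if_pos rfl, fun j hj => if_neg hj⟩
  have hB : PB q U i ≤ PB q (fun j => Zc X j n) i := PB_mono fun j _ => hU.hi j
  have lo : ∀ j, Bd (Tm q X i) j n ≤ T j := fun j => by
    rcases eq_or_ne j i with rfl | hj
    · rw [hT]
      exact le_sup_left
    · rw [Bd_off hj, hT' j hj]
      exact map_mono (hU.lo j)
  have hi : ∀ j, T j ≤ Zc (Tm q X i) j n := fun j => by
    rcases eq_or_ne j i with rfl | hj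
    · rw [hT]
      exact sup_le (hX'.Bd_le_Zc j n) (map_le_iff_le_comap.2 fun b hb => ir_mem (hB hb))
    · rw [Zc_off hj, hT' j hj]
      exact map_mono (hU.hi j)
  have f1 := fin_Zc1 hX' i n
  have f2 := fin_Zc1 hX i n
  have f3 := (fin_PB (q := q) (i := i) fun j _ => fin_Zc1 hX j n).1
  have f4 : Module.Finite F2 (T i) := finiteDimensional_of_le (hi i)
  have f5 : Module.Finite F2 (PB q U i) := finiteDimensional_of_le hB
  have r0 := finrank_mono (hi i)
  refine ⟨fun j => if j = i then finrank F2 (Zc (Tm q X i) i n) - finrank F2 (T i) else e j,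
    ⟨T, ⟨lo, hi, fun a x hx => ?_⟩, fun j => ?_⟩, fun j hj => if_neg hj, ?_⟩
  · by_cases h1 : q.tgt a = i
    · rw [hT' _ (src_ne h1)] at hx
      obtain ⟨x, hx, rfl⟩ := hx
      rw [ρ_in h1, h1, hT]
      refine mem_sup_right ⟨_, mem_PB.2 fun b => ?_, rfl⟩
      rcases eq_or_ne b a with rfl | hb
      · rw [Pi.single_eq_same]
        exact ⟨fun _ => hx, fun h => (h h1).elim⟩
      · rw [Pi.single_eq_of_ne hb]
        exact ⟨fun _ => zero_mem _, fun _ => rfl⟩
    by_cases h2 : q.src a = i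
    · rw [h2, hT] at hx
      obtain ⟨y, hy, _, ⟨b, hb, rfl⟩, rfl⟩ := mem_sup.1 hx
      rw [map_add, ρ_out h2]
      refine add_mem (lo _ ((hX'.isSub_Bd n).st a y (by rwa [h2]))) ?_
      rw [hT' _ h1]
      exact mem_map_of_mem (hU.st a _ (by rw [h2]; exact sub_inn hU hb))
    · rw [hT' _ h2] at hx
      obtain ⟨x, hx, rfl⟩ := hx
      rw [ρ_ne h1 h2, hT' _ h1]
      exact mem_map_of_mem (hU.st a _ hx)
  · beta_reduce
    rcases eq_or_ne j i with rfl | hj
    · rw [if_pos rfl, Nat.sub_add_cancel r0]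
    · rw [if_neg hj, Zc_off hj, hT' j hj, rank_il, rank_il, he j]
  · have r1 := master (ir q X i) (PB q (fun j => Zc X j n) i) (T i)
    have r2 := master (out q X i) (Zc X i n) (PB q U i)
    have r3 := finrank_mono (sup_le (map_le_iff_le_comap.2 fun b hb => ir_mem hb) (hi i) :
      (PB q (fun j => Zc X j n) i).map (ir q X i) ⊔ T i ≤ Zc (Tm q X i) i n)
    have r4 := finrank_mono (le_inf (hU.hi i) fun x hx => sub_out hU hx :
      U i ≤ Zc X i n ⊓ (PB q U i).comap (out q X i))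
    have r5 := finrank_mono (s := PB q (fun j => Zc X j n) i ⊓ (T i).comap (ir q X i))
      (t := (Zc X i n).map (out q X i) ⊔ PB q U i) fun b hb => by
        have hb2 : ir q X i b ∈ T i := hb.2
        rw [hT] at hb2
        obtain ⟨y, hy, _, ⟨b', hb', rfl⟩, e⟩ := mem_sup.1 hb2
        obtain ⟨z, hz, c, hc, rfl⟩ := (mem_Bd_self y).1 hy
        rw [add_assoc, ← map_add, il_add_ir, add_assoc] at e
        exact mem_sup.2 ⟨_, ⟨z, ⟨hz, congrArg Prod.fst e⟩, rfl⟩, _,
          add_mem (PB_mono (fun j _ => hU.lo j) (dB_mem_Bd hc)) hb', congrArg Prod.snd e⟩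
    have r6 := rank_PB (q := q) (i := i) (fun j => fin_Zc1 hX j n) (fun j _ => hU.hi j)
      fun j _ => he j
    have r7 := he i
    simp only [if_true]
    omega

theorem Valid.I2 (hX : Valid q X) (i : V) (h : ∀ m, n < m → dimH X m = 0) :
    ∀ e' ∈ QQ q (Tm q X i) n, ∃ e ∈ QQ q X n,
      (∀ j, j ≠ i → e j = e' j) ∧ e i + e' i ≤ nb q e' i := by
  rintro e ⟨U, hU, he⟩
  have hX' := hX.tm i
  obtain ⟨W, hW⟩ : ∃ W : V → Submodule F2 X.M, ∀ j x, x ∈ W j ↔ il q X i x ∈ U j :=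
    ⟨fun j => (U j).comap (il q X i), fun _ _ => Iff.rfl⟩
  obtain ⟨T, hT, hT'⟩ : ∃ T : V → Submodule F2 X.M,
      T i = Zc X i n ⊓ (PB q W i).comap (out q X i) ∧ ∀ j, j ≠ i → T j = W j :=
    ⟨fun j => if j = i then _ else _, if_pos rfl, fun j hj => if_neg hj⟩
  have lo : ∀ j, j ≠ i → Bd X j n ≤ W j := fun j hj x hx =>
    (hW j x).2 (hU.lo j (by rw [Bd_off hj]; exact mem_map_of_mem hx))
  have hi' : ∀ j, j ≠ i → U j ≤ (Zc X j n).map (il q X i) := fun j hj => by
    rw [← Zc_off hj]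
    exact hU.hi j
  have hi : ∀ j, j ≠ i → W j ≤ Zc X j n := fun j hj x hx => by
    obtain ⟨y, hy, e⟩ := hi' j hj ((hW j x).1 hx)
    exact il_inj e ▸ hy
  have hr : ∀ j, j ≠ i → e j + finrank F2 (W j) = finrank F2 (Zc X j n) := fun j hj => by
    have e1 : U j = (W j).map (il q X i) := le_antisymm (fun p hp => by
      obtain ⟨y, -, rfl⟩ := hi' j hj hp
      exact mem_map_of_mem ((hW j y).2 hp)) (map_le_iff_le_comap.2 fun x => (hW j x).1)
    have := he j
    rwa [e1, Zc_off hj, rank_il, rank_il] at this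
  have hB : PB q W i ≤ PB q (fun j => Zc X j n) i := PB_mono hi
  have hs : ∀ a, q.tgt a = i → ∀ x ∈ W (q.src a), ir q X i (Pi.single a x) ∈ U i :=
    fun a ha x hx => by
      have := hU.st a _ ((hW _ x).1 hx)
      rwa [ρ_in ha, ha] at this
  have f1 := fin_Zc1 hX' i n
  have f2 := fin_Zc1 hX i n
  have f3 := (fin_PB (q := q) (i := i) fun j _ => fin_Zc1 hX j n).1
  have f4 : Module.Finite F2 (U i) := finiteDimensional_of_le (hU.hi i)
  have f5 : Module.Finite F2 (PB q W i) := finiteDimensional_of_le hB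
  have r0 := finrank_mono (hT.trans_le inf_le_left)
  refine ⟨fun j => if j = i then finrank F2 (Zc X i n) - finrank F2 (T i) else e j,
    ⟨T, ⟨fun j => ?_, fun j => ?_, fun a x hx => ?_⟩, fun j => ?_⟩, fun j hj => if_neg hj, ?_⟩
  · rcases eq_or_ne j i with rfl | hj
    · rw [hT]
      exact le_inf (hX.Bd_le_Zc j n) fun x hx => PB_mono lo (sub_out (hX.isSub_Bd n) hx)
    · exact hT' j hj ▸ lo j hj
  · rcases eq_or_ne j i with rfl | hj
    · exact hT.trans_le inf_le_left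
    · exact hT' j hj ▸ hi j hj
  · by_cases h1 : q.tgt a = i
    · rw [hT' _ (src_ne h1)] at hx
      have hz := (hX.isSub_Zc n).st a x (hi _ (src_ne h1) hx)
      rw [h1] at hz
      rw [h1, hT]
      refine ⟨hz, mem_PB.2 fun b => ?_⟩
      rw [out_apply]
      refine ⟨fun hb => ?_, fun hb => if_neg hb⟩
      have := hU.st (q.star b) _ (by rw [q.src_star, hb]; exact hs a h1 x hx)
      rw [ρ_out ((q.src_star b).trans hb), inn_single, if_pos h1, q.tgt_star] at this
      rw [if_pos hb]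
      exact (hW _ _).2 this
    rw [hT' _ h1]
    by_cases h2 : q.src a = i
    · rw [h2, hT] at hx
      have := (mem_PB.1 hx.2 (q.star a)).1 ((q.tgt_star a).trans h2)
      rwa [out_apply, if_pos ((q.tgt_star a).trans h2), q.star_star, q.src_star] at this
    · rw [hT' _ h2] at hx
      have := hU.st a _ ((hW _ x).1 hx)
      rw [ρ_ne h1 h2] at this
      exact (hW _ _).2 this
  · beta_reduce
    rcases eq_or_ne j i with rfl | hj
    · rw [if_pos rfl, Nat.sub_add_cancel r0]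
    · rw [if_neg hj, hT' j hj, hr j hj]
  · have hd : ∀ y ∈ X.G i n, il q X i (X.d i y) + ir q X i (out q X i y) ∈ U i := fun y hy =>
      hU.lo i ((mem_Bd_self _).2 ⟨y, hy, 0, zero_mem _, by rw [map_zero, add_zero]⟩)
    have r1 := master (ir q X i) (PB q (fun j => Zc X j n) i) (U i)
    have r2 := master (out q X i) (Zc X i n) (PB q W i)
    have r3 := finrank_mono (s := Zc (Tm q X i) i n)
      (t := (PB q (fun j => Zc X j n) i).map (ir q X i) ⊔ U i) fun p hp => by
        obtain ⟨y, hy, b, hb, rfl⟩ := split hX (congrFun (h (n + 1) (by omega)) i) hp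
        rw [map_add, ← add_assoc]
        exact add_mem (mem_sup_right (hd y hy)) (mem_sup_left (mem_map_of_mem hb))
    have r5 := finrank_mono (s := (Zc X i n).map (out q X i) ⊔ PB q W i)
      (t := PB q (fun j => Zc X j n) i ⊓ (U i).comap (ir q X i))
      (sup_le (map_le_iff_le_comap.2 fun y hy => ⟨sub_out (hX.isSub_Zc n) hy, by
        have := hd y hy.1
        rwa [show X.d i y = 0 from hy.2, map_zero, zero_add] at this⟩) fun b hb => ⟨hB hb, by
        change ir q X i b ∈ U i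
        rw [← univ_sum_single b, map_sum]
        refine Submodule.sum_mem _ fun a _ => ?_
        by_cases ha : q.tgt a = i
        · exact hs a ha _ ((mem_PB.1 hb a).1 ha)
        · rw [(mem_PB.1 hb a).2 ha, Pi.single_zero, map_zero]
          exact zero_mem _⟩)
    have r6 := rank_PB (q := q) (fun j => fin_Zc1 hX j n) hi hr
    have r7 := he i
    rw [← hT] at r2
    simp only [if_true]
    omega

end Vale.Agent.P203
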