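import Vale.Agent.P203.DGI

namespace Vale.Agent.P203

open Finset

variable {V Ar : Type} [DecidableEq V] [Fintype Ar] [DecidableEq Ar] {q : DQ V Ar}

namespace DGJ

section Lin

variable {M N : Type*} [AddCommGroup M] [Module F2 M] [AddCommGroup N] [Module F2 N]

theorem rank_map (f : M →ₗ[F2] N) (Z : Submodule F2 M) [Module.Finite F2 Z] :
    Module.finrank F2 (Z.map f) + Module.finrank F2 ↥(Z ⊓ LinearMap.ker f) =
      Module.finrank F2 Z := by
  have h := (f.domRestrict Z).finrank_range_add_finrank_ker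
  rw [LinearMap.range_domRestrict, LinearMap.ker_domRestrict,
    ← Submodule.finrank_map_subtype_eq Z, Submodule.map_comap_subtype] at h
  exact h

theorem codim (f : M →ₗ[F2] N) (Z' : Submodule F2 M) (Z U : Submodule F2 N)
    [Module.Finite F2 Z'] [Module.Finite F2 Z] (hU : U ≤ Z) (h1 : ∀ x ∈ Z', f x ∈ Z)
    (h2 : ∀ z ∈ Z, ∃ x ∈ Z', z - f x ∈ U) :
    Module.finrank F2 Z + Module.finrank F2 ↥(Z' ⊓ U.comap f) =
      Module.finrank F2 Z' + Module.finrank F2 U := by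
  have a := rank_map (U.mkQ.comp f) Z'
  have b := rank_map U.mkQ Z
  rw [LinearMap.ker_comp, Submodule.ker_mkQ] at a
  rw [Submodule.ker_mkQ, inf_eq_right.2 hU] at b
  have e : Z'.map (U.mkQ.comp f) = Z.map U.mkQ := by
    apply le_antisymm
    · rintro _ ⟨x, hx, rfl⟩
      exact ⟨f x, h1 x hx, rfl⟩
    · rintro _ ⟨z, hz, rfl⟩
      obtain ⟨x, hx, hu⟩ := h2 z hz
      exact ⟨x, hx, ((Submodule.Quotient.eq U).2 hu).symm⟩
  rw [e] at a
  omega

theorem rank_inj (f : M →ₗ[F2] N) (hf : Function.Injective f) (U : Submodule F2 M) :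
    Module.finrank F2 (U.map f) = Module.finrank F2 U :=
  (Submodule.equivMapOfInjective _ hf U).finrank_eq.symm

theorem hyper (W Z : Submodule F2 M) [Module.Finite F2 Z] (hW : W ≤ Z) {z : M} (hz : z ∈ Z)
    (hzW : z ∉ W) : ∃ H : Submodule F2 M, W ≤ H ∧ H ≤ Z ∧
      1 + Module.finrank F2 H = Module.finrank F2 Z := by
  obtain ⟨f, hf, hWf⟩ := Submodule.exists_le_ker_of_notMem hzW
  refine ⟨Z ⊓ LinearMap.ker f, le_inf hW hWf, inf_le_left, ?_⟩
  have e : Z.map f = ⊤ := by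
    rw [eq_top_iff]
    intro c _
    refine ⟨(c * (f z)⁻¹) • z, Z.smul_mem _ hz, ?_⟩
    rw [map_smul, smul_eq_mul, mul_assoc, inv_mul_cancel₀ hf, mul_one]
  have := rank_map f Z
  rwa [e, finrank_top, Module.finrank_self] at this

end Lin

variable {X : Raw V Ar} {n : ℤ}

omit [DecidableEq V] [Fintype Ar] [DecidableEq Ar] in
theorem mem_Zc {j : V} {x : X.M} : x ∈ Zc X j n ↔ x ∈ X.G j n ∧ X.d j x = 0 := Iff.rfl

omit [DecidableEq V] [Fintype Ar] [DecidableEq Ar] in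
theorem mem_Bd {j : V} {x : X.M} : x ∈ Bd X j n ↔ ∃ y ∈ X.G j (n - 1), X.d j y = x := Iff.rfl

omit [DecidableEq Ar] in
theorem fin_Zc2 (hX : Valid q X) (j : V) (n : ℤ) : Module.Finite F2 (Zc X j n) :=
  have := hX.fin j n
  Submodule.finiteDimensional_of_le (inf_le_left : Zc X j n ≤ X.G j n)

/-- Every cycle at `i` comes from cycles at the neighbours, up to a boundary. -/
def Onto (q : DQ V Ar) (X : Raw V Ar) (i : V) (n : ℤ) : Prop :=
  ∀ z ∈ X.G i n, X.d i z = 0 → ∃ b ∈ GB q X i n, dB q X b = 0 ∧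
    ∃ y ∈ X.G i (n - 1), z = inn q X i b + X.d i y

/-- the map `sM` on the mutated module -/
noncomputable def sT (q : DQ V Ar) (X : Raw V Ar) (i : V) : (Tm q X i).M →ₗ[F2] X.M := sM q X i

/-- the inclusion in the mutated module -/
noncomputable def iT (q : DQ V Ar) (X : Raw V Ar) (i : V) : X.M →ₗ[F2] (Tm q X i).M :=
  LinearMap.inl F2 X.M (Ar → X.M)

theorem iT_inj (i : V) : Function.Injective (iT q X i) :=
  LinearMap.inl_injective (R := F2) (M := X.M) (M₂ := Ar → X.M)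

theorem Zc_Tm_ne {i j : V} (h : j ≠ i) : Zc (Tm q X i) j n = (Zc X j n).map (iT q X i) := by
  ext p
  constructor
  · rintro ⟨h1, h3⟩
    obtain ⟨h1, h2⟩ := (mem_Tm_ne q X h p).1 h1
    exact ⟨p.1, ⟨h1, congrArg Prod.fst ((Tm_d_ne q X h p).symm.trans h3)⟩, Prod.ext rfl h2.symm⟩
  · rintro ⟨x, ⟨h1, h2⟩, rfl⟩
    exact ⟨(mem_Tm_ne q X h _).2 ⟨h1, rfl⟩, (Tm_d_ne q X h _).trans (Prod.ext h2 rfl)⟩

theorem sT_cyc (hX : Valid q X) {i : V} {p : (Tm q X i).M} (hp : p ∈ Zc (Tm q X i) i n) :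
    sT q X i p ∈ Zc X i n := by
  obtain ⟨h1, h2⟩ := (mem_Tm_self q X p).1 hp.1
  have h3 := (Tm_d_self q X p).symm.trans hp.2
  have e1 : X.d i p.1 = 0 := congrArg Prod.fst h3
  have e2 : out q X i p.1 = dB q X p.2 := eq_of_add_eq_zero_F2 (congrArg Prod.snd h3)
  refine ⟨hX.sM_mem h1 h2, ?_⟩
  change X.d i (X.t i p.1 + inn q X i p.2) = 0
  rw [map_add, hX.d_inn h2, ← e2, hX.inn_out h1, e1, map_zero, add_zero, add_self_F2]

theorem sT_bd (hX : Valid q X) {i : V} {p : (Tm q X i).M} (hp : p ∈ Bd (Tm q X i) i n) :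
    sT q X i p ∈ Bd X i n := by
  obtain ⟨r, hr, rfl⟩ := mem_Bd.1 hp
  obtain ⟨h1, h2⟩ := (mem_Tm_self q X r).1 hr
  refine mem_Bd.2 ⟨sT q X i r, hX.sM_mem h1 h2, ?_⟩
  refine Eq.trans ?_ (congrArg (sT q X i) (Tm_d_self q X r)).symm
  change X.d i (X.t i r.1 + inn q X i r.2) =
    X.t i (X.d i r.1) + inn q X i (out q X i r.1 + dB q X r.2)
  rw [map_add, map_add, hX.d_inn h2, hX.inn_out h1, ← add_assoc,
    add_comm (X.d i (X.t i r.1)) (X.t i (X.d i r.1)), add_add_cancel_F2]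

theorem QQ_sub (hX : Valid q X) {i : V} (hO : Onto q X i n) : QQ q X n ⊆ QQ q (Tm q X i) n := by
  rintro e ⟨U, hU, he⟩
  have hY := hX.tm i
  let U' : V → Submodule F2 (Tm q X i).M := fun j =>
    if j = i then Zc (Tm q X i) i n ⊓ (U i).comap (sT q X i) else (U j).map (iT q X i)
  have e1 : U' i = Zc (Tm q X i) i n ⊓ (U i).comap (sT q X i) := if_pos rfl
  have e2 : ∀ j, j ≠ i → U' j = (U j).map (iT q X i) := fun j h => if_neg h
  refine ⟨U', ⟨fun j => ?_, fun j => ?_, fun a x hx => ?_⟩, fun j => ?_⟩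
  · by_cases h : j = i
    · subst h
      rw [e1]
      exact fun p hp => ⟨hY.Bd_le_Zc j n hp, hU.lo j (sT_bd hX hp)⟩
    · rw [e2 j h]
      intro p hp
      obtain ⟨r, hr, rfl⟩ := mem_Bd.1 hp
      exact ⟨X.d j r.1, hU.lo j (mem_Bd.2 ⟨r.1, ((mem_Tm_ne q X h r).1 hr).1, rfl⟩),
        (Tm_d_ne q X h r).symm⟩
  · by_cases h : j = i
    · subst h
      rw [e1]
      exact inf_le_left
    · rw [e2 j h, Zc_Tm_ne h]
      exact Submodule.map_mono (hU.hi j)
  · by_cases h : q.tgt a = i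
    · have h' : q.src a ≠ i := fun h' => q.tgt_ne_src a (h.trans h'.symm)
      rw [e2 _ h'] at hx
      obtain ⟨y, hy, rfl⟩ := hx
      have hc := (hY.isSub_Zc n).st a (iT q X i y) (by
        rw [Zc_Tm_ne h']; exact ⟨y, hU.hi _ hy, rfl⟩)
      have hs := hU.st a y hy
      rw [h] at hc hs ⊢
      rw [e1]
      refine ⟨hc, ?_⟩
      have k : sT q X i ((Tm q X i).ρ a (iT q X i y)) = X.ρ a y := by
        refine (congrArg (sT q X i) (Tm_ρ_in q X h _)).trans ?_
        change X.t i 0 + inn q X i (Pi.single a y) = _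
        rw [map_zero, zero_add, inn_single, if_pos h]
      change sT q X i ((Tm q X i).ρ a (iT q X i y)) ∈ U i
      rwa [k]
    · rw [e2 _ h]
      by_cases h' : q.src a = i
      · rw [h', e1] at hx
        exact ⟨_, hU.st a (sT q X i x) (by rw [h']; exact hx.2), (Tm_ρ_out q X h' x).symm⟩
      · rw [e2 _ h'] at hx
        obtain ⟨y, hy, rfl⟩ := hx
        exact ⟨_, hU.st a y hy, (Tm_ρ_ne q X h h' (iT q X i y)).symm⟩
  · by_cases h : j = i
    · subst h
      have f1 := fin_Zc2 hX j n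
      have f2 := fin_Zc2 hY j n
      have c := codim (sT q X j) (Zc (Tm q X j) j n) (Zc X j n) (U j) (hU.hi j)
        (fun p hp => sT_cyc hX hp) fun z hz => by
          obtain ⟨b, hb, hb0, y, hy, rfl⟩ := hO z hz.1 hz.2
          refine ⟨(0, b), mem_Zc.2 ⟨(mem_Tm_self q X _).2 ⟨zero_mem _, hb⟩, ?_⟩, ?_⟩
          · refine (Tm_d_self q X _).trans ?_
            rw [map_zero, map_zero, hb0, add_zero]; rfl
          · change inn q X j b + X.d j y - (X.t j 0 + inn q X j b) ∈ U j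
            rw [map_zero, zero_add, add_sub_cancel_left]
            exact hU.lo j (mem_Bd.2 ⟨y, hy, rfl⟩)
      have := he j
      rw [← e1] at c
      omega
    · rw [e2 j h, Zc_Tm_ne h, rank_inj _ (iT_inj i), rank_inj _ (iT_inj i)]
      exact he j

theorem onto_Tm (hX : Valid q X) (i : V) (h : dimH X (n + 1) i = 0) : Onto q (Tm q X i) i n := by
  intro p hp hd
  obtain ⟨h1, h2⟩ := (mem_Tm_self q X p).1 hp
  have hd' := (Tm_d_self q X p).symm.trans hd
  have e1 : X.d i p.1 = 0 := congrArg Prod.fst hd'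
  have e2 : out q X i p.1 = dB q X p.2 := eq_of_add_eq_zero_F2 (congrArg Prod.snd hd')
  obtain ⟨x, hx, ex⟩ := (hX.dimH_eq_zero_iff (n + 1) i).1 h p.1 h1 e1
  rw [add_sub_cancel_right] at hx
  have m : out q X i x + p.2 ∈ GB q X i n := add_mem (hX.out_mem hx) h2
  have m0 : dB q X (out q X i x + p.2) = 0 := by
    rw [map_add, hX.dB_out hx, ← ex, e2, add_self_F2]
  obtain ⟨c, hc⟩ : ∃ c, c = out q X i x + p.2 := ⟨_, rfl⟩
  rw [← hc] at m m0
  have mc := (mem_GB q X i n c).1 m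
  have ne : ∀ a, q.tgt a = i → q.src a ≠ i := fun a h h' => q.tgt_ne_src a (h.trans h'.symm)
  refine ⟨fun a => iT q X i (c a), (mem_GB q _ i n _).2 fun a => ⟨fun ha => ?_, fun ha => ?_⟩, ?_,
    iT q X i x, (mem_Tm_self q X _).2 ⟨by rw [sub_add_cancel]; exact hx, zero_mem _⟩, ?_⟩
  · exact (mem_Tm_ne q X (ne a ha) _).2 ⟨(mc a).1 ha, rfl⟩
  · rw [(mc a).2 ha, map_zero]
  · funext a
    rw [dB_apply]
    by_cases ha : q.tgt a = i
    · exact (Tm_d_ne q X (ne a ha) _).trans (Prod.ext (congrFun m0 a) rfl)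
    · rw [(mc a).2 ha, map_zero, map_zero]; rfl
  · let jT : (Ar → X.M) →ₗ[F2] (Tm q X i).M := LinearMap.inr F2 X.M (Ar → X.M)
    have e : inn q (Tm q X i) i (fun a => iT q X i (c a)) = jT c := by
      rw [inn_apply]
      have : ∀ a, (if q.tgt a = i then (Tm q X i).ρ a (iT q X i (c a)) else 0) =
          jT (Pi.single a (c a)) := by
        intro a
        split_ifs with ha
        · exact Tm_ρ_in q X ha _
        · rw [(mc a).2 ha, Pi.single_zero, map_zero]
      rw [sum_congr rfl fun a _ => this a, ← map_sum, univ_sum_single]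
    rw [e]
    refine Eq.trans ?_ (congrArg (fun r => jT c + r) (Tm_d_self q X (iT q X i x))).symm
    refine Prod.ext (ex.trans (zero_add _).symm) ?_
    change p.2 = c + (out q X i x + dB q X 0)
    rw [map_zero, add_zero, hc, add_comm _ (out q X i x), add_add_cancel_F2]

theorem onto_iff (hX : Valid q X) (i : V) : Onto q X i n ↔ Pi.single i 1 ∉ QQ q X n := by
  have ne : ∀ a, q.tgt a = i → q.src a ≠ i := fun a h h' => q.tgt_ne_src a (h.trans h'.symm)
  constructor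
  · rintro hO ⟨U, hU, he⟩
    have eq : ∀ j, j ≠ i → U j = Zc X j n := fun j h => by
      have f := fin_Zc2 hX j n
      have := he j
      rw [Pi.single_eq_of_ne h, zero_add] at this
      exact Submodule.eq_of_le_of_finrank_eq (hU.hi j) this
    have le : Zc X i n ≤ U i := by
      intro z hz
      obtain ⟨b, hb, hb0, y, hy, rfl⟩ := hO z hz.1 hz.2
      refine add_mem ?_ (hU.lo i (mem_Bd.2 ⟨y, hy, rfl⟩))
      rw [inn_apply]
      refine Submodule.sum_mem _ fun a _ => ?_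
      split_ifs with ha
      · rw [← ha]
        refine hU.st a _ ?_
        rw [eq _ (ne a ha)]
        exact ⟨((mem_GB q X i n b).1 hb a).1 ha, congrFun hb0 a⟩
      · exact zero_mem _
    have := he i
    rw [Pi.single_eq_same, le_antisymm (hU.hi i) le] at this
    omega
  · intro hn z hz hz0
    by_contra hc
    refine hn ?_
    have f := fin_Zc2 hX i n
    let W : Submodule F2 X.M :=
      (GB q X i n ⊓ LinearMap.ker (dB q X)).map (inn q X i) ⊔ Bd X i n
    have hW : W ≤ Zc X i n := by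
      refine sup_le ?_ (hX.Bd_le_Zc i n)
      rintro _ ⟨b, ⟨hb, hb0⟩, rfl⟩
      refine mem_Zc.2 ⟨hX.inn_mem hb, ?_⟩
      rw [hX.d_inn hb, LinearMap.mem_ker.1 hb0, map_zero]
    have hzW : z ∉ W := by
      intro hz'
      obtain ⟨_, ⟨b, ⟨hb, hb0⟩, rfl⟩, _, ⟨y, hy, rfl⟩, e⟩ := Submodule.mem_sup.1 hz'
      exact hc ⟨b, hb, hb0, y, hy, e.symm⟩
    obtain ⟨H, h1, h2, h3⟩ := hyper W (Zc X i n) hW ⟨hz, hz0⟩ hzW
    let U : V → Submodule F2 X.M := fun j => if j = i then H else Zc X j n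
    have e1 : U i = H := if_pos rfl
    have e2 : ∀ j, j ≠ i → U j = Zc X j n := fun j h => if_neg h
    have hi : ∀ j, U j ≤ Zc X j n := fun j => by
      by_cases h : j = i
      · rw [h, e1]; exact h2
      · rw [e2 j h]
    refine ⟨U, ⟨fun j => ?_, hi, fun a x hx => ?_⟩, fun j => ?_⟩
    · by_cases h : j = i
      · rw [h, e1]; exact le_sup_right.trans h1
      · rw [e2 j h]; exact hX.Bd_le_Zc j n
    · have hx' := hi _ hx
      by_cases h : q.tgt a = i
      · rw [h, e1]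
        refine h1 (Submodule.mem_sup_left ⟨Pi.single a x, ⟨single_mem_GB q X h hx'.1, ?_⟩, ?_⟩)
        · change dB q X (Pi.single a x) = 0
          rw [dB_single, (mem_Zc.1 hx').2, Pi.single_zero]
        · rw [inn_single, if_pos h]
      · rw [e2 _ h]
        exact (hX.isSub_Zc n).st a x hx'
    · by_cases h : j = i
      · rw [h, e1, Pi.single_eq_same]; exact h3
      · rw [e2 j h, Pi.single_eq_of_ne h, zero_add]

theorem exact_GB (hX : Valid q X) {i : V} {m : ℤ} (h : dimH X m = 0) {b : Ar → X.M}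
    (hb : b ∈ GB q X i m) (hb0 : dB q X b = 0) : ∃ b' ∈ GB q X i (m - 1), b = dB q X b' := by
  have mb := (mem_GB q X i m b).1 hb
  have : ∀ a, ∃ y, (q.tgt a = i → y ∈ X.G (q.src a) (m - 1)) ∧ (q.tgt a ≠ i → y = 0) ∧
      b a = X.d (q.src a) y := by
    intro a
    by_cases ha : q.tgt a = i
    · obtain ⟨y, hy, e⟩ := (hX.dimH_eq_zero_iff m (q.src a)).1 (congrFun h _) (b a) ((mb a).1 ha)
        (congrFun hb0 a)
      exact ⟨y, fun _ => hy, fun h' => (h' ha).elim, e⟩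
    · exact ⟨0, fun h' => (ha h').elim, fun _ => rfl, by rw [(mb a).2 ha, map_zero]⟩
  choose y hy using this
  exact ⟨y, (mem_GB q X i _ y).2 fun a => ⟨(hy a).1, (hy a).2.1⟩, funext fun a => (hy a).2.2⟩

theorem onto_of_zero (hX : Valid q X) {i : V} {m : ℤ} (h : dimH X m i = 0) : Onto q X i m := by
  intro z hz hz0
  obtain ⟨y, hy, e⟩ := (hX.dimH_eq_zero_iff m i).1 h z hz hz0
  exact ⟨0, zero_mem _, map_zero _, y, hy, by rw [map_zero, zero_add]; exact e⟩

theorem Tp_zero (hX : Valid q X) {i : V} {m : ℤ} (h : dimH X m = 0) (hO : Onto q X i (m - 1)) :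
    dimH (Tp q X i) m = 0 := by
  funext j
  refine ((hX.tp i).dimH_eq_zero_iff m j).2 fun p hp hd => ?_
  by_cases hj : j = i
  · subst hj
    obtain ⟨h1, h2⟩ := (mem_Tp_self q X p).1 hp
    have hd' := (Tp_d_self q X p).symm.trans hd
    have e1 : X.d j p.1 + inn q X j p.2 = 0 := congrArg Prod.fst hd'
    have e2 : dB q X p.2 = 0 := congrArg Prod.snd hd'
    obtain ⟨b', hb', e3⟩ := exact_GB hX h h2 e2
    obtain ⟨b, hb, hb0, y, hy, e4⟩ := hO (p.1 + inn q X j b') (add_mem h1 (hX.inn_mem hb'))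
      (by rw [map_add, hX.d_inn hb', ← e3, e1])
    refine ⟨(y, b' + b), (mem_Tp_self q X _).2 ⟨hy, add_mem hb' hb⟩, ?_⟩
    refine Eq.trans ?_ (Tp_d_self q X _).symm
    refine Prod.ext ?_ ?_
    · change p.1 = X.d j y + inn q X j (b' + b)
      rw [map_add, add_left_comm, add_comm (X.d j y), ← e4, add_comm p.1, add_add_cancel_F2]
    · change p.2 = dB q X (b' + b)
      rw [map_add, hb0, add_zero, e3]
  · obtain ⟨h1, h2⟩ := (mem_Tp_ne q X hj p).1 hp
    have hd' := (Tp_d_ne q X hj p).symm.trans hd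
    obtain ⟨y, hy, e⟩ := (hX.dimH_eq_zero_iff m j).1 (congrFun h j) p.1 h1 (congrArg Prod.fst hd')
    exact ⟨(y, 0), (mem_Tp_ne q X hj _).2 ⟨hy, rfl⟩,
      Eq.trans (Prod.ext e h2) (Tp_d_ne q X hj _).symm⟩

theorem onto_of_Tp (hX : Valid q X) {i : V} (h : dimH (Tp q X i) (n + 1) i = 0) :
    Onto q X i n := by
  intro z hz hz0
  obtain ⟨r, hr, e⟩ := ((hX.tp i).dimH_eq_zero_iff (n + 1) i).1 h (z, 0)
    ((mem_Tp_self q X _).2 ⟨by rwa [add_sub_cancel_right], zero_mem _⟩)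
    ((Tp_d_self q X _).trans (by rw [map_zero, map_zero, hz0, add_zero]; rfl))
  rw [add_sub_cancel_right] at hr
  obtain ⟨h1, h2⟩ := (mem_Tp_self q X r).1 hr
  have e' := e.trans (Tp_d_self q X r)
  exact ⟨r.2, h2, (congrArg Prod.snd e').symm, r.1, h1,
    (congrArg Prod.fst e').trans (add_comm _ _)⟩

end DGJ

variable {X : Raw V Ar} {n : ℤ}

theorem Valid.I3 (hX : Valid q X) (i : V) (h : ∀ m, n < m → dimH X m = 0) :
    QQ q (Tm q X i) n ⊆ QQ q (Tm q (Tm q X i) i) n :=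
  DGJ.QQ_sub (hX.tm i) (DGJ.onto_Tm hX i (congrFun (h (n + 1) (lt_add_one n)) i))

theorem Valid.up (hX : Valid q X) (i : V) (h : ∀ m, n < m → dimH X m = 0) :
    (∀ m, n < m → dimH (Tp q X i) m = 0) ↔ Pi.single i 1 ∉ QQ q X n := by
  rw [← DGJ.onto_iff hX i]
  refine ⟨fun k => DGJ.onto_of_Tp hX (congrFun (k (n + 1) (lt_add_one n)) i),
    fun hO m hm => DGJ.Tp_zero hX (h m hm) ?_⟩
  rcases eq_or_lt_of_le (show n ≤ m - 1 by omega) with e | e
  · rwa [← e]
  · exact DGJ.onto_of_zero hX (congrFun (h _ e) i)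

end Vale.Agent.P203
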