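import Vale.Agent.P203.DGEta
import Vale.Agent.P203.DGFun
import Vale.Agent.P203.DGBraid
import Vale.Agent.P203.DGJ

namespace Vale.Agent.P203

open Finset

variable {V Ar : Type} [DecidableEq V] [Fintype Ar] [DecidableEq Ar] {q : DQ V Ar}

namespace DGMod

/-- classes of valid modules -/
def Cl (q : DQ V Ar) : Type 1 :=
  Quot fun X Y : {X : Raw V Ar // Valid q X} => Rel q X.1 Y.1

def mk {X : Raw V Ar} (hX : Valid q X) : Cl q := Quot.mk _ ⟨X, hX⟩

omit [DecidableEq Ar] in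
theorem ind {P : Cl q → Prop} (h : ∀ X (hX : Valid q X), P (mk hX)) (x : Cl q) : P x :=
  Quot.ind (fun Y => h Y.1 Y.2) x

omit [DecidableEq Ar] in
theorem sound {X Y : Raw V Ar} (hX : Valid q X) (hY : Valid q Y) (h : Rel q X Y) :
    mk hX = mk hY := Quot.sound h

theorem eqv_aux {X Y : Raw V Ar} (h : Eqv q X Y) :
    (Valid q X ↔ Valid q Y) ∧ ∀ (hX : Valid q X) (hY : Valid q Y), mk hX = mk hY := by
  induction h with
  | rel x y h => exact ⟨⟨fun _ => h.2.1, fun _ => h.1⟩, fun hX hY => sound hX hY h⟩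
  | refl x => exact ⟨Iff.rfl, fun _ _ => rfl⟩
  | symm x y _ ih => exact ⟨ih.1.symm, fun hX hY => (ih.2 hY hX).symm⟩
  | trans x y z _ _ ih1 ih2 =>
    exact ⟨ih1.1.trans ih2.1, fun hX hZ => (ih1.2 hX (ih1.1.1 hX)).trans (ih2.2 _ hZ)⟩

noncomputable def tm (i : V) : Cl q → Cl q :=
  Quot.lift (fun X => mk (X.2.tm i)) fun _ _ h => sound _ _ (h.tm i)

noncomputable def tp (i : V) : Cl q → Cl q :=
  Quot.lift (fun X => mk (X.2.tp i)) fun _ _ h => sound _ _ (h.tp i)

noncomputable def tau (i : V) : Equiv.Perm (Cl q) where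
  toFun := tm i
  invFun := tp i
  left_inv := ind fun _ hX => (sound hX ((hX.tm i).tp i) (rel_eta hX i)).symm
  right_inv := ind fun _ hX => sound ((hX.tp i).tm i) hX (rel_eps hX i)

noncomputable def dim : Cl q → ℤ → V → ℕ :=
  Quot.lift (fun X => dimH X.1) fun _ _ h => h.dimH_eq

def qq : Cl q → ℤ → Set (V → ℕ) :=
  Quot.lift (fun X => QQ q X.1) fun _ _ h => funext h.QQ_eq

/-- the initial object: simple modules at the frozen vertices -/
def init (Ar : Type) (Fz : Finset V) : Raw V Ar where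
  M := F2
  G i n := if n = 0 ∧ i ∈ Fz then ⊤ else ⊥
  d _ := 0
  t _ := 0
  ρ _ := 0

theorem init_valid (q : DQ V Ar) (Fz : Finset V) : Valid q (init Ar Fz) where
  fin i n := inferInstanceAs
    (Module.Finite F2 (if n = 0 ∧ i ∈ Fz then ⊤ else ⊥ : Submodule F2 F2))
  bdd := ⟨0, fun i n hn => if_neg fun h => hn.ne' h.1⟩
  d_mem _ _ _ _ := zero_mem _
  t_mem _ _ _ _ := zero_mem _
  ρ_mem _ _ _ _ := zero_mem _
  dd _ _ _ _ := rfl
  dρ _ _ _ _ := rfl
  dt i n x _ := by
    change (0 : F2) + 0 = ∑ a, if q.tgt a = i then (0 : F2) else 0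
    simp

omit [Fintype Ar] [DecidableEq Ar] in
theorem init_dim (Fz : Finset V) (m : ℤ) (v : V) :
    dimH (init Ar Fz) m v = if m = 0 ∧ v ∈ Fz then 1 else 0 := by
  have h1 : Bd (init Ar Fz) v m = ⊥ := Submodule.map_zero _
  have h2 : Zc (init Ar Fz) v m = (init Ar Fz).G v m := by
    have h3 : LinearMap.ker ((init Ar Fz).d v) = ⊤ := LinearMap.ker_zero
    rw [Zc, h3, inf_top_eq]
  rw [dimH, h1, h2, finrank_bot, Nat.sub_zero]
  change Module.finrank F2 (if m = 0 ∧ v ∈ Fz then ⊤ else ⊥ : Submodule F2 F2) = _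
  by_cases h : m = 0 ∧ v ∈ Fz
  · rw [if_pos h, if_pos h, finrank_top, Module.finrank_self]
  · rw [if_neg h, if_neg h, finrank_bot]

end DGMod

open DGMod in
theorem exists_mod [Finite V] (q : DQ V Ar) (Fz : Finset V) :
    ∃ X : Type 1, Nonempty (Mod q Fz X) :=
  ⟨Cl q, ⟨{
    τ := tau
    dim := dim
    Q := qq
    E := mk (init_valid q Fz)
    comm := fun i j h => by
      by_cases hij : i = j
      · rw [hij]
      · exact Equiv.ext (ind fun _ hX =>
          (sound ((hX.tm i).tm j) ((hX.tm j).tm i) (rel_comm hX hij h)).symm)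
    braid := fun i j β h => Equiv.ext (ind fun _ hX =>
      (eqv_aux (eqv_braid hX h)).2 (((hX.tm i).tm j).tm i) (((hX.tm j).tm i).tm j))
    dim_E := init_dim Fz
    dim_off := fun _ => ind fun X _ m _ h => dimH_Tm_off X h m
    down := fun i => ind fun _ hX _ h => hX.down i h
    exh := ind fun _ hX => hX.exh
    Q_top := ind fun _ hX => hX.Q_top
    Q_le := ind fun _ hX => hX.Q_le
    I1 := fun i => ind fun _ hX _ h => hX.I1 i h
    I2 := fun i => ind fun _ hX _ h => hX.I2 i h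
    I3 := fun i => ind fun _ hX _ h => hX.I3 i h
    up := fun i => ind fun _ hX _ h => hX.up i h
    CS1 := ind fun _ hX => hX.CS1
    CS2 := ind fun _ hX => hX.CS2 }⟩⟩

end Vale.Agent.P203
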