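import Vale.Agent.P203.DGBasic

namespace Vale.Agent.P203

open Finset

variable {V Ar : Type} [DecidableEq V] [Fintype Ar] [DecidableEq Ar] {q : DQ V Ar}

namespace DGValid

variable {X : Raw V Ar} (hX : Valid q X)
include hX

omit [DecidableEq Ar] in
theorem fg_GB (i : V) (n : ℤ) : (GB q X i n).FG :=
  Submodule.fg_pi fun a => by
    split_ifs
    exacts [Module.Finite.iff_fg.1 (hX.fin _ _), Submodule.fg_bot]

omit [DecidableEq Ar] in
theorem fin_prod (i : V) (k : ℤ → ℤ) (j : V) (n : ℤ) : Module.Finite F2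
    (if j = i then (X.G i (k n)).prod (GB q X i n) else (X.G j n).prod ⊥ :
      Submodule F2 (X.M × (Ar → X.M))) := by
  refine Module.Finite.iff_fg.2 ?_
  split_ifs
  exacts [(Module.Finite.iff_fg.1 (hX.fin _ _)).prod (fg_GB hX i n),
    (Module.Finite.iff_fg.1 (hX.fin _ _)).prod Submodule.fg_bot]

omit [DecidableEq Ar] in
theorem bdd_prod (i : V) (k : ℤ → ℤ) (hk : ∀ n, n - 1 ≤ k n) : ∃ N : ℤ, ∀ j n, N < n →
    (if j = i then (X.G i (k n)).prod (GB q X i n) else (X.G j n).prod ⊥ :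
      Submodule F2 (X.M × (Ar → X.M))) = ⊥ := by
  obtain ⟨N, hN⟩ := hX.bdd
  refine ⟨N + 1, fun j n hn => ?_⟩
  have h1 := hk n
  simp only [GB, hN _ n (by omega), hN _ (k n) (by omega), ite_self, Submodule.prod_bot]
  have h2 : (Submodule.pi Set.univ fun _ : Ar => (⊥ : Submodule F2 X.M)) = ⊥ :=
    Submodule.pi_univ_bot
  rw [h2, Submodule.prod_bot, ite_self]

theorem d_sM {i : V} {n : ℤ} {p : X.M × (Ar → X.M)} (hp : p ∈ (Tm q X i).G i n) :
    X.d i (sM q X i p) = sM q X i ((Tm q X i).d i p) := by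
  rw [mem_Tm_self] at hp
  rw [Tm_d_self, sM_apply, sM_apply, map_add, map_add, hX.d_inn hp.2, hX.inn_out hp.1,
    add_comm (X.d i _) (X.t i _), add_assoc, add_add_cancel_F2]

theorem d_t {i : V} {n : ℤ} {y : X.M} (hy : y ∈ X.G i n) :
    (Tp q X i).d i (X.t i y, out q X i y) = (X.t i (X.d i y), out q X i (X.d i y)) := by
  rw [Tp_d_self, hX.inn_out hy, hX.dB_out hy, add_add_cancel_F2]

end DGValid

open DGValid

theorem Valid.tm {X : Raw V Ar} (hX : Valid q X) (i : V) : Valid q (Tm q X i) where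
  fin := fin_prod hX i (· + 1)
  bdd := bdd_prod hX i (· + 1) fun n => by omega
  d_mem j n p hp := by
    rcases eq_or_ne j i with rfl | h
    · erw [mem_Tm_self] at hp
      erw [Tm_d_self, mem_Tm_self]
      exact ⟨hX.d_mem _ _ _ hp.1, add_mem (hX.out_mem hp.1) (hX.dB_mem hp.2)⟩
    · erw [mem_Tm_ne q X h] at hp
      erw [Tm_d_ne q X h, mem_Tm_ne q X h]
      exact ⟨hX.d_mem _ _ _ hp.1, rfl⟩
  t_mem j n p hp := by
    rcases eq_or_ne j i with rfl | h
    · erw [mem_Tm_self] at hp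
      erw [Tm_t_self, mem_Tm_self]
      exact ⟨hX.sM_mem hp.1 hp.2, zero_mem _⟩
    · erw [mem_Tm_ne q X h] at hp
      erw [Tm_t_ne q X h, mem_Tm_ne q X h]
      exact ⟨hX.t_mem _ _ _ hp.1, rfl⟩
  ρ_mem a n p hp := by
    rcases eq_or_ne (q.tgt a) i with rfl | h
    · erw [mem_Tm_ne q X (q.tgt_ne_src a).symm] at hp
      erw [Tm_ρ_in q X rfl, mem_Tm_self]
      exact ⟨zero_mem _, single_mem_GB q X rfl hp.1⟩
    rcases eq_or_ne (q.src a) i with rfl | h'
    · erw [mem_Tm_self] at hp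
      erw [Tm_ρ_out q X rfl, mem_Tm_ne q X h]
      exact ⟨hX.ρ_mem _ _ _ (hX.sM_mem hp.1 hp.2), rfl⟩
    · erw [mem_Tm_ne q X h'] at hp
      erw [Tm_ρ_ne q X h h', mem_Tm_ne q X h]
      exact ⟨hX.ρ_mem _ _ _ hp.1, rfl⟩
  dd j n p hp := by
    rcases eq_or_ne j i with rfl | h
    · erw [mem_Tm_self] at hp
      erw [Tm_d_self, Tm_d_self, hX.dd _ _ _ hp.1, map_add, hX.dB_out hp.1, hX.dB_dB hp.2,
        add_add_cancel_F2]
      rfl
    · erw [mem_Tm_ne q X h] at hp
      erw [Tm_d_ne q X h, Tm_d_ne q X h, hX.dd _ _ _ hp.1]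
      rfl
  dρ a n p hp := by
    rcases eq_or_ne (q.tgt a) i with rfl | h
    · erw [Tm_ρ_in q X rfl, Tm_ρ_in q X rfl, Tm_d_self, Tm_d_ne q X (q.tgt_ne_src a).symm,
        dB_single, map_zero, map_zero, zero_add]
    rcases eq_or_ne (q.src a) i with rfl | h'
    · erw [Tm_ρ_out q X rfl, Tm_ρ_out q X rfl, Tm_d_ne q X h, ← d_sM hX hp]
      erw [mem_Tm_self] at hp
      erw [hX.dρ _ _ _ (hX.sM_mem hp.1 hp.2)]
    · erw [mem_Tm_ne q X h'] at hp
      erw [Tm_ρ_ne q X h h', Tm_ρ_ne q X h h', Tm_d_ne q X h, Tm_d_ne q X h', hX.dρ _ _ _ hp.1]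
  dt j n p hp := by
    rcases eq_or_ne j i with rfl | h
    · have h1 : ∀ a, (if q.tgt a = j then (Tm q X j).ρ a ((Tm q X j).ρ (q.star a) p) else 0) =
          LinearMap.inr F2 X.M _ (if q.tgt a = j then
            (Pi.single a (X.ρ (q.star a) (sM q X j p)) : Ar → X.M) else 0) := fun a => by
        split_ifs with ha
        · erw [Tm_ρ_in q X ha, Tm_ρ_out q X (a := q.star a) ha]
          rfl
        · rfl
      erw [sum_congr rfl fun a _ => h1 a, Tm_t_self, Tm_t_self, ← d_sM hX hp, Tm_d_self, map_zero]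
      refine Eq.trans ?_ (map_sum (LinearMap.inr F2 X.M (Ar → X.M)) _ _)
      erw [sum_single_out]
      exact Prod.ext (add_self_F2 _) ((add_zero _).trans (add_zero _))
    · have h1 : ∀ a, (if q.tgt a = j then (Tm q X i).ρ a ((Tm q X i).ρ (q.star a) p) else 0) =
          LinearMap.inl F2 X.M (Ar → X.M) (if q.tgt a = j then
            X.ρ a (X.ρ (q.star a) (p : X.M × (Ar → X.M)).1) else 0) := fun a => by
        split_ifs with ha
        · rcases eq_or_ne (q.src a) i with h' | h'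
          · have h2 := (q.tgt_star a).trans h'
            erw [Tm_ρ_in q X h2, Tm_ρ_out q X h', sM_apply, map_zero, zero_add, inn_single, if_pos h2]
            rfl
          · erw [Tm_ρ_ne q X (ha ▸ h) h', Tm_ρ_ne q X ((q.tgt_star a).trans_ne h')
              (ha.trans_ne h)]
            rfl
        · rfl
      erw [mem_Tm_ne q X h] at hp
      erw [sum_congr rfl fun a _ => h1 a, Tm_t_ne q X h, Tm_t_ne q X h, Tm_d_ne q X h, Tm_d_ne q X h]
      refine Eq.trans ?_ (map_sum (LinearMap.inl F2 X.M (Ar → X.M)) _ _)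
      erw [← hX.dt _ _ _ hp.1]
      exact Prod.ext rfl (add_zero _)

theorem Valid.tp {X : Raw V Ar} (hX : Valid q X) (i : V) : Valid q (Tp q X i) where
  fin := fin_prod hX i (· - 1)
  bdd := bdd_prod hX i (· - 1) fun _ => le_rfl
  d_mem j n p hp := by
    rcases eq_or_ne j i with rfl | h
    · erw [mem_Tp_self] at hp
      erw [Tp_d_self, mem_Tp_self, add_sub_cancel_right]
      have h1 := hX.d_mem _ _ _ hp.1
      erw [sub_add_cancel] at h1
      exact ⟨add_mem h1 (hX.inn_mem hp.2), hX.dB_mem hp.2⟩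
    · erw [mem_Tp_ne q X h] at hp
      erw [Tp_d_ne q X h, mem_Tp_ne q X h]
      exact ⟨hX.d_mem _ _ _ hp.1, rfl⟩
  t_mem j n p hp := by
    rcases eq_or_ne j i with rfl | h
    · erw [mem_Tp_self, add_sub_cancel_right] at hp
      erw [Tp_t_self, mem_Tp_self]
      exact ⟨hX.t_mem' hp.1, hX.out_mem hp.1⟩
    · erw [mem_Tp_ne q X h] at hp
      erw [Tp_t_ne q X h, mem_Tp_ne q X h]
      exact ⟨hX.t_mem _ _ _ hp.1, rfl⟩
  ρ_mem a n p hp := by
    rcases eq_or_ne (q.tgt a) i with rfl | h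
    · erw [mem_Tp_ne q X (q.tgt_ne_src a).symm] at hp
      erw [Tp_ρ_in q X rfl, mem_Tp_self]
      exact ⟨hX.t_mem' (hX.ρ_mem _ _ _ hp.1), hX.out_mem (hX.ρ_mem _ _ _ hp.1)⟩
    rcases eq_or_ne (q.src a) i with rfl | h'
    · erw [mem_Tp_self] at hp
      erw [Tp_ρ_out q X rfl, mem_Tp_ne q X h]
      exact ⟨((mem_GB q X _ n _).1 hp.2 (q.star a)).1 (q.tgt_star a), rfl⟩
    · erw [mem_Tp_ne q X h'] at hp
      erw [Tp_ρ_ne q X h h', mem_Tp_ne q X h]
      exact ⟨hX.ρ_mem _ _ _ hp.1, rfl⟩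
  dd j n p hp := by
    rcases eq_or_ne j i with rfl | h
    · erw [mem_Tp_self] at hp
      erw [Tp_d_self, Tp_d_self, map_add, hX.dd _ _ _ hp.1, hX.d_inn hp.2, hX.dB_dB hp.2,
        zero_add, add_self_F2]
      rfl
    · erw [mem_Tp_ne q X h] at hp
      erw [Tp_d_ne q X h, Tp_d_ne q X h, hX.dd _ _ _ hp.1]
      rfl
  dρ a n p hp := by
    rcases eq_or_ne (q.tgt a) i with rfl | h
    · erw [mem_Tp_ne q X (q.tgt_ne_src a).symm] at hp
      erw [Tp_ρ_in q X rfl, Tp_ρ_in q X rfl, d_t hX (hX.ρ_mem _ _ _ hp.1),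
        Tp_d_ne q X (q.tgt_ne_src a).symm, hX.dρ _ _ _ hp.1]
    rcases eq_or_ne (q.src a) i with rfl | h'
    · erw [Tp_ρ_out q X rfl, Tp_ρ_out q X rfl, Tp_d_ne q X h, Tp_d_self]
      rfl
    · erw [mem_Tp_ne q X h'] at hp
      erw [Tp_ρ_ne q X h h', Tp_ρ_ne q X h h', Tp_d_ne q X h, Tp_d_ne q X h', hX.dρ _ _ _ hp.1]
  dt j n p hp := by
    rcases eq_or_ne j i with rfl | h
    · have h1 : ∀ a, (if q.tgt a = j then (Tp q X j).ρ a ((Tp q X j).ρ (q.star a) p) else 0) =
          (X.t j).prod (out q X j) (if q.tgt a = j then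
            X.ρ a ((p : X.M × (Ar → X.M)).2 a) else 0) := fun a => by
        split_ifs with ha
        · erw [Tp_ρ_in q X ha, Tp_ρ_out q X (a := q.star a) ha, q.star_star]
          rfl
        · exact (map_zero _).symm
      erw [mem_Tp_self] at hp
      erw [sum_congr rfl fun a _ => h1 a, Tp_t_self, Tp_t_self, d_t hX hp.1, Tp_d_self, map_add,
        map_add]
      refine Eq.trans ?_ (map_sum ((X.t j).prod (out q X j)) _ _)
      erw [← inn_apply]
      exact Prod.ext (add_add_cancel_F2 _ _) (add_add_cancel_F2 _ _)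
    · have h1 : ∀ a, (if q.tgt a = j then (Tp q X i).ρ a ((Tp q X i).ρ (q.star a) p) else 0) =
          LinearMap.inl F2 X.M (Ar → X.M) (if q.tgt a = j then
            X.ρ a (X.ρ (q.star a) (p : X.M × (Ar → X.M)).1) else 0) := fun a => by
        split_ifs with ha
        · rcases eq_or_ne (q.src a) i with h' | h'
          · have h2 := (q.tgt_star a).trans h'
            erw [Tp_ρ_in q X h2, Tp_ρ_out q X h']
            dsimp only
            erw [out_apply, if_pos h2, q.star_star]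
            rfl
          · erw [Tp_ρ_ne q X (ha ▸ h) h', Tp_ρ_ne q X ((q.tgt_star a).trans_ne h')
              (ha.trans_ne h)]
            rfl
        · rfl
      erw [mem_Tp_ne q X h] at hp
      erw [sum_congr rfl fun a _ => h1 a, Tp_t_ne q X h, Tp_t_ne q X h, Tp_d_ne q X h, Tp_d_ne q X h]
      refine Eq.trans ?_ (map_sum (LinearMap.inl F2 X.M (Ar → X.M)) _ _)
      erw [← hX.dt _ _ _ hp.1]
      exact Prod.ext rfl (add_zero _)

end Vale.Agent.P203
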