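import Mathlib

namespace Vale.Agent.P203

/-- The geometric realization of the simplicial complex whose simplices are the finite subsets
of `A` whose elements are pairwise related by `r`: points are convex combinations of the
vertices of a simplex, written in barycentric coordinates. -/
def Rz {V : Type*} (r : V → V → Prop) (A : Set V) : Set (V → ℝ) :=
  {f | (Function.support f).Finite ∧ (∀ v, 0 ≤ f v) ∧ ∑ᶠ v, f v = 1 ∧ Function.support f ⊆ A ∧
    ∀ u ∈ Function.support f, ∀ v ∈ Function.support f, r u v}

variable {S W : Type} [Group W] {M : CoxeterMatrix S}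

/-- The standard parabolic subgroup `W_T`. -/
def par (cs : CoxeterSystem M W) (T : Finset S) : Subgroup W :=
  Subgroup.closure (cs.simple '' (T : Set S))

/-- `w` has minimal length in the coset `w W_T`. -/
def IsMinRep (cs : CoxeterSystem M W) (T : Finset S) (w : W) : Prop :=
  ∀ u ∈ par cs T, cs.length w ≤ cs.length (w * u)

/-- The order of the Salvetti poset: one has `u, T ≤ v, R` when `T ⊆ R`, `v⁻¹ u ∈ W_R` and `v⁻¹ u`
has minimal length in `v⁻¹ u W_T`. -/
def SalLE (cs : CoxeterSystem M W) (x y : W × Finset S) : Prop :=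
  x.2 ⊆ y.2 ∧ y.1⁻¹ * x.1 ∈ par cs y.2 ∧ IsMinRep cs x.2 (y.1⁻¹ * x.1)

/-- The realization of the order complex of the poset of pairs `u, T` with `W_T` finite. -/
def Sal (cs : CoxeterSystem M W) : Set (W × Finset S → ℝ) :=
  Rz (fun x y => SalLE cs x y ∨ SalLE cs y x) {x | Finite (par cs x.2)}

/-- The Salvetti complex `X(W,S)`: the quotient of `Sal` by the action
`w · (u, T) = (w u, T)` of `W`, with the quotient topology. -/
abbrev Salvetti (cs : CoxeterSystem M W) : Type :=
  Quot fun f g : Sal cs => ∃ w : W, ∀ u T, g.1 (w * u, T) = f.1 (u, T)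

end Vale.Agent.P203
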