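import Vale.Agent.P203.DGBasic

namespace Vale.Agent.P203

open Finset

variable {V Ar : Type} [DecidableEq V] [Fintype Ar] [DecidableEq Ar] {q : DQ V Ar}

variable {Fz : Finset V} {X : Type 1} (D : Mod q Fz X) {l : List V} {x : X} {n : ℤ}

/-- no arrow joins two members of the list -/
def Indep (q : DQ V Ar) (l : List V) : Prop := l.Nodup ∧ ∀ a, q.src a ∈ l → q.tgt a ∉ l

/-- the product of the mutations along a list -/
def Mod.TL (D : Mod q Fz X) (l : List V) : Equiv.Perm X := (l.map D.τ).prod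

namespace ModLAux

omit [DecidableEq V] [Fintype Ar] [DecidableEq Ar] in
theorem tail {i : V} (hl : Indep q (i :: l)) : Indep q l :=
  ⟨(List.nodup_cons.1 hl.1).2, fun a h h' => hl.2 a (List.mem_cons_of_mem _ h)
    (List.mem_cons_of_mem _ h')⟩

omit [DecidableEq V] [Fintype Ar] [DecidableEq Ar] in
theorem not_mem {i : V} (hl : Indep q (i :: l)) : i ∉ l := (List.nodup_cons.1 hl.1).1

omit [DecidableEq Ar] in
theorem TL_cons (i : V) : D.TL (i :: l) = D.τ i * D.TL l := by
  simp [Mod.TL]

omit [DecidableEq Ar] in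
theorem tcomm {i : V} (hl : Indep q (i :: l)) : Commute (D.τ i) (D.TL l) := by
  refine Commute.list_prod_right _ _ fun y hy => ?_
  obtain ⟨j, hj, rfl⟩ := List.mem_map.1 hy
  refine D.comm i j fun a h => hl.2 a ?_ ?_
  · rw [h.1]
    exact List.mem_cons_of_mem _ hj
  · rw [h.2]
    exact List.mem_cons_self

omit [DecidableEq Ar] in
theorem comm_apply {i : V} (hl : Indep q (i :: l)) (y : X) :
    D.τ i (D.TL l y) = D.TL l (D.τ i y) := by
  rw [← Equiv.Perm.mul_apply, (tcomm D hl).eq, Equiv.Perm.mul_apply]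

omit [DecidableEq Ar] in
theorem nb_congr (hl : Indep q l) {e e' : V → ℕ} (h : ∀ j, j ∉ l → e j = e' j) {i : V}
    (hi : i ∈ l) : nb q e i = nb q e' i := by
  refine sum_congr rfl fun a _ => ?_
  split_ifs with ha
  · exact h _ fun h' => hl.2 a h' (ha ▸ hi)
  · rfl

end ModLAux

open ModLAux

theorem Mod.TL_inv (hl : Indep q l) : (l.map fun i => (D.τ i)⁻¹).prod = (D.TL l)⁻¹ := by
  induction l with
  | nil => simp [Mod.TL]
  | cons i l ih =>
    rw [List.map_cons, List.prod_cons, ih (tail hl), TL_cons, (tcomm D hl).eq, mul_inv_rev]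

theorem Mod.dim_offL (m : ℤ) {j : V} (hj : j ∉ l) : D.dim (D.TL l x) m j = D.dim x m j := by
  induction l with
  | nil => rfl
  | cons i l ih =>
    rw [List.mem_cons, not_or] at hj
    rw [TL_cons, Equiv.Perm.mul_apply, D.dim_off _ _ _ _ hj.1, ih hj.2]

theorem Mod.downL (h : Le D.dim n x) : Le D.dim n (D.TL l x) := by
  induction l with
  | nil => exact h
  | cons i l ih =>
    rw [TL_cons, Equiv.Perm.mul_apply]
    exact D.down _ _ _ ih

theorem Mod.I1L (hl : Indep q l) (h : Le D.dim n x) : ∀ e ∈ D.Q x n, ∃ e' ∈ D.Q (D.TL l x) n,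
    (∀ j, j ∉ l → e' j = e j) ∧ ∀ i ∈ l, nb q e i ≤ e' i + e i := by
  induction l with
  | nil => exact fun e he => ⟨e, he, fun _ _ => rfl, fun _ hi => absurd hi List.not_mem_nil⟩
  | cons i l ih =>
    intro e he
    obtain ⟨e₁, h1, h2, h3⟩ := ih (tail hl) e he
    obtain ⟨e₂, h4, h5, h6⟩ := D.I1 i _ n (D.downL h) e₁ h1
    rw [TL_cons, Equiv.Perm.mul_apply]
    refine ⟨e₂, h4, fun j hj => ?_, fun j hj => ?_⟩
    · rw [List.mem_cons, not_or] at hj
      rw [h5 j hj.1, h2 j hj.2]
    · rcases List.mem_cons.1 hj with rfl | hj'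
      · rw [← h2 j (not_mem hl),
          ← nb_congr hl (fun k hk => h2 k fun hk' => hk (List.mem_cons_of_mem _ hk')) hj]
        exact h6
      · rw [h5 j fun hji => not_mem hl (hji ▸ hj')]
        exact h3 j hj'

theorem Mod.I2L (hl : Indep q l) (h : Le D.dim n x) : ∀ e' ∈ D.Q (D.TL l x) n, ∃ e ∈ D.Q x n,
    (∀ j, j ∉ l → e j = e' j) ∧ ∀ i ∈ l, e i + e' i ≤ nb q e' i := by
  induction l with
  | nil => exact fun e he => ⟨e, he, fun _ _ => rfl, fun _ hi => absurd hi List.not_mem_nil⟩
  | cons i l ih =>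
    intro e' he
    rw [TL_cons, Equiv.Perm.mul_apply] at he
    obtain ⟨e₁, h1, h2, h3⟩ := D.I2 i _ n (D.downL h) e' he
    obtain ⟨e, h4, h5, h6⟩ := ih (tail hl) e₁ h1
    refine ⟨e, h4, fun j hj => ?_, fun j hj => ?_⟩
    · rw [List.mem_cons, not_or] at hj
      rw [h5 j hj.2, h2 j hj.1]
    · rcases List.mem_cons.1 hj with rfl | hj'
      · rw [h5 j (not_mem hl)]
        exact h3
      · rw [← h2 j fun hji => not_mem hl (hji ▸ hj'),
          ← nb_congr hl (fun k hk => h2 k fun hk' => hk (hk' ▸ List.mem_cons_self)) hj]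
        exact h6 j hj'

theorem Mod.I3L (hl : Indep q l) (h : Le D.dim n x) :
    D.Q (D.TL l x) n ⊆ D.Q (D.TL l (D.TL l x)) n := by
  induction l generalizing x with
  | nil => exact subset_rfl
  | cons i l ih =>
    simp only [TL_cons, Equiv.Perm.mul_apply]
    have h1 := ih (tail hl) (D.down i x n h)
    have h2 := D.I3 i _ n (D.downL (l := l) (D.downL (l := l) h))
    rw [← comm_apply D hl x, ← comm_apply D hl] at h1
    rw [← comm_apply D hl (D.TL l x)]
    exact h1.trans h2

theorem Mod.upL (hl : Indep q l) (h : Le D.dim n x) :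
    Le D.dim n ((D.TL l)⁻¹ x) ↔ ∀ i ∈ l, Pi.single i 1 ∉ D.Q x n := by
  induction l generalizing x with
  | nil => simpa [Mod.TL] using h
  | cons i l ih =>
    rw [List.forall_mem_cons]
    constructor
    · intro H
      refine ⟨(D.up i x n h).1 ?_, (ih (tail hl) h).1 ?_⟩
      · have := D.downL (l := l) H
        rwa [TL_cons, mul_inv_rev, Equiv.Perm.mul_apply, ← Equiv.Perm.mul_apply (D.TL l),
          mul_inv_cancel, Equiv.Perm.one_apply] at this
      · have := D.down i _ n H
        rwa [TL_cons, (tcomm D hl).eq, mul_inv_rev, Equiv.Perm.mul_apply,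
          ← Equiv.Perm.mul_apply (D.τ i), mul_inv_cancel, Equiv.Perm.one_apply] at this
    · rintro ⟨h1, h2⟩
      have h3 := (D.up i x n h).2 h1
      rw [TL_cons, mul_inv_rev, Equiv.Perm.mul_apply]
      refine (ih (tail hl) h3).2 fun j hj hQ => ?_
      obtain ⟨e', h4, h5, -⟩ := D.I1 i _ n h3 _ hQ
      rw [← Equiv.Perm.mul_apply, mul_inv_cancel, Equiv.Perm.one_apply] at h4
      have hji : j ≠ i := fun hji => not_mem hl (hji ▸ hj)
      have hne : e' ≠ 0 := fun h0 => by
        have := h5 j hji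
        simp [h0] at this
      obtain ⟨y, h6, h7, h8, h9⟩ := D.CS1 x n e' h4 hne
      have hy : ∀ k, k ≠ i → k ≠ j → y k = 0 := fun k hk hk' => by
        have := h8 k
        rw [h5 k hk, Pi.single_eq_of_ne hk'] at this
        exact Nat.le_zero.1 this
      rcases h9 with ⟨k, rfl⟩ | h9
      · by_cases hk : k = i
        · exact h1 (hk ▸ h6)
        · by_cases hk' : k = j
          · exact h2 j hj (hk' ▸ h6)
          · simpa using hy k hk hk'
      · have hy' : ∀ k, k ∉ i :: l → y k = (0 : V → ℕ) k := fun k hk =>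
          hy k (fun h' => hk (h' ▸ List.mem_cons_self))
            fun h' => hk (h' ▸ List.mem_cons_of_mem _ hj)
        refine h7 (funext fun k => ?_)
        by_cases hk : k ∈ i :: l
        · have := h9 k
          rw [nb_congr hl hy' hk] at this
          simpa [nb] using this
        · exact hy' k hk

end Vale.Agent.P203
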