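import Vale.Agent.P203.TopDefs

namespace Vale.Agent.P203

open Set

variable {V : Type*} {r : V → V → Prop} {A B : Set V}

theorem Rz_mono {F F' : Set V} (h : F ⊆ F') : Rz r F ⊆ Rz r F' :=
  fun _ hx => ⟨hx.1, hx.2.1, hx.2.2.1, hx.2.2.2.1.trans h, hx.2.2.2.2⟩

open Classical in
theorem single_mem_Rz {v : V} (hr : r v v) (hv : v ∈ A) : (Pi.single v 1 : V → ℝ) ∈ Rz r A := by
  have hs : Function.support (Pi.single v 1 : V → ℝ) ⊆ {v} := Pi.support_single_subset
  refine ⟨(finite_singleton v).subset hs, fun u => ?_, ?_, hs.trans (singleton_subset_iff.2 hv), ?_⟩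
  · rw [Pi.single_apply]
    split_ifs <;> norm_num
  · rw [finsum_eq_single _ v fun x hx => Pi.single_eq_of_ne hx _, Pi.single_eq_same]
  · intro a ha b hb
    rw [mem_singleton_iff.1 (hs ha), mem_singleton_iff.1 (hs hb)]
    exact hr

theorem isCompact_Rz {F : Set V} (hF : F.Finite) : IsCompact (Rz r F) := by
  have e : Rz r F = (⋂ v, {f : V → ℝ | 0 ≤ f v}) ∩ {f | ∑ v ∈ hF.toFinset, f v = 1} ∩
      (⋂ v, ⋂ _ : v ∉ F, {f : V → ℝ | f v = 0}) ∩
      ⋂ u, ⋂ v, ⋂ _ : ¬ r u v, {f : V → ℝ | f u * f v = 0} := by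
    ext f
    simp only [mem_inter_iff, mem_iInter, mem_ofPred_eq]
    constructor
    · rintro ⟨-, h2, h3, h4, h5⟩
      refine ⟨⟨⟨h2, ?_⟩, fun v hv => ?_⟩, fun u v huv => ?_⟩
      · rw [← h3, finsum_eq_sum_of_support_subset (s := hF.toFinset) _ (by simpa using h4)]
      · by_contra h
        exact hv (h4 h)
      · by_contra h
        exact huv (h5 u (left_ne_zero_of_mul h) v (right_ne_zero_of_mul h))
    · rintro ⟨⟨⟨h2, h3⟩, h4⟩, h5⟩
      have h6 : Function.support f ⊆ F := fun v hv => by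
        by_contra h
        exact hv (h4 v h)
      refine ⟨hF.subset h6, h2, ?_, h6, fun u hu v hv => ?_⟩
      · rw [← h3, finsum_eq_sum_of_support_subset (s := hF.toFinset) _ (by simpa using h6)]
      · by_contra h
        exact mul_ne_zero hu hv (h5 u v h)
  have hc : IsClosed (Rz r F) := by
    rw [e]
    refine (((isClosed_iInter fun v => isClosed_le continuous_const (continuous_apply v)).inter
      (isClosed_eq (by fun_prop) continuous_const)).inter
      (isClosed_iInter fun v => isClosed_iInter fun _ =>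
        isClosed_eq (continuous_apply v) continuous_const)).inter
      (isClosed_iInter fun u => isClosed_iInter fun v => isClosed_iInter fun _ =>
        isClosed_eq (by fun_prop) continuous_const)
  refine (isCompact_univ_pi fun _ : V => (isCompact_Icc : IsCompact (Icc (0 : ℝ) 1))).of_isClosed_subset
    hc fun f hf v _ => ⟨hf.2.1 v, ?_⟩
  rw [← hf.2.2.1]
  exact single_le_finsum v hf.1 hf.2.1

namespace TopBasic

theorem comb_mem {x y : V → ℝ} (hx : x ∈ Rz r A) (hy : y ∈ Rz r A)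
    (hxy : ∀ u ∈ Function.support x, ∀ v ∈ Function.support y, r u v ∧ r v u) {t : ℝ}
    (ht : t ∈ Icc (0 : ℝ) 1) : (1 - t) • x + t • y ∈ Rz r A := by
  have hs : Function.support ((1 - t) • x + t • y) ⊆ Function.support x ∪ Function.support y := by
    intro v hv
    by_contra h
    simp only [mem_union, Function.mem_support, not_or, not_not] at h
    exact hv (by simp [h.1, h.2])
  refine ⟨(hx.1.union hy.1).subset hs, fun v => ?_, ?_,
    hs.trans (union_subset hx.2.2.2.1 hy.2.2.2.1), fun u hu v hv => ?_⟩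
  · exact add_nonneg (mul_nonneg (by linarith [ht.2]) (hx.2.1 v)) (mul_nonneg ht.1 (hy.2.1 v))
  · have hT := hx.1.union hy.1
    have e1 := hx.2.2.1
    have e2 := hy.2.2.1
    rw [finsum_eq_sum_of_support_subset (s := hT.toFinset) _ (by simp)] at e1 e2
    rw [finsum_eq_sum_of_support_subset (s := hT.toFinset) _ (by simpa using hs)]
    simp only [Pi.add_apply, Pi.smul_apply, smul_eq_mul, Finset.sum_add_distrib, ← Finset.mul_sum,
      e1, e2]
    ring
  · rcases hs hu with hu | hu <;> rcases hs hv with hv | hv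
    · exact hx.2.2.2.2 u hu v hv
    · exact (hxy u hu v hv).1
    · exact (hxy v hv u hu).2
    · exact hy.2.2.2.2 u hu v hv

theorem inter_mem {x : V → ℝ} (hx : x ∈ Rz r A) (hy : x ∈ Rz r B) : x ∈ Rz r (A ∩ B) :=
  ⟨hx.1, hx.2.1, hx.2.2.1, subset_inter hx.2.2.2.1 hy.2.2.2.1, hx.2.2.2.2⟩

theorem nonempty_of_mem {x : V → ℝ} (hx : x ∈ Rz r A) : A.Nonempty := by
  by_contra h
  have h0 := hx.2.2.2.1
  rw [not_nonempty_iff_eq_empty.1 h, subset_empty_iff, Function.support_eq_empty_iff] at h0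
  have h1 := hx.2.2.1
  rw [h0] at h1
  simp at h1

theorem cont_end {F F' : Set V} {H : (V → ℝ) × ℝ → V → ℝ} (h : Hty r F F' H) :
    ContinuousOn (fun x => H (x, 1)) (Rz r F) :=
  h.1.comp (by fun_prop) fun _ hx => ⟨hx, by norm_num⟩

theorem comp {F F₁ G G' : Set V} {H₁ H₂ : (V → ℝ) × ℝ → V → ℝ} (h₁ : Hty r F F₁ H₁)
    (h₂ : Hty r G G' H₂) (hG : ∀ x ∈ Rz r F, H₁ (x, 1) ∈ Rz r G) :
    ∃ H, Hty r F (F₁ ∪ G') H ∧ ∀ x ∈ Rz r F, H (x, 1) = H₂ (H₁ (x, 1), 1) := by
  have c0 : ContinuousOn (fun p : (V → ℝ) × ℝ => H₁ (p.1, 1)) (Rz r F ×ˢ Icc 0 1) :=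
    (cont_end h₁).comp continuousOn_fst fun _ hp => hp.1
  refine ⟨fun p => H₁ (p.1, min (2 * p.2) 1) + H₂ (H₁ (p.1, 1), max (2 * p.2 - 1) 0) - H₁ (p.1, 1),
    ⟨ContinuousOn.sub (ContinuousOn.add ?_ ?_) c0, fun x hx t ht => ?_, fun x hx => ?_⟩,
    fun x _ => ?_⟩
  · refine h₁.1.comp (f := fun p : (V → ℝ) × ℝ => (p.1, min (2 * p.2) 1)) (by fun_prop) ?_
    exact fun p hp => ⟨hp.1, le_min (by linarith [hp.2.1]) zero_le_one, min_le_right _ _⟩
  · refine h₂.1.comp (f := fun p : (V → ℝ) × ℝ => (H₁ (p.1, 1), max (2 * p.2 - 1) 0))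
      (c0.prodMk (by fun_prop)) ?_
    exact fun p hp => ⟨hG _ hp.1, le_max_right _ _, max_le (by linarith [hp.2.2]) zero_le_one⟩
  · rcases le_total t (1 / 2) with h | h
    · simp only
      rw [min_eq_left (by linarith), max_eq_right (by linarith), h₂.2.2 _ (hG x hx),
        add_sub_cancel_right]
      exact Rz_mono subset_union_left (h₁.2.1 x hx _ ⟨by linarith [ht.1], by linarith⟩)
    · simp only
      rw [min_eq_right (by linarith), max_eq_left (by linarith), add_sub_cancel_left]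
      exact Rz_mono subset_union_right (h₂.2.1 _ (hG x hx) _ ⟨by linarith, by linarith [ht.2]⟩)
  · simp only
    rw [min_eq_left (by norm_num), max_eq_right (by norm_num), h₂.2.2 _ (hG x hx),
      add_sub_cancel_right, mul_zero, h₁.2.2 x hx]
  · simp only
    rw [min_eq_right (by norm_num), max_eq_left (by norm_num), add_sub_cancel_left]
    norm_num

theorem nonempty_of_DR (hr : ∀ v, r v v) (h : DR r B A) (hA : A.Nonempty) : B.Nonempty := by
  obtain ⟨a, ha⟩ := hA
  obtain ⟨F', -, -, H, -, h2, -⟩ := h.2 {a} (singleton_subset_iff.2 ha) (finite_singleton a)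
  exact nonempty_of_mem (h2 _ (single_mem_Rz (hr a) (mem_singleton a)))

open Classical in
theorem path_const (hr : ∀ v, r v v) (hs : ∀ u v, r u v → r v u) {b₀ v : V} (hb : b₀ ∈ A)
    (h : Relation.ReflTransGen (fun x y => x ∈ A ∧ y ∈ A ∧ r x y) b₀ v) :
    ∃ F ⊆ A, F.Finite ∧ b₀ ∈ F ∧ v ∈ F ∧ ∀ φ : (V → ℝ) → ℝ, ContinuousOn φ (Rz r F) →
      (∀ z ∈ Rz r F, φ z = 0 ∨ φ z = 1) → φ (Pi.single b₀ 1) = φ (Pi.single v 1) := by
  induction h with
  | refl => exact ⟨{b₀}, singleton_subset_iff.2 hb, finite_singleton _, rfl, rfl, fun _ _ _ => rfl⟩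
  | @tail x y _ hxy ih =>
    obtain ⟨F, hFA, hF, h0, hx, hφ⟩ := ih
    refine ⟨insert y F, insert_subset hxy.2.1 hFA, hF.insert y, mem_insert_of_mem _ h0,
      mem_insert _ _, fun φ c hz => ?_⟩
    have hm : Rz r F ⊆ Rz r (insert y F) := Rz_mono (subset_insert _ _)
    rw [hφ φ (c.mono hm) fun z h => hz z (hm h)]
    have hseg : ∀ t ∈ Icc (0 : ℝ) 1, (1 - t) • (Pi.single x 1 : V → ℝ) +
        t • (Pi.single y 1 : V → ℝ) ∈ Rz r (insert y F) := by
      intro t ht
      refine comb_mem (single_mem_Rz (hr x) (mem_insert_of_mem _ hx))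
        (single_mem_Rz (hr y) (mem_insert _ _)) (fun u hu w hw => ?_) ht
      rw [mem_singleton_iff.1 (Pi.support_single_subset hu),
        mem_singleton_iff.1 (Pi.support_single_subset hw)]
      exact ⟨hxy.2.2, hs _ _ hxy.2.2⟩
    have cg : ContinuousOn (fun t : ℝ => φ ((1 - t) • (Pi.single x 1 : V → ℝ) +
        t • (Pi.single y 1 : V → ℝ))) (uIcc 0 1) := by
      rw [uIcc_of_le zero_le_one]
      exact c.comp (by fun_prop) hseg
    have iv := intermediate_value_uIcc cg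
    simp only [sub_zero, one_smul, zero_smul, add_zero, sub_self, zero_add] at iv
    by_contra hne
    have hx' := hz _ (single_mem_Rz (hr x) (mem_insert_of_mem y hx))
    have hy' := hz _ (single_mem_Rz (hr y) (mem_insert y F))
    have hh : (1 / 2 : ℝ) ∈ uIcc (φ (Pi.single x 1)) (φ (Pi.single y 1)) := by
      rcases hx' with h1 | h1 <;> rcases hy' with h2 | h2
      · exact absurd (h1.trans h2.symm) hne
      · rw [h1, h2, uIcc_of_le zero_le_one]
        constructor <;> norm_num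
      · rw [h1, h2, uIcc_of_ge zero_le_one]
        constructor <;> norm_num
      · exact absurd (h1.trans h2.symm) hne
    obtain ⟨t, ht, e⟩ := iv hh
    rw [uIcc_of_le zero_le_one] at ht
    rcases hz _ (hseg t ht) with h1 | h1
    · simp only [h1] at e
      norm_num at e
    · simp only [h1] at e
      norm_num at e

section Map

variable {V' : Type*} {r' : V' → V' → Prop} {φ : V → V'}

theorem finsum_comp (hφ : Function.Injective φ) {g : V' → ℝ} (hg : Function.support g ⊆ range φ) :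
    ∑ᶠ v, g (φ v) = ∑ᶠ v, g v := by
  rw [← finsum_mem_range hφ, finsum_mem_def, indicator_eq_self.2 hg]

theorem cont_pull : Continuous fun g : V' → ℝ => g ∘ φ :=
  continuous_pi fun v => continuous_apply (φ v)

theorem cont_push (hφ : Function.Injective φ) :
    Continuous fun f : V → ℝ => Function.extend φ f (0 : V' → ℝ) := by
  refine continuous_pi fun w => ?_
  by_cases h : ∃ v, φ v = w
  · obtain ⟨v, rfl⟩ := h
    simp only [hφ.extend_apply]
    exact continuous_apply v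
  · simp only [Function.extend_apply' _ _ _ h]
    exact continuous_const

theorem pull_push (hφ : Function.Injective φ) (f : V → ℝ) :
    Function.extend φ f (0 : V' → ℝ) ∘ φ = f := by
  funext v
  exact hφ.extend_apply _ _ v

theorem push_pull (hφ : Function.Injective φ) {g : V' → ℝ} (hg : Function.support g ⊆ range φ) :
    Function.extend φ (g ∘ φ) (0 : V' → ℝ) = g := by
  funext w
  by_cases h : ∃ v, φ v = w
  · obtain ⟨v, rfl⟩ := h
    exact hφ.extend_apply _ _ v
  · rw [Function.extend_apply' _ _ _ h]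
    by_contra h'
    exact h (hg (Ne.symm h'))

theorem pull_mem (hφ : Function.Injective φ) (h : ∀ a b, r' (φ a) (φ b) ↔ r a b) {G : Set V'}
    (hG : G ⊆ range φ) {g : V' → ℝ} (hg : g ∈ Rz r' G) : g ∘ φ ∈ Rz r (φ ⁻¹' G) := by
  refine ⟨hg.1.preimage hφ.injOn, fun v => hg.2.1 _, ?_, fun v hv => hg.2.2.2.1 hv,
    fun u hu v hv => (h u v).1 (hg.2.2.2.2 _ hu _ hv)⟩
  rw [← hg.2.2.1]
  exact finsum_comp hφ (hg.2.2.2.1.trans hG)

theorem push_mem (hφ : Function.Injective φ) (h : ∀ a b, r' (φ a) (φ b) ↔ r a b) {F : Set V}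
    {f : V → ℝ} (hf : f ∈ Rz r F) : Function.extend φ f (0 : V' → ℝ) ∈ Rz r' (φ '' F) := by
  have hs : Function.support (Function.extend φ f (0 : V' → ℝ)) ⊆ φ '' Function.support f :=
    Function.support_extend_zero_subset
  refine ⟨(hf.1.image φ).subset hs, fun w => ?_, ?_, hs.trans (image_mono hf.2.2.2.1), ?_⟩
  · by_cases h : ∃ v, φ v = w
    · obtain ⟨v, rfl⟩ := h
      rw [hφ.extend_apply]
      exact hf.2.1 v
    · rw [Function.extend_apply' _ _ _ h]
      exact le_rfl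
  · rw [← finsum_comp hφ (hs.trans (image_subset_range _ _)), ← hf.2.2.1]
    simp only [hφ.extend_apply]
  · intro u hu v hv
    obtain ⟨a, ha, rfl⟩ := hs hu
    obtain ⟨b, hb, rfl⟩ := hs hv
    exact (h a b).2 (hf.2.2.2.2 a ha b hb)

end Map

end TopBasic

open TopBasic

theorem contr_cone (hs : ∀ u v, r u v → r v u) {c : V} (hc : c ∈ A) (h : ∀ a ∈ A, r a c) :
    Contr r A := by
  classical
  refine ⟨⟨c, hc⟩, fun F hFA hF => ⟨insert c F, insert_subset hc hFA, hF.insert c,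
    fun p => (1 - p.2) • p.1 + p.2 • (Pi.single c 1 : V → ℝ), Pi.single c 1,
    ⟨by fun_prop, fun x hx t ht => ?_, fun x _ => by simp⟩, fun x _ => by simp⟩⟩
  refine comb_mem (Rz_mono (subset_insert _ _) hx) (single_mem_Rz (h c hc) (mem_insert _ _))
    (fun u hu v hv => ?_) ht
  rw [mem_singleton_iff.1 (Pi.support_single_subset hv)]
  have := h u (hFA (hx.2.2.2.1 hu))
  exact ⟨this, hs _ _ this⟩

theorem DR.contr_up (h : DR r B A) (hB : Contr r B) : Contr r A := by
  refine ⟨hB.1.mono h.1, fun F hFA hF => ?_⟩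
  obtain ⟨F₁, h1, f1, H₁, t1, e1, -⟩ := h.2 F hFA hF
  obtain ⟨F₂, h2, f2, H₂, c, t2, e2⟩ := hB.2 (F₁ ∩ B) inter_subset_right (f1.inter_of_left _)
  have hG : ∀ x ∈ Rz r F, H₁ (x, 1) ∈ Rz r (F₁ ∩ B) := fun x hx =>
    inter_mem (t1.2.1 x hx 1 (by norm_num)) (e1 x hx)
  obtain ⟨H, t, e⟩ := comp t1 t2 hG
  exact ⟨F₁ ∪ F₂, union_subset h1 (h2.trans h.1), f1.union f2, H, c, t,
    fun x hx => (e x hx).trans (e2 _ (hG x hx))⟩

theorem DR.contr_down (hr : ∀ v, r v v) (h : DR r B A) (hA : Contr r A) : Contr r B := by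
  refine ⟨nonempty_of_DR hr h hA.1, fun F hFB hF => ?_⟩
  obtain ⟨F₁, h1, f1, K, c, t1, e1⟩ := hA.2 F (hFB.trans h.1) hF
  obtain ⟨F₂, -, f2, H, t2, e2, e3⟩ := h.2 (F₁ ∪ F) (union_subset h1 (hFB.trans h.1)) (f1.union hF)
  have hK : ∀ x ∈ Rz r F, ∀ t ∈ Icc (0 : ℝ) 1, K (x, t) ∈ Rz r (F₁ ∪ F) := fun x hx t ht =>
    Rz_mono subset_union_left (t1.2.1 x hx t ht)
  refine ⟨F₂ ∩ B, inter_subset_right, f2.inter_of_left _, fun p => H (K p, 1), H (c, 1),
    ⟨(cont_end t2).comp t1.1 fun p hp => hK p.1 hp.1 p.2 hp.2, fun x hx t ht => ?_,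
      fun x hx => ?_⟩, fun x hx => ?_⟩
  · exact inter_mem (t2.2.1 _ (hK x hx t ht) 1 (by norm_num)) (e2 _ (hK x hx t ht))
  · simp only
    rw [t1.2.2 x hx]
    exact e3 x (Rz_mono (subset_inter subset_union_right hFB) hx) 1 (by norm_num)
  · simp only
    rw [e1 x hx]

theorem DR.eq_empty (hr : ∀ v, r v v) (h : DR r ∅ A) : A = ∅ := by
  by_contra hA
  exact not_nonempty_empty (nonempty_of_DR hr h (nonempty_iff_ne_empty.2 hA))

theorem DR.contr_of_isolated (hr : ∀ v, r v v) (hs : ∀ u v, r u v → r v u) (h : DR r B A) {b₀ : V}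
    (hb : b₀ ∈ B) (hiso : ∀ b ∈ B, r b b₀ → b = b₀)
    (hconn : ∀ v ∈ A, Relation.ReflTransGen (fun x y => x ∈ A ∧ y ∈ A ∧ r x y) b₀ v) :
    Contr r A := by
  classical
  refine h.contr_up (contr_cone hs hb fun v hv => ?_)
  obtain ⟨F, hFA, hF, h0, hvF, hφ⟩ := path_const hr hs (h.1 hb) (hconn v (h.1 hv))
  obtain ⟨F', -, -, H, t, e1, e2⟩ := h.2 F hFA hF
  have key := hφ (fun z => H (z, 1) b₀) ((continuous_apply b₀).comp_continuousOn (cont_end t)) (by
    intro z hz
    have hm := e1 z hz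
    by_cases h0 : H (z, 1) b₀ = 0
    · exact Or.inl h0
    · refine Or.inr ?_
      refine (finsum_eq_single _ b₀ fun x hx => ?_).symm.trans hm.2.2.1
      by_contra h1
      exact hx (hiso x (hm.2.2.2.1 h1) (hm.2.2.2.2 x h1 b₀ h0)))
  rw [e2 _ (single_mem_Rz (hr b₀) ⟨h0, hb⟩) 1 (by norm_num),
    e2 _ (single_mem_Rz (hr v) ⟨hvF, hv⟩) 1 (by norm_num), Pi.single_eq_same] at key
  have : b₀ = v := by
    by_contra hne
    rw [Pi.single_eq_of_ne hne] at key
    exact one_ne_zero key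
  rw [this]
  exact hr v

theorem contr_map_iff {V' : Type*} {r' : V' → V' → Prop} {φ : V → V'} (hφ : Function.Injective φ)
    (h : ∀ a b, r' (φ a) (φ b) ↔ r a b) : Contr r' (φ '' A) ↔ Contr r A := by
  constructor
  · intro hA
    refine ⟨image_nonempty.1 hA.1, fun F hFA hF => ?_⟩
    obtain ⟨G, h1, f1, H, c, t, e⟩ := hA.2 (φ '' F) (image_mono hFA) (hF.image φ)
    have hG : G ⊆ range φ := h1.trans (image_subset_range _ _)
    refine ⟨φ ⁻¹' G, fun v hv => hφ.mem_set_image.1 (h1 hv), f1.preimage hφ.injOn,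
      fun p => H (Function.extend φ p.1 0, p.2) ∘ φ, c ∘ φ, ⟨?_, fun x hx s hs => ?_,
        fun x hx => ?_⟩, fun x hx => ?_⟩
    · refine cont_pull.comp_continuousOn (t.1.comp
        (f := fun p : (V → ℝ) × ℝ => (Function.extend φ p.1 (0 : V' → ℝ), p.2))
        (((cont_push hφ).comp continuous_fst).prodMk continuous_snd).continuousOn ?_)
      exact fun p hp => ⟨push_mem hφ h hp.1, hp.2⟩
    · exact pull_mem hφ h hG (t.2.1 _ (push_mem hφ h hx) s hs)
    · simp only
      rw [t.2.2 _ (push_mem hφ h hx), pull_push hφ]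
    · simp only
      rw [e _ (push_mem hφ h hx)]
  · intro hA
    refine ⟨hA.1.image φ, fun G hGA hG => ?_⟩
    have hG' : G ⊆ range φ := hGA.trans (image_subset_range _ _)
    obtain ⟨F, h1, f1, H, c, t, e⟩ := hA.2 (φ ⁻¹' G) (fun v hv => hφ.mem_set_image.1 (hGA hv))
      (hG.preimage hφ.injOn)
    refine ⟨φ '' F, image_mono h1, f1.image φ,
      fun p => Function.extend φ (H (p.1 ∘ φ, p.2)) 0, Function.extend φ c 0,
      ⟨?_, fun x hx s hs => ?_, fun x hx => ?_⟩, fun x hx => ?_⟩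
    · refine (cont_push hφ).comp_continuousOn (t.1.comp
        (f := fun p : (V' → ℝ) × ℝ => (p.1 ∘ φ, p.2))
        ((cont_pull.comp continuous_fst).prodMk continuous_snd).continuousOn ?_)
      exact fun p hp => ⟨pull_mem hφ h hG' hp.1, hp.2⟩
    · exact push_mem hφ h (t.2.1 _ (pull_mem hφ h hG' hx) s hs)
    · simp only
      rw [t.2.2 _ (pull_mem hφ h hG' hx), push_pull hφ (hx.2.2.2.1.trans hG')]
    · simp only
      rw [e _ (pull_mem hφ h hG' hx)]

end Vale.Agent.P203
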