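import Vale.Agent.P203.Defs

namespace Vale.Agent.P203

open Set

variable {V : Type*}

/-- `H` is a homotopy starting at the inclusion, defined on the realization of `F`, with values
in the realization of `F'`. -/
def Hty (r : V → V → Prop) (F F' : Set V) (H : (V → ℝ) × ℝ → V → ℝ) : Prop :=
  ContinuousOn H (Rz r F ×ˢ Icc 0 1) ∧
    (∀ x ∈ Rz r F, ∀ t ∈ Icc (0 : ℝ) 1, H (x, t) ∈ Rz r F') ∧ ∀ x ∈ Rz r F, H (x, 0) = x

/-- The full subcomplex on `A` is contractible, with finite carriers. -/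
def Contr (r : V → V → Prop) (A : Set V) : Prop :=
  A.Nonempty ∧ ∀ F ⊆ A, F.Finite → ∃ F' ⊆ A, F'.Finite ∧ ∃ H c, Hty r F F' H ∧
    ∀ x ∈ Rz r F, H (x, 1) = c

/-- The full subcomplex on `A` deformation retracts to the one on `B`, with finite carriers. -/
def DR (r : V → V → Prop) (B A : Set V) : Prop :=
  B ⊆ A ∧ ∀ F ⊆ A, F.Finite → ∃ F' ⊆ A, F'.Finite ∧ ∃ H, Hty r F F' H ∧
    (∀ x ∈ Rz r F, H (x, 1) ∈ Rz r B) ∧ ∀ x ∈ Rz r (F ∩ B), ∀ t ∈ Icc (0 : ℝ) 1, H (x, t) = x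

end Vale.Agent.P203
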