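import Vale.Agent.P203.TopPush

namespace Vale.Agent.P203

open Set

variable {V : Type*} {r : V → V → Prop} {A B : Set V}

namespace TopMorse

/-- Concatenation of two homotopies. -/
noncomputable def conc (H₁ H₂ : (V → ℝ) × ℝ → V → ℝ) (p : (V → ℝ) × ℝ) : V → ℝ :=
  if p.2 ≤ 1 / 2 then H₁ (p.1, 2 * p.2) else H₂ (H₁ (p.1, 1), 2 * p.2 - 1)

theorem conc_one (H₁ H₂ : (V → ℝ) × ℝ → V → ℝ) (x : V → ℝ) :
    conc H₁ H₂ (x, 1) = H₂ (H₁ (x, 1), 1) := by
  rw [conc, if_neg (by norm_num)]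
  norm_num

theorem conc_fix {H₁ H₂ : (V → ℝ) × ℝ → V → ℝ} {x : V → ℝ}
    (h₁ : ∀ t ∈ Icc (0 : ℝ) 1, H₁ (x, t) = x) (h₂ : ∀ t ∈ Icc (0 : ℝ) 1, H₂ (x, t) = x) :
    ∀ t ∈ Icc (0 : ℝ) 1, conc H₁ H₂ (x, t) = x := by
  intro t ht
  unfold conc
  split_ifs with h
  · exact h₁ _ ⟨by linarith [ht.1], by linarith⟩
  · rw [h₁ 1 ⟨zero_le_one, le_rfl⟩]
    exact h₂ _ ⟨by linarith [not_le.1 h], by linarith [ht.2]⟩

theorem hty_conc {F F' F₁ F₂ : Set V} {H₁ H₂ : (V → ℝ) × ℝ → V → ℝ} (h₁ : Hty r F F' H₁)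
    (he : ∀ x ∈ Rz r F, H₁ (x, 1) ∈ Rz r F₁) (h₂ : Hty r F₁ F₂ H₂) :
    Hty r F (F' ∪ F₂) (conc H₁ H₂) := by
  refine ⟨?_, fun x hx t ht => ?_, fun x hx => ?_⟩
  · have c₁ : ContinuousOn (fun p : (V → ℝ) × ℝ => H₁ (p.1, 2 * p.2))
        (Rz r F ×ˢ Icc 0 1 ∩ closure {p : (V → ℝ) × ℝ | p.2 ≤ 1 / 2}) := by
      rw [(isClosed_le continuous_snd continuous_const).closure_eq]
      refine h₁.1.comp (by fun_prop) fun p hp => ⟨hp.1.1, ?_, ?_⟩
      · show 0 ≤ 2 * p.2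
        linarith [hp.1.2.1]
      · show 2 * p.2 ≤ 1
        linarith [show p.2 ≤ 1 / 2 from hp.2]
    have hcl : closure {p : (V → ℝ) × ℝ | ¬ p.2 ≤ 1 / 2} ⊆ {p | 1 / 2 ≤ p.2} :=
      closure_minimal (fun p hp => (not_le.1 hp).le) (isClosed_le continuous_const continuous_snd)
    have c₂ : ContinuousOn (fun p : (V → ℝ) × ℝ => H₂ (H₁ (p.1, 1), 2 * p.2 - 1))
        (Rz r F ×ˢ Icc 0 1 ∩ closure {p : (V → ℝ) × ℝ | ¬ p.2 ≤ 1 / 2}) := by
      have c₃ : ContinuousOn (fun p : (V → ℝ) × ℝ => H₁ (p.1, 1))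
          (Rz r F ×ˢ Icc 0 1 ∩ closure {p : (V → ℝ) × ℝ | ¬ p.2 ≤ 1 / 2}) :=
        h₁.1.comp (by fun_prop) fun p hp => ⟨hp.1.1, zero_le_one, le_rfl⟩
      refine h₂.1.comp (c₃.prodMk (by fun_prop)) fun p hp => ⟨he _ hp.1.1, ?_, ?_⟩
      · show 0 ≤ 2 * p.2 - 1
        linarith [show 1 / 2 ≤ p.2 from hcl hp.2]
      · show 2 * p.2 - 1 ≤ 1
        linarith [hp.1.2.2]
    refine ContinuousOn.if (p := fun p : (V → ℝ) × ℝ => p.2 ≤ 1 / 2) (fun p hp => ?_) c₁ c₂
    have h2 : p.2 = 1 / 2 := frontier_le_subset_eq continuous_snd continuous_const hp.2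
    rw [h2, show (2 : ℝ) * (1 / 2) = 1 by norm_num, sub_self]
    exact (h₂.2.2 _ (he _ hp.1.1)).symm
  · unfold conc
    split_ifs with h
    · exact Rz_mono subset_union_left (h₁.2.1 x hx _ ⟨by linarith [ht.1], by linarith⟩)
    · exact Rz_mono subset_union_right
        (h₂.2.1 _ (he x hx) _ ⟨by linarith [not_le.1 h], by linarith [ht.2]⟩)
  · rw [conc, if_pos (by norm_num), mul_zero]
    exact h₁.2.2 x hx

theorem exists_max {lt : V → V → Prop} (wf : WellFounded lt) {S : Set V} (hS : S.Finite)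
    (hne : S.Nonempty) : ∃ v ∈ S, ∀ u ∈ S, ¬ lt v u := by
  have := hS.to_subtype
  have hw := wf.transGen
  let q : S → S → Prop := fun a b => Relation.TransGen lt b a
  have : IsTrans S q := ⟨fun _ _ _ h h' => h'.trans h⟩
  have : Std.Irrefl q := ⟨fun a => hw.irrefl.irrefl a.1⟩
  obtain ⟨v, hv⟩ := hne
  obtain ⟨m, -, hm⟩ := (Finite.wellFounded_of_trans_of_irrefl q).has_min univ ⟨⟨v, hv⟩, trivial⟩
  exact ⟨m, m.2, fun u hu h => hm ⟨u, hu⟩ trivial (Relation.TransGen.single h)⟩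

theorem cut {lt : V → V → Prop} {S S' : Finset V} {v : V} (hv : v ∈ S) (hv' : v ∉ S')
    (h1 : ∀ u ∈ S, u ≠ v → u ∈ S') (h2 : ∀ u ∈ S', u ∉ S → lt u v) :
    Relation.CutExpand lt S'.val S.val := by
  classical
  refine ⟨(S' \ S).val, v, fun u hu => ?_, ?_⟩
  · have := Finset.mem_sdiff.1 (show u ∈ S' \ S from hu)
    exact h2 u this.1 this.2
  · ext u
    simp only [Multiset.count_add, Multiset.count_singleton,
      Multiset.count_eq_of_nodup (Finset.nodup _), Finset.mem_val, Finset.mem_sdiff]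
    by_cases huv : u = v
    · subst huv
      simp [hv, hv']
    · by_cases hu : u ∈ S
      · simp [huv, hu, h1 u hu huv]
      · simp [huv, hu]

theorem DR_insert (hr : ∀ v, r v v) (hs : ∀ u v, r u v → r v u) {v : V} (hv : v ∉ B)
    (hL : Contr r {u ∈ B | r u v}) : DR r B (insert v B) := by
  refine ⟨subset_insert _ _, fun F hF hfin => ?_⟩
  obtain ⟨L', hL', hL'f, H, hH, h1, h2⟩ := push hr hs hL
    (fun u hu => ⟨hu.2, fun h => hv (h ▸ hu.1)⟩) hfin
    fun u hu huv hruv => ⟨(hF hu).resolve_left huv, hruv⟩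
  refine ⟨F ∪ L', union_subset hF fun u hu => Or.inr (hL' hu).1, hfin.union hL'f, H, hH,
    fun x hx => Rz_mono ?_ (h1 x hx), fun x hx => h2 x (Rz_mono ?_ hx)⟩
  · exact union_subset (fun u hu => (hF hu.1).resolve_left hu.2) fun u hu => (hL' hu).1
  · exact fun u hu => ⟨hu.1, fun h => hv (mem_singleton_iff.1 h ▸ hu.2)⟩

end TopMorse

open _root_.Vale.Agent.P203.TopMorse

theorem morse (hr : ∀ v, r v v) (hs : ∀ u v, r u v → r v u) {lt : V → V → Prop}
    (wf : WellFounded lt) (hBA : B ⊆ A)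
    (tot : ∀ u ∈ A, ∀ v ∈ A, u ≠ v → r u v → lt u v ∨ lt v u)
    (closed : ∀ v ∈ B, ∀ u ∈ A, r u v → lt u v → u ∈ B)
    (link : ∀ v ∈ A, v ∉ B → Contr r {u ∈ A | r u v ∧ lt u v}) : DR r B A := by
  refine ⟨hBA, ?_⟩
  suffices key : ∀ S : Finset V, ∀ F ⊆ A, F.Finite → F \ B = S → ∃ F' ⊆ A, F'.Finite ∧ ∃ H,
      Hty r F F' H ∧ (∀ x ∈ Rz r F, H (x, 1) ∈ Rz r B) ∧
        ∀ x ∈ Rz r (F ∩ B), ∀ t ∈ Icc (0 : ℝ) 1, H (x, t) = x from
    fun F hF hfin => key (hfin.subset sdiff_subset).toFinset F hF hfin (Finite.coe_toFinset _).symm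
  intro S
  induction S using (InvImage.wf Finset.val wf.cutExpand).induction with
  | h S ih =>
    intro F hF hfin hS
    rcases (F \ B).eq_empty_or_nonempty with he | hne
    · exact ⟨F, hF, hfin, Prod.fst, ⟨continuousOn_fst, fun x hx _ _ => hx, fun _ _ => rfl⟩,
        fun x hx => Rz_mono (sdiff_eq_empty.1 he) hx, fun _ _ _ _ => rfl⟩
    obtain ⟨v, hv, hmax⟩ := exists_max wf (hfin.subset sdiff_subset) hne
    have hirr : ∀ u, lt u v → u ≠ v := fun u hu h => wf.irrefl.irrefl v (h ▸ hu)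
    obtain ⟨L', hL', hL'f, H₁, hH₁, h1, h2⟩ := push hr hs (link v (hF hv.1) hv.2)
      (fun u hu => ⟨hu.2.1, hirr u hu.2.2⟩) hfin fun u hu huv hruv => by
        refine ⟨hF hu, hruv, (tot u (hF hu) v (hF hv.1) huv hruv).resolve_right fun h => ?_⟩
        by_cases hB : u ∈ B
        · exact hv.2 (closed u hB v (hF hv.1) (hs _ _ hruv) h)
        · exact hmax u ⟨hu, hB⟩ h
    have hL'A : L' ⊆ A := fun u hu => (hL' hu).1
    have hfin₁ : ((F \ {v}) ∪ L').Finite := (hfin.subset sdiff_subset).union hL'f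
    have hmem : ∀ u, u ∈ S ↔ u ∈ F \ B := fun u => by rw [hS, Finset.mem_coe]
    obtain ⟨F₂, hF₂, hfin₂, H₂, hH₂, h3, h4⟩ :=
      ih (hfin₁.subset (sdiff_subset (t := B))).toFinset
        (cut ((hmem v).2 hv)
          (fun h => by
            rcases ((Finite.mem_toFinset _).1 h).1 with h | h
            · exact h.2 rfl
            · exact hirr v (hL' h).2.2 rfl)
          (fun u hu huv => (Finite.mem_toFinset _).2
            ⟨Or.inl ⟨((hmem u).1 hu).1, huv⟩, ((hmem u).1 hu).2⟩)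
          fun u hu hu' => by
            obtain ⟨h | h, hB⟩ := (Finite.mem_toFinset _).1 hu
            · exact absurd ((hmem u).2 ⟨h.1, hB⟩) hu'
            · exact (hL' h).2.2)
        ((F \ {v}) ∪ L') (union_subset (sdiff_subset.trans hF) hL'A) hfin₁
        (Finite.coe_toFinset _).symm
    refine ⟨(F ∪ L') ∪ F₂, union_subset (union_subset hF hL'A) hF₂,
      (hfin.union hL'f).union hfin₂, conc H₁ H₂, hty_conc hH₁ h1 hH₂, fun x hx => ?_,
      fun x hx => conc_fix (h2 x (Rz_mono ?_ hx)) (h4 x (Rz_mono ?_ hx))⟩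
    · rw [conc_one]
      exact h3 _ (h1 x hx)
    · exact fun u hu => ⟨hu.1, fun h => hv.2 (mem_singleton_iff.1 h ▸ hu.2)⟩
    · exact fun u hu => ⟨Or.inl ⟨hu.1, fun h => hv.2 (mem_singleton_iff.1 h ▸ hu.2)⟩, hu.2⟩

theorem contr_or_empty (hr : ∀ v, r v v) (hs : ∀ u v, r u v → r v u) {lt : V → V → Prop}
    (wf : WellFounded lt)
    (tot : ∀ u ∈ A, ∀ v ∈ A, u ≠ v → r u v → lt u v ∨ lt v u)
    (link : ∀ v ∈ A, Contr r {u ∈ A | r u v ∧ lt u v} ∨ {u ∈ A | r u v ∧ lt u v} = ∅)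
    (uniq : ∀ v ∈ A, ∀ v' ∈ A, {u ∈ A | r u v ∧ lt u v} = ∅ → {u ∈ A | r u v' ∧ lt u v'} = ∅ →
      v = v') : Contr r A ∨ A = ∅ := by
  have hD : DR r {v ∈ A | {u ∈ A | r u v ∧ lt u v} = ∅} A :=
    morse hr hs wf (fun v hv => hv.1) tot
      (fun v hv u hu h1 h2 => absurd (hv.2 ▸ (⟨hu, h1, h2⟩ : u ∈ {u ∈ A | r u v ∧ lt u v}))
        (notMem_empty u))
      fun v hv hv' => (link v hv).resolve_right fun h => hv' ⟨hv, h⟩
  rcases {v ∈ A | {u ∈ A | r u v ∧ lt u v} = ∅}.eq_empty_or_nonempty with he | ⟨b, hb⟩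
  · rw [he] at hD
    exact Or.inr (hD.eq_empty hr)
  · refine Or.inl (hD.contr_up (contr_cone hs hb fun a ha => ?_))
    rw [uniq a ha.1 b hb.1 ha.2 hb.2]
    exact hr b

theorem contr_of_directed (hA : A.Nonempty)
    (h : ∀ F ⊆ A, F.Finite → ∃ C, F ⊆ C ∧ C ⊆ A ∧ Contr r C) : Contr r A := by
  refine ⟨hA, fun F hF hfin => ?_⟩
  obtain ⟨C, h1, h2, h3⟩ := h F hF hfin
  obtain ⟨F', hF', h4⟩ := h3.2 F h1 hfin
  exact ⟨F', hF'.trans h2, h4⟩

theorem contr_join (hr : ∀ v, r v v) (hs : ∀ u v, r u v → r v u) (hA : Contr r A)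
    (h : ∀ a ∈ A, ∀ b ∈ B, r a b) : Contr r (A ∪ B) := by
  have key : ∀ C : Set V, C.Finite → C ⊆ B → ∀ C' ⊆ C, Contr r (A ∪ C') := by
    intro C hC
    induction C, hC using Set.Finite.induction_on with
    | empty =>
      intro _ C' hC'
      rwa [subset_empty_iff.1 hC', union_empty]
    | @insert b C _ _ ih =>
      intro hB C' hC'
      have ih' := ih ((subset_insert _ _).trans hB)
      have hsub : C' \ {b} ⊆ C := fun u hu => (hC' hu.1).resolve_left hu.2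
      by_cases hb : b ∈ C'
      · by_cases hbA : b ∈ A
        · have : A ∪ C' = A ∪ (C' \ {b}) := by
            ext u
            by_cases hu : u = b
            · simp [hu, hbA]
            · simp [hu]
          rw [this]
          exact ih' _ hsub
        · have e1 : A ∪ C' = insert b (A ∪ (C' \ {b})) := by
            ext u
            by_cases hu : u = b
            · simp [hu, hb]
            · simp [hu]
          have e2 : {u ∈ A ∪ (C' \ {b}) | r u b} = A ∪ {u ∈ C' \ {b} | r u b} := by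
            ext u
            constructor
            · rintro ⟨hu | hu, hub⟩
              · exact Or.inl hu
              · exact Or.inr ⟨hu, hub⟩
            · rintro (hu | hu)
              · exact ⟨Or.inl hu, h u hu b (hB (mem_insert _ _))⟩
              · exact ⟨Or.inr hu.1, hu.2⟩
          rw [e1]
          refine (DR_insert hr hs (fun hu => ?_) ?_).contr_up (ih' _ hsub)
          · rcases hu with hu | hu
            · exact hbA hu
            · exact hu.2 rfl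
          · rw [e2]
            exact ih' _ fun u hu => hsub hu.1
      · exact ih' _ fun u hu => (hC' hu).resolve_left fun h => hb (h ▸ hu)
  refine contr_of_directed (hA.1.mono subset_union_left) fun F hF hfin => ?_
  refine ⟨A ∪ (F ∩ B), fun u hu => ?_, union_subset_union_right _ inter_subset_right,
    key _ (hfin.subset inter_subset_left) inter_subset_right _ subset_rfl⟩
  exact (hF hu).imp_right fun h => ⟨hu, h⟩

end Vale.Agent.P203
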