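import Vale.Agent.P203.TopBasic

namespace Vale.Agent.P203

open Set

namespace TopPi

open unitInterval

variable {N : Type} [Fintype N]

/-- push the cube towards its boundary -/
noncomputable def cl (s : I) (y : N → I) : N → I :=
  fun i => projIcc (0 : ℝ) 1 zero_le_one ((1 + s) * (y i - 1 / 2) + 1 / 2)

/-- a cut off function vanishing on the boundary -/
noncomputable def rho (y : N → I) : ℝ := ∏ i, min 1 (4 * min (y i : ℝ) (1 - y i))

omit [Fintype N] in
theorem continuous_cl : Continuous fun z : I × (N → I) => cl z.1 z.2 :=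
  continuous_pi fun i => continuous_projIcc.comp (by fun_prop)

theorem continuous_rho : Continuous (rho : (N → I) → ℝ) :=
  continuous_finsetProd _ fun i _ => by fun_prop

omit [Fintype N] in
theorem cl_zero (y : N → I) : cl 0 y = y := by
  funext i
  simp [cl]

omit [Fintype N] in
theorem cl_mem (s : I) {y : N → I} (hy : y ∈ Cube.boundary N) : cl s y ∈ Cube.boundary N := by
  obtain ⟨i, h | h⟩ := hy
  · exact ⟨i, Or.inl (projIcc_of_le_left _ (by rw [h]; simp; linarith [s.2.1]))⟩
  · exact ⟨i, Or.inr (projIcc_of_right_le _ (by rw [h]; simp; linarith [s.2.1]))⟩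

theorem rho_eq_zero {y : N → I} (hy : y ∈ Cube.boundary N) : rho y = 0 := by
  obtain ⟨i, h | h⟩ := hy <;> exact Finset.prod_eq_zero (Finset.mem_univ i) (by simp [h])

theorem cl_one_mem {y : N → I} (hy : rho y ≠ 1) : cl 1 y ∈ Cube.boundary N := by
  have : ∃ i, min 1 (4 * min (y i : ℝ) (1 - y i)) ≠ 1 := by
    by_contra h
    push Not at h
    exact hy (Finset.prod_eq_one fun i _ => h i)
  obtain ⟨i, hi⟩ := this
  have h1 : 4 * min (y i : ℝ) (1 - y i) < 1 := lt_of_not_ge fun h => hi (min_eq_left h)
  rcases le_total (y i : ℝ) (1 - y i) with h | h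
  · rw [min_eq_left h] at h1
    exact ⟨i, Or.inl (projIcc_of_le_left _ (by simp; linarith))⟩
  · rw [min_eq_right h] at h1
    exact ⟨i, Or.inr (projIcc_of_right_le _ (by simp; linarith))⟩

/-- a free null homotopy that is constant on the boundary at each time gives a based one -/
theorem homotopic_const {X : Type*} [TopologicalSpace X] {x c : X} (f : GenLoop N X x)
    (K : C(I × (N → I), X)) (h0 : ∀ y, K (0, y) = f y) (h1 : ∀ y, K (1, y) = c) {y0 : N → I}
    (hy0 : y0 ∈ Cube.boundary N) (hb : ∀ t, ∀ y ∈ Cube.boundary N, K (t, y) = K (t, y0)) :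
    GenLoop.Homotopic f GenLoop.const := by
  have hr := continuous_rho (N := N)
  let g : C(N → I, X) := ⟨fun y => K (projIcc (0 : ℝ) 1 zero_le_one (rho y), y0),
    K.continuous.comp ((continuous_projIcc.comp hr).prodMk continuous_const)⟩
  have a1 : f.1.HomotopicRel g (Cube.boundary N) := ⟨{
    toFun := fun z => K (projIcc (0 : ℝ) 1 zero_le_one (z.1 * rho z.2), cl z.1 z.2)
    continuous_toFun := K.continuous.comp
      ((continuous_projIcc.comp (by fun_prop)).prodMk continuous_cl)
    map_zero_left := fun y => by simp [cl_zero, h0]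
    map_one_left := fun y => by
      by_cases h : rho y = 1
      · simp [g, h, h1]
      · simp [g, hb _ _ (cl_one_mem h)]
    prop' := fun t y hy => by
      simp [rho_eq_zero hy, h0, f.2 _ hy, GenLoop.boundary f _ (cl_mem t hy)] }⟩
  have a2 : g.HomotopicRel (GenLoop.const : GenLoop N X x).1 (Cube.boundary N) := ⟨{
    toFun := fun z => K (projIcc (0 : ℝ) 1 zero_le_one ((1 - z.1) * rho z.2), y0)
    continuous_toFun := K.continuous.comp
      ((continuous_projIcc.comp (by fun_prop)).prodMk continuous_const)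
    map_zero_left := fun y => by simp [g]
    map_one_left := fun y => by simp [h0, GenLoop.boundary f _ hy0]
    prop' := fun t y hy => by simp [g, rho_eq_zero hy] }⟩
  exact a1.trans a2

omit [Fintype N] in
/-- lifting a loop of dimension at least two -/
theorem exists_lift [Nontrivial N] {E X : Type*} [TopologicalSpace E] [TopologicalSpace X]
    {p : E → X} (hp : IsCoveringMap p) (hsurj : Function.Surjective p) {x : X}
    (f : GenLoop N X x) : ∃ g : C(N → I, E), (∀ y, p (g y) = f y) ∧
      ∀ y ∈ Cube.boundary N, g y = g 0 := by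
  classical
  obtain ⟨e, he⟩ := hsurj (f 0)
  let H : C(I × (N → I), X) := ⟨fun z => f fun i => z.1 * z.2 i,
    f.1.continuous.comp (continuous_pi fun i => by fun_prop)⟩
  have hH : ∀ a, H (0, a) = p (ContinuousMap.const (N → I) e a) := fun a => by
    simp only [H, ContinuousMap.coe_mk, zero_mul, ContinuousMap.const_apply, he]
    rfl
  let g : C(N → I, E) := ⟨fun y => hp.liftHomotopy H _ hH (1, y), by fun_prop⟩
  have hg : ∀ y, p (g y) = f y := fun y => by
    have := congrFun (hp.liftHomotopy_lifts H _ hH) (1, y)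
    refine this.trans ?_
    simp only [H, ContinuousMap.coe_mk, one_mul]
  have key : ∀ γ : I → N → I, Continuous γ → (∀ t, γ t ∈ Cube.boundary N) → g (γ 1) = g (γ 0) :=
    fun γ hγ hb => hp.const_of_comp (g.continuous.comp hγ)
      (fun t t' => by simp only [Function.comp, hg, GenLoop.boundary f _ (hb _)]) 1 0
  have k0 : ∀ (y : N → I) i, y i = 0 → g y = g 0 := fun y i hi => by
    have := key (fun t j => t * y j) (continuous_pi fun j => by fun_prop)
      fun t => ⟨i, Or.inl (by simp [hi])⟩
    simp only [one_mul, zero_mul] at this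
    exact this
  refine ⟨g, hg, ?_⟩
  rintro y ⟨i, hi | hi⟩
  · exact k0 y i hi
  · obtain ⟨j, hj⟩ := exists_ne i
    have := key (fun t => Function.update y j (t * y j)) (continuous_const.update j (by fun_prop))
      fun t => ⟨i, Or.inr (by rw [Function.update_of_ne hj.symm, hi])⟩
    simp only [one_mul, zero_mul, Function.update_eq_self] at this
    rw [this]
    exact k0 _ j (by simp)

end TopPi

theorem pi_subsingleton {V : Type*} {r : V → V → Prop} {A : Set V} (hA : Contr r A)
    (hfin : ∀ v ∈ A, {u ∈ A | r u v}.Finite) {X : Type*} [TopologicalSpace X] {p : Rz r A → X}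
    (hp : IsCoveringMap p) (hsurj : Function.Surjective p) {n : ℕ} (hn : 2 ≤ n) (x : X) :
    Subsingleton (HomotopyGroup.Pi n X x) := by
  have : Nontrivial (Fin n) := Fin.nontrivial_iff_two_le.2 hn
  have key : ∀ f : GenLoop (Fin n) X x, GenLoop.Homotopic f GenLoop.const := by
    intro f
    obtain ⟨g, hg, hb⟩ := TopPi.exists_lift hp hsurj f
    have hc : Continuous fun y => (g y).1 := continuous_subtype_val.comp g.continuous
    obtain ⟨t, ht⟩ := isCompact_univ.elim_finite_subcover (fun v : V => {y | 0 < (g y).1 v})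
      (fun v => isOpen_lt continuous_const ((continuous_apply v).comp hc)) (fun y _ => by
        by_contra h
        have h0 : ∀ v, (g y).1 v = 0 := fun v =>
          le_antisymm (le_of_not_gt fun hv => h (mem_iUnion.2 ⟨v, hv⟩)) ((g y).2.2.1 v)
        have := (g y).2.2.2.1
        simp [h0] at this)
    have hF : (⋃ v ∈ (t : Set V) ∩ A, {u ∈ A | r u v}).Finite :=
      (t.finite_toSet.inter_of_left A).biUnion fun v hv => hfin v hv.2
    have hm : ∀ y, (g y).1 ∈ Rz r (⋃ v ∈ (t : Set V) ∩ A, {u ∈ A | r u v}) := fun y => by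
      obtain ⟨v, hv, hy⟩ := mem_iUnion₂.1 (ht (mem_univ y))
      obtain ⟨a1, a2, a3, a4, a5⟩ := (g y).2
      have hs : v ∈ Function.support (g y).1 := ne_of_gt hy
      exact ⟨a1, a2, a3, fun u hu => mem_iUnion₂.2 ⟨v, ⟨hv, a4 hs⟩, a4 hu, a5 u hu v hs⟩, a5⟩
    obtain ⟨F', hF', -, H, c, ⟨b1, b2, b3⟩, b4⟩ :=
      hA.2 _ (iUnion₂_subset fun v _ u hu => hu.1) hF
    let K : C(unitInterval × (Fin n → unitInterval), Rz r A) :=
      ⟨fun z => ⟨H ((g z.2).1, z.1), Rz_mono hF' (b2 _ (hm _) _ z.1.2)⟩,
        (b1.comp_continuous ((hc.comp continuous_snd).prodMk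
          (continuous_subtype_val.comp continuous_fst)) fun z => ⟨hm _, z.1.2⟩).subtype_mk _⟩
    obtain ⟨i⟩ : Nonempty (Fin n) := inferInstance
    refine TopPi.homotopic_const f (ContinuousMap.comp ⟨p, hp.continuous⟩ K) (fun y => ?_)
      (c := p (K (1, 0))) (fun y => ?_) (y0 := 0) ⟨i, Or.inl rfl⟩ fun s y hy => ?_
    · rw [← hg]
      exact congrArg p (Subtype.ext (b3 _ (hm y)))
    · exact congrArg p (Subtype.ext ((b4 _ (hm y)).trans (b4 _ (hm 0)).symm))
    · exact congrArg p (Subtype.ext (by simp only [K, ContinuousMap.coe_mk, hb y hy]))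
  exact ⟨fun a b => Quotient.inductionOn₂ a b fun f g =>
    Quotient.sound ((key f).trans (key g).symm)⟩

end Vale.Agent.P203
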