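import Vale.Agent.P203.TopBasic

namespace Vale.Agent.P203

open Set Filter Topology

variable {V : Type*} {r : V → V → Prop}

namespace TopPush

theorem le_one {A : Set V} {x : V → ℝ} (hx : x ∈ Rz r A) (u : V) : x u ≤ 1 :=
  hx.2.2.1 ▸ single_le_finsum u hx.1 hx.2.1

theorem smul_cont {X : Type*} [TopologicalSpace X] {S : Set X} {φ : X → ℝ} {g : X → V → ℝ}
    (hφ : Continuous φ) (hg : ContinuousOn g (S ∩ {p | φ p ≠ 0}))
    (hb : ∀ p ∈ S, φ p ≠ 0 → ∀ u, |g p u| ≤ 1) : ContinuousOn (fun p => φ p • g p) S := by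
  intro p hp
  by_cases h0 : φ p = 0
  · rw [ContinuousWithinAt, tendsto_pi_nhds]
    intro u
    simp only [h0, Pi.smul_apply, smul_eq_mul, zero_mul]
    have h1 : Tendsto (fun q => |φ q|) (𝓝[S] p) (𝓝 0) := by
      have := (hφ.abs.tendsto p).mono_left (nhdsWithin_le_nhds (s := S))
      simpa [h0] using this
    refine squeeze_zero_norm' ?_ h1
    filter_upwards [self_mem_nhdsWithin] with q hq
    by_cases hq0 : φ q = 0
    · simp [hq0]
    · rw [Real.norm_eq_abs, abs_mul]
      exact mul_le_of_le_one_right (abs_nonneg _) (hb q hq hq0 u)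
  · refine hφ.continuousWithinAt.smul ?_
    have h1 : {q | φ q ≠ 0} ∈ 𝓝 p := (isOpen_ne_fun hφ continuous_const).mem_nhds h0
    exact (continuousWithinAt_inter h1).1 (hg p ⟨hp, h0⟩)

open Classical in
theorem finsum_single (v : V) : ∑ᶠ u, (Pi.single v 1 : V → ℝ) u = 1 := by
  rw [finsum_eq_single _ v fun u hu => by simp [hu]]
  simp

open Classical in
theorem fin_single (v : V) (t : ℝ) :
    (Function.support fun u => t * (Pi.single v 1 : V → ℝ) u).Finite :=
  (Set.finite_singleton v).subset fun u hu => by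
    by_contra h
    have h' : u ≠ v := h
    simp [h'] at hu

theorem fin_mul {x : V → ℝ} (hx : (Function.support x).Finite) (t : ℝ) :
    (Function.support fun u => t * x u).Finite :=
  hx.subset fun u hu h => hu (by simp [h])

open Classical in
theorem join_mem (hr : ∀ v, r v v) (hs : ∀ u v, r u v → r v u) {v : V} {A B : Set V}
    (hA : ∀ u ∈ A, r u v) (hAB : A ⊆ B) (hv : v ∈ B) {z : V → ℝ} (hz : z ∈ Rz r A) {t : ℝ}
    (h0 : 0 ≤ t) (h1 : t ≤ 1) : (1 - t) • z + t • (Pi.single v 1 : V → ℝ) ∈ Rz r B := by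
  have hsup : ∀ u ∈ Function.support ((1 - t) • z + t • (Pi.single v 1 : V → ℝ)),
      u = v ∨ u ∈ Function.support z := fun u hu => by
    by_contra h
    rw [not_or] at h
    have h2 : z u = 0 := not_not.1 h.2
    simp [h.1, h2] at hu
  refine ⟨(hz.1.insert v).subset hsup, fun u => ?_, ?_, fun u hu => ?_, fun u hu w hw => ?_⟩
  · have := hz.2.1 u
    have h2 : 0 ≤ 1 - t := by linarith
    have h3 : 0 ≤ (Pi.single v 1 : V → ℝ) u := by
      by_cases h : u = v <;> simp [h]
    simp only [Pi.add_apply, Pi.smul_apply, smul_eq_mul]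
    positivity
  · simp only [Pi.add_apply, Pi.smul_apply, smul_eq_mul]
    rw [finsum_add_distrib (fin_mul hz.1 _) (fin_single v t), ← mul_finsum, ← mul_finsum,
      hz.2.2.1, finsum_single]
    ring
  · rcases hsup u hu with rfl | h
    · exact hv
    · exact hAB (hz.2.2.2.1 h)
  · rcases hsup u hu with rfl | h <;> rcases hsup w hw with rfl | h'
    · exact hr _
    · exact hs _ _ (hA _ (hz.2.2.2.1 h'))
    · exact hA _ (hz.2.2.2.1 h)
    · exact hz.2.2.2.2 _ h _ h'

open Classical in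
/-- radial projection from the vertex `v` -/
noncomputable def pj (v : V) (x : V → ℝ) : V → ℝ :=
  (1 - x v)⁻¹ • (x - x v • (Pi.single v 1 : V → ℝ))

theorem pj_mem {v : V} {A : Set V} {x : V → ℝ} (hx : x ∈ Rz r (insert v A)) (h : x v ≠ 1) :
    pj v x ∈ Rz r A := by
  classical
  have h1 : 0 < 1 - x v := sub_pos.2 (lt_of_le_of_ne (le_one hx v) h)
  have hsup : ∀ u ∈ Function.support (pj v x), u ≠ v ∧ u ∈ Function.support x := fun u hu => by
    constructor
    · rintro rfl
      simp [pj] at hu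
    · intro h2
      by_cases h3 : u = v
      · subst h3
        simp [pj] at hu
      · simp [pj, h2, h3] at hu
  refine ⟨hx.1.subset fun u hu => (hsup u hu).2, fun u => ?_, ?_, fun u hu => ?_,
    fun u hu w hw => hx.2.2.2.2 _ (hsup u hu).2 _ (hsup w hw).2⟩
  · by_cases h3 : u = v
    · subst h3
      simp [pj]
    · have := hx.2.1 u
      simp only [pj, Pi.smul_apply, Pi.sub_apply, smul_eq_mul, Pi.single_eq_of_ne h3, mul_zero,
        sub_zero]
      positivity
  · simp only [pj, Pi.smul_apply, Pi.sub_apply, smul_eq_mul]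
    rw [← mul_finsum, finsum_sub_distrib hx.1 (fin_single v _), ← mul_finsum, hx.2.2.1]
    have := finsum_single v
    rw [show (∑ᶠ u, (Pi.single v 1 : V → ℝ) u) = 1 by convert this, mul_one,
      inv_mul_cancel₀ h1.ne']
  · exact (hx.2.2.2.1 (hsup u hu).2).resolve_left (hsup u hu).1

open Classical in
theorem pj_eq {v : V} {x : V → ℝ} (h : x v ≠ 1) :
    (1 - x v) • pj v x + x v • (Pi.single v 1 : V → ℝ) = x := by
  rw [pj, smul_smul, mul_inv_cancel₀ (sub_ne_zero.2 h.symm), one_smul, sub_add_cancel]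

theorem pj_cont (v : V) : ContinuousOn (pj v) {x | x v ≠ 1} := by
  classical
  unfold pj
  refine ContinuousOn.smul (ContinuousOn.inv₀ (by fun_prop) fun x hx => sub_ne_zero.2 (Ne.symm hx))
    (by fun_prop)

end TopPush

open TopPush

theorem push (hr : ∀ v, r v v) (hs : ∀ u v, r u v → r v u) {v : V} {L F : Set V}
    (hL : Contr r L) (hLv : ∀ u ∈ L, r u v ∧ u ≠ v) (hF : F.Finite)
    (hFL : ∀ u ∈ F, u ≠ v → r u v → u ∈ L) :
    ∃ L' ⊆ L, L'.Finite ∧ ∃ H, Hty r F (F ∪ L') H ∧
      (∀ x ∈ Rz r F, H (x, 1) ∈ Rz r ((F \ {v}) ∪ L')) ∧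
      ∀ x ∈ Rz r (F \ {v}), ∀ t ∈ Icc (0 : ℝ) 1, H (x, t) = x := by
  classical
  obtain ⟨⟨l, hl⟩, hc⟩ := hL
  have hL0 : (insert l (F ∩ L)).Finite := (hF.inter_of_left L).insert l
  obtain ⟨L', hL', hfin, K, c, ⟨hK1, hK2, hK3⟩, hK4⟩ :=
    hc (insert l (F ∩ L)) (insert_subset hl inter_subset_right) hL0
  set L0 := insert l (F ∩ L) with hL0d
  have hcm : c ∈ Rz r L' := by
    have h1 := single_mem_Rz (hr l) (mem_insert l (F ∩ L))
    rw [← hK4 _ h1]
    exact hK2 _ h1 1 ⟨zero_le_one, le_rfl⟩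
  have hstar : ∀ x ∈ Rz r F, x v ≠ 0 → v ∈ F ∧ x ∈ Rz r (insert v L0) := fun x hx h0 =>
    ⟨hx.2.2.2.1 h0, hx.1, hx.2.1, hx.2.2.1, fun u hu => by
      by_cases h : u = v
      · exact Or.inl h
      · exact Or.inr (Or.inr ⟨hx.2.2.2.1 hu, hFL u (hx.2.2.2.1 hu) h (hx.2.2.2.2 u hu v h0)⟩),
      hx.2.2.2.2⟩
  have hpar : ∀ a τ : ℝ, 0 ≤ a → a ≤ 1 → 0 ≤ τ → a * min 1 (2 * τ) ∈ Icc (0 : ℝ) 1 :=
    fun a τ h0 h1 h2 => ⟨mul_nonneg h0 (le_min zero_le_one (by linarith)),
      mul_le_one₀ h1 (le_min zero_le_one (by linarith)) (min_le_left _ _)⟩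
  let Z : (V → ℝ) × ℝ → V → ℝ := fun p =>
    if p.1 v = 1 then c else K (pj v p.1, min (2 * p.2) 1 * min 1 (2 * p.1 v))
  let τ : (V → ℝ) × ℝ → ℝ := fun p => (1 - max (2 * p.2 - 1) 0) * p.1 v
  let H : (V → ℝ) × ℝ → V → ℝ := fun p =>
    if p.1 v = 0 then p.1 else (1 - τ p) • Z p + τ p • (Pi.single v 1 : V → ℝ)
  have hZ : ∀ x ∈ Rz r (insert v L0), ∀ t ∈ Icc (0 : ℝ) 1, Z (x, t) ∈ Rz r L' := by
    intro x hx t ht
    by_cases h : x v = 1
    · simp only [Z, h, if_true]
      exact hcm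
    · simp only [Z, h, if_false]
      exact hK2 _ (pj_mem hx h) _
        (hpar _ _ (le_min (by linarith [ht.1]) zero_le_one) (min_le_right _ _) (hx.2.1 v))
  refine ⟨L', hL', hfin, H, ⟨?_, fun x hx t ht => ?_, fun x hx => ?_⟩, fun x hx => ?_,
    fun x hx t _ => ?_⟩
  · have hA : ContinuousOn H {p | p.1 v = 0} :=
      continuousOn_fst.congr fun p hp => if_pos hp
    have hab : ∀ x ∈ Rz r L', ∀ u, |x u| ≤ 1 := fun x hx u => by
      rw [abs_of_nonneg (hx.2.1 u)]
      exact le_one hx u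
    have hKc : ∀ (a φ : (V → ℝ) × ℝ → ℝ), Continuous a → Continuous φ →
        (∀ p : (V → ℝ) × ℝ, p.2 ∈ Icc (0 : ℝ) 1 → 0 ≤ a p ∧ a p ≤ 1) →
        (∀ p, p.1 v = 1 → φ p = 0) →
        ContinuousOn (fun p => φ p • K (pj v p.1, a p * min 1 (2 * p.1 v)))
          (Rz r (insert v L0) ×ˢ Icc 0 1) := by
      intro a φ ha hφ ha' hφ'
      have hm : ∀ p ∈ Rz r (insert v L0) ×ˢ Icc (0 : ℝ) 1, φ p ≠ 0 →
          (pj v p.1, a p * min 1 (2 * p.1 v)) ∈ Rz r L0 ×ˢ Icc (0 : ℝ) 1 := fun p hp h =>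
        ⟨pj_mem hp.1 fun h' => h (hφ' p h'),
          hpar _ _ (ha' p hp.2).1 (ha' p hp.2).2 (hp.1.2.1 v)⟩
      refine smul_cont hφ (hK1.comp (ContinuousOn.prodMk ?_ (by fun_prop))
        fun p hp => hm p hp.1 hp.2) fun p hp h => hab _ (hK2 _ (hm p hp h).1 _ (hm p hp h).2)
      exact (pj_cont v).comp continuousOn_fst fun p hp h' => hp.2 (hφ' p h')
    have h1 := hKc (fun p => min (2 * p.2) 1) (fun p => 1 - p.1 v) (by fun_prop) (by fun_prop)
      (fun p hp => ⟨le_min (by linarith [hp.1]) zero_le_one, min_le_right _ _⟩)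
      (fun p hp => by simp [hp])
    have h2 := hKc (fun _ => 1) (fun p => max (2 * p.2 - 1) 0 * p.1 v * min 1 (2 - 2 * p.1 v))
      (by fun_prop) (by fun_prop) (fun p _ => ⟨zero_le_one, le_rfl⟩) (fun p hp => by simp [hp])
    have h3 : Continuous fun p : (V → ℝ) × ℝ =>
        (max (2 * p.2 - 1) 0 * p.1 v * (1 - min 1 (2 - 2 * p.1 v))) • c +
          τ p • (Pi.single v 1 : V → ℝ) := by
      simp only [τ]
      fun_prop
    have hB : ContinuousOn H (Rz r (insert v L0) ×ˢ Icc 0 1) := by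
      refine ((h1.add h2).add h3.continuousOn).congr ?_
      rintro ⟨x, t⟩ ⟨hx, ht⟩
      simp only [Pi.add_apply] at hx ht ⊢
      by_cases h0 : x v = 0
      · have hx1 : x v ≠ 1 := by rw [h0]; norm_num
        have h4 := pj_eq hx1
        have h5 := hK3 _ (pj_mem hx hx1)
        simp only [h0, sub_zero, one_smul, zero_smul, add_zero] at h4
        rw [h4] at h5
        simp [H, τ, h0, h5, h4]
      · simp only [H, h0, if_false]
        rw [← add_assoc]
        congr 1
        by_cases h1 : x v = 1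
        · simp [Z, τ, h1]
        · simp only [Z, τ, h1, if_false, one_mul]
          rcases le_total (2 * t) 1 with h6 | h6
          · rw [max_eq_right (by linarith)]
            simp
          · rw [min_eq_right h6, one_mul]
            rcases le_total (2 * x v) 1 with h7 | h7
            · rw [min_eq_left (show 1 ≤ 2 - 2 * x v by linarith)]
              module
            · rw [min_eq_left h7, hK4 _ (pj_mem hx h1)]
              module
    refine (hA.union_of_isClosed hB (isClosed_eq (by fun_prop) continuous_const)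
      ((isCompact_Rz (hL0.insert v)).isClosed.prod isClosed_Icc)).mono ?_
    rintro ⟨x, t⟩ ⟨hx, ht⟩
    by_cases h0 : x v = 0
    · exact Or.inl h0
    · exact Or.inr ⟨(hstar x hx h0).2, ht⟩
  · by_cases h0 : x v = 0
    · simp only [H, h0, if_true]
      exact Rz_mono subset_union_left hx
    · simp only [H, h0, if_false]
      have h1 : max (2 * t - 1) 0 ≤ 1 := max_le (by linarith [ht.2]) zero_le_one
      have h2 : 0 ≤ max (2 * t - 1) 0 := le_max_right _ _
      exact join_mem hr hs (fun u hu => (hLv u (hL' hu)).1) subset_union_right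
        (Or.inl (hstar x hx h0).1) (hZ x (hstar x hx h0).2 t ht)
        (mul_nonneg (by linarith) (hx.2.1 v))
        (mul_le_one₀ (by linarith) (hx.2.1 v) (le_one hx v))
  · by_cases h0 : x v = 0
    · simp only [H, h0, if_true]
    · have hx' := (hstar x hx h0).2
      simp only [H, h0, if_false, τ, Z]
      rw [max_eq_right (by norm_num), sub_zero, one_mul, mul_zero, min_eq_left zero_le_one,
        zero_mul]
      by_cases h1 : x v = 1
      · rw [h1, sub_self, zero_smul, zero_add, one_smul]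
        funext u
        by_cases h : u = v
        · rw [h, h1, Pi.single_eq_same]
        · rw [Pi.single_eq_of_ne h]
          have h2 : x v + x u ≤ 1 := by
            rw [← hx.2.2.1, ← Finset.sum_pair (f := x) (Ne.symm h),
              finsum_eq_sum_of_support_subset (s := insert v (insert u hx.1.toFinset)) _
                (fun w hw => by simp [Function.mem_support.1 hw])]
            refine Finset.sum_le_sum_of_subset_of_nonneg ?_ fun w _ _ => hx.2.1 w
            intro w hw
            simp only [Finset.mem_insert, Finset.mem_singleton] at hw ⊢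
            tauto
          linarith [hx.2.1 u]
      · rw [if_neg h1, hK3 _ (pj_mem hx' h1), pj_eq h1]
  · by_cases h0 : x v = 0
    · simp only [H, h0, if_true]
      exact ⟨hx.1, hx.2.1, hx.2.2.1, fun u hu => Or.inl ⟨hx.2.2.2.1 hu, fun h => hu (by
        rw [mem_singleton_iff.1 h, h0])⟩, hx.2.2.2.2⟩
    · have h1 : τ (x, 1) = 0 := by
        simp only [τ]
        norm_num
      simp only [H, h0, if_false, h1, sub_zero, one_smul, zero_smul, add_zero]
      exact Rz_mono subset_union_right (hZ x (hstar x hx h0).2 1 ⟨zero_le_one, le_rfl⟩)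
  · have h0 : x v = 0 := by
      by_contra h
      exact (hx.2.2.2.1 h).2 rfl
    simp only [H, h0, if_true]

end Vale.Agent.P203
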